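import Vale.Agent.P267.H667.Weak

/-!
# Weyl's lemma for `∂bar` on `ℂ²`, limits of solutions
-/

open MeasureTheory Filter Topology Set Metric
open scoped Convolution ComplexConjugate ContDiff

namespace Vale.Agent.P267.H667

noncomputable section

variable {F : Type*} [NormedAddCommGroup F] [NormedSpace ℂ F]

lemma c2_eq (v : C2) : v = ∑ j, ((v j).re • (Pi.single j (1 : ℂ) : C2) +
    (v j).im • (Pi.single j Complex.I : C2)) := by
  ext i
  rw [Fin.sum_univ_two]
  fin_cases i
  · simp
  · simp

/-- The Cauchy-Riemann equations. -/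
theorem hasFDerivAt_complex_of_db {u : C2 → F} {z : C2} (hu : DifferentiableAt ℝ u z)
    (h : ∀ j, db j u z = 0) : HasFDerivAt u
      (∑ j, (ContinuousLinearMap.proj (R := ℂ) (φ := fun _ : Fin 2 => ℂ) j).smulRight
        (fderiv ℝ u z (Pi.single j 1)) : C2 →L[ℂ] F) z := by
  set L := fderiv ℝ u z with hL
  have hI : ∀ j : Fin 2, L (Pi.single j Complex.I) = Complex.I • L (Pi.single j 1) := by
    intro j
    have h1 := h j
    rw [db_eq] at h1
    have h2 : L (Pi.single j 1) + Complex.I • L (Pi.single j Complex.I) = 0 := by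
      rcases smul_eq_zero.1 h1 with h3 | h3
      · norm_num at h3
      · exact h3
    have h4 : L (Pi.single j 1) = - (Complex.I • L (Pi.single j Complex.I)) :=
      eq_neg_of_add_eq_zero_left h2
    rw [h4, smul_neg, smul_smul, Complex.I_mul_I, neg_one_smul, neg_neg]
  refine hasFDerivAt_of_restrictScalars ℝ hu.hasFDerivAt ?_
  ext v
  rw [← hL]
  conv_rhs => rw [c2_eq v]
  rw [map_sum]
  simp only [map_add, map_smul, hI]
  simp only [ContinuousLinearMap.coe_restrictScalars', _root_.sum_apply,
    ContinuousLinearMap.smulRight_apply, ContinuousLinearMap.proj_apply]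
  refine Finset.sum_congr rfl fun j _ => ?_
  conv_lhs => rw [← Complex.re_add_im (v j)]
  simp only [← Complex.coe_smul]
  module

theorem differentiableAt_complex_of_db {u : C2 → F} {z : C2} (hu : DifferentiableAt ℝ u z)
    (h : ∀ j, db j u z = 0) : DifferentiableAt ℂ u z :=
  (hasFDerivAt_complex_of_db hu h).differentiableAt

/-- Holomorphic functions satisfy the Cauchy-Riemann equations. -/
theorem db_eq_zero_of_complex {u : C2 → F} {z : C2} (hu : DifferentiableAt ℂ u z) (j : Fin 2) :
    db j u z = 0 := by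
  have h1 : fderiv ℝ u z = (fderiv ℂ u z).restrictScalars ℝ :=
    (hu.hasFDerivAt.restrictScalars ℝ).fderiv
  have h2 : (Pi.single j Complex.I : C2) = Complex.I • (Pi.single j (1 : ℂ) : C2) := by
    rw [← Pi.single_smul]; simp
  rw [db_eq, h1]
  simp only [ContinuousLinearMap.coe_restrictScalars']
  rw [h2, map_smul, smul_smul, Complex.I_mul_I, neg_one_smul, add_neg_cancel, smul_zero]

variable [CompleteSpace F]

/-- **Weyl's lemma for `∂bar`**: a continuous function on an open set whose weak `∂bar`-derivatives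
vanish is holomorphic. -/
theorem differentiableOn_of_weakDb_zero {U : Set C2} (hU : IsOpen U) {u : C2 → F}
    (hu : ContinuousOn u U) (hw : ∀ j, WeakDb j U u (fun _ => 0)) : DifferentiableOn ℂ u U := by
  have h1 : ContDiffOn ℝ 1 u U :=
    contDiffOn_of_weakDb (n := 1) hU hu (fun j => contDiffOn_const) hw
  intro z hz
  have h2 : DifferentiableAt ℝ u z := (h1.contDiffAt (hU.mem_nhds hz)).differentiableAt one_ne_zero
  refine (differentiableAt_complex_of_db h2 fun j => ?_).differentiableWithinAt
  exact db_eq_of_weakDb hU h1 continuousOn_const (hw j) hz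

omit [CompleteSpace F] in
/-- Weak derivatives pass to locally uniform limits. -/
theorem WeakDb.of_tendsto {ι : Type*} {l : Filter ι} [l.NeBot] [l.IsCountablyGenerated] {j : Fin 2}
    {U : Set C2} (hU : IsOpen U) {un an : ι → C2 → F} {u a : C2 → F}
    (hun : ∀ i, ContinuousOn (un i) U) (han : ∀ i, ContinuousOn (an i) U)
    (hw : ∀ i, WeakDb j U (un i) (an i))
    (h1 : TendstoLocallyUniformlyOn un u l U) (h2 : TendstoLocallyUniformlyOn an a l U) :
    WeakDb j U u a := by
  intro φ hφ hφc hφs
  have key : ∀ (g : C2 → ℂ) (vn : ι → C2 → F) (v : C2 → F), Continuous g → tsupport g ⊆ tsupport φ →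
      (∀ i, ContinuousOn (vn i) U) → TendstoLocallyUniformlyOn vn v l U →
      Tendsto (fun i => ∫ z, g z • vn i z) l (𝓝 (∫ z, g z • v z)) := by
    intro g vn v hg hgs hvn hv
    have hK : IsCompact (tsupport φ) := hφc
    have hunif : TendstoUniformlyOn vn v l (tsupport φ) :=
      (tendstoLocallyUniformlyOn_iff_forall_isCompact hU).1 hv _ hφs hK
    have hvc : ContinuousOn v U := hv.continuousOn (Frequently.of_forall hvn)
    obtain ⟨B, hB⟩ := hK.exists_bound_of_continuousOn (hvc.mono hφs)
    have hgc : HasCompactSupport g := hK.of_isClosed_subset (isClosed_tsupport g) hgs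
    have hgi : Integrable fun z => ‖g z‖ * (B + 1) :=
      (hg.norm.integrable_of_hasCompactSupport hgc.norm).mul_const _
    have hmeas : ∀ w : C2 → F, ContinuousOn w U → AEStronglyMeasurable (fun z => g z • w z) := by
      intro w hw
      have h3 : ContinuousOn (fun z => g z • w z) (tsupport φ) :=
        hg.continuousOn.smul (hw.mono hφs)
      have h4 : IntegrableOn (fun z => g z • w z) (tsupport φ) := h3.integrableOn_compact hK
      refine ((integrableOn_iff_integrable_of_support_subset ?_).1 h4).aestronglyMeasurable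
      intro z hz
      by_contra hz2
      apply hz
      have : g z = 0 := image_eq_zero_of_notMem_tsupport fun h => hz2 (hgs h)
      simp [this]
    refine tendsto_integral_filter_of_dominated_convergence (fun z => ‖g z‖ * (B + 1)) ?_ ?_ hgi ?_
    · exact Eventually.of_forall fun i => hmeas _ (hvn i)
    · rw [Metric.tendstoUniformlyOn_iff] at hunif
      filter_upwards [hunif 1 one_pos] with i hi
      refine Eventually.of_forall fun z => ?_
      rw [norm_smul]
      by_cases hz : z ∈ tsupport φ
      · refine mul_le_mul_of_nonneg_left ?_ (norm_nonneg _)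
        have h3 := hi z hz
        rw [dist_eq_norm, norm_sub_rev] at h3
        calc ‖vn i z‖ = ‖v z + (vn i z - v z)‖ := by congr 1; abel
          _ ≤ ‖v z‖ + ‖vn i z - v z‖ := norm_add_le _ _
          _ ≤ B + 1 := add_le_add (hB z hz) h3.le
      · have : g z = 0 := image_eq_zero_of_notMem_tsupport fun h => hz (hgs h)
        simp [this]
    · refine Eventually.of_forall fun z => ?_
      by_cases hz : z ∈ tsupport φ
      · exact (hunif.tendsto_at hz).const_smul _
      · have : g z = 0 := image_eq_zero_of_notMem_tsupport fun h => hz (hgs h)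
        simp only [this, zero_smul]
        exact tendsto_const_nhds
  have e1 := key (db j φ) un u (continuous_db (hφ.of_le (by exact_mod_cast le_top)))
    (tsupport_db_subset j φ) hun h1
  have e2 := key φ an a hφ.continuous subset_rfl han h2
  have e3 : ∀ i, ∫ z, db j φ z • un i z = - ∫ z, φ z • an i z := fun i => hw i φ hφ hφc hφs
  simp only [e3] at e1
  exact tendsto_nhds_unique e1 e2.neg

omit [CompleteSpace F] in
/-- Cut-off function for a compact subset of an open set. -/
lemma exists_cutoff_compact {K U : Set C2} (hK : IsCompact K) (hU : IsOpen U) (hKU : K ⊆ U) :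
    ∃ χ : C2 → ℝ, ContDiff ℝ ∞ χ ∧ HasCompactSupport χ ∧ tsupport χ ⊆ U ∧
      (∀ z ∈ K, ∀ᶠ w in 𝓝 z, χ w = 1) ∧ ∀ z, 0 ≤ χ z ∧ χ z ≤ 1 := by
  obtain ⟨L, hL, hKL, hLU⟩ := exists_compact_between hK hU hKU
  obtain ⟨f, hf1, hf0, hf⟩ := exists_contMDiffMap_one_nhds_of_subset_interior
    (modelWithCornersSelf ℝ C2) (n := ⊤) hK.isClosed hKL
  have hs : Function.support f ⊆ L := fun z hz => by
    by_contra h
    exact hz (hf0 z h)
  have hts : tsupport f ⊆ L := closure_minimal hs hL.isClosed
  refine ⟨f, f.contMDiff.contDiff, hL.of_isClosed_subset (isClosed_tsupport _) hts,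
    hts.trans hLU, fun z hz => ?_, fun z => ⟨(hf z).1, (hf z).2⟩⟩
  exact (eventually_nhdsSet_iff_forall.1 hf1) z hz

omit [CompleteSpace F] in
/-- Classical derivatives on an open set are weak derivatives. -/
lemma weakDb_of_contDiffOn {j : Fin 2} {U : Set C2} (hU : IsOpen U) {u : C2 → F}
    (hu : ContDiffOn ℝ 1 u U) : WeakDb j U u (db j u) := by
  intro φ hφ hφc hφs
  obtain ⟨χ, h1, h2, h3, h4, -⟩ := exists_cutoff_compact hφc hU hφs
  have hc : ContDiff ℝ 1 (cut χ u) := contDiff_cut_of_tsupport (n := 1) h1 hU h3 hu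
  have h5 := integral_smul_db (j := j) (hφ.of_le (by exact_mod_cast le_top) : ContDiff ℝ 1 φ) hc
    (hasCompactSupport_cut h2)
  have e1 : ∀ z, φ z • db j (cut χ u) z = φ z • db j u z := by
    intro z
    by_cases hz : z ∈ tsupport φ
    · rw [db_congr_nhds (cut_eventuallyEq (h4 z hz))]
    · have : φ z = 0 := image_eq_zero_of_notMem_tsupport hz
      rw [this, zero_smul, zero_smul]
  have e2 : ∀ z, db j φ z • cut χ u z = db j φ z • u z := by
    intro z
    by_cases hz : z ∈ tsupport φ
    · rw [(cut_eventuallyEq (h4 z hz)).self_of_nhds]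
    · have : db j φ z = 0 :=
        image_eq_zero_of_notMem_tsupport fun h => hz (tsupport_db_subset j φ h)
      rw [this, zero_smul, zero_smul]
  simp only [e1, e2] at h5
  rw [h5, neg_neg]

/-- **Limits of solutions**: if `uₙ → u` and `db j uₙ → a j` locally uniformly on `U` and the `a j`
are `C^m`, `m ≥ 1`, then `u` is `C^m` on `U` with `db j u = a j`. -/
theorem contDiffOn_of_tendsto {ι : Type*} {l : Filter ι} [l.NeBot] [l.IsCountablyGenerated]
    {U : Set C2} (hU : IsOpen U) {un : ι → C2 → F} {u : C2 → F} {a : Fin 2 → C2 → F} {m : ℕ∞}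
    (hm : 1 ≤ m) (hun : ∀ i, ContDiffOn ℝ 1 (un i) U) (ha : ∀ j, ContDiffOn ℝ m (a j) U)
    (h1 : TendstoLocallyUniformlyOn un u l U)
    (h2 : ∀ j, TendstoLocallyUniformlyOn (fun i => db j (un i)) (a j) l U) :
    ContDiffOn ℝ m u U ∧ ∀ z ∈ U, ∀ j, db j u z = a j z := by
  have hdb : ∀ i j, ContinuousOn (db j (un i)) U := by
    intro i j
    have h3 : ContinuousOn (fderiv ℝ (un i)) U :=
      (hun i).continuousOn_fderiv_of_isOpen hU le_rfl
    exact (continuous_dbL j).comp_continuousOn h3
  have hw : ∀ j, WeakDb j U u (a j) := fun j =>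
    WeakDb.of_tendsto hU (fun i => (hun i).continuousOn) (fun i => hdb i j)
      (fun i => weakDb_of_contDiffOn hU (hun i)) h1 (h2 j)
  have huc : ContinuousOn u U := h1.continuousOn (Frequently.of_forall fun i => (hun i).continuousOn)
  have h3 : ContDiffOn ℝ m u U := contDiffOn_of_weakDb hU huc ha hw
  have h4 : ContDiffOn ℝ 1 u U := h3.of_le (by exact_mod_cast hm)
  exact ⟨h3, fun z hz j => db_eq_of_weakDb hU h4 (ha j).continuousOn (hw j) hz⟩

end

end Vale.Agent.P267.H667
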