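import Vale.Agent.P267.H667.Op

/-!
# Compactly supported kernels, cut-off kernels
-/

open MeasureTheory Filter Topology Set Metric
open scoped Convolution ComplexConjugate ContDiff

namespace Vale.Agent.P267.H667

noncomputable section

variable {F : Type*} [NormedAddCommGroup F] [NormedSpace ℂ F]

/-- Smooth cut-off function equal to one on the closed ball of radius `R`. -/
lemma exists_cutoff (z₀ : C2) {R : ℝ} (hR : 0 < R) :
    ∃ χ : C2 → ℝ, ContDiff ℝ ∞ χ ∧ HasCompactSupport χ ∧ (∀ z ∈ closedBall z₀ R, χ z = 1) ∧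
      (∀ z, 0 ≤ χ z) ∧ (∀ z, χ z ≤ 1) ∧ tsupport χ ⊆ closedBall z₀ (2 * R) := by
  let b : ContDiffBump z₀ := ⟨R, 2 * R, hR, by linarith⟩
  refine ⟨b, b.contDiff, b.hasCompactSupport, fun z hz => b.one_of_mem_closedBall hz,
    fun z => b.nonneg, fun z => b.le_one, ?_⟩
  rw [b.tsupport_eq]

/-- the function `χ • f` -/
def cut (χ : C2 → ℝ) (f : C2 → F) (z : C2) : F := χ z • f z

lemma contDiff_cut {χ : C2 → ℝ} {f : C2 → F} {n : ℕ∞} (hχ : ContDiff ℝ ∞ χ) (hf : ContDiff ℝ n f) :
    ContDiff ℝ n (cut χ f) := (hχ.of_le (by exact_mod_cast le_top)).smul hf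

lemma hasCompactSupport_cut {χ : C2 → ℝ} {f : C2 → F} (hχ : HasCompactSupport χ) :
    HasCompactSupport (cut χ f) := hχ.smul_right

/-- Localisation: near `z₀` only the values of `f` on a ball matter. -/
lemma cv_cut_eq {k : C2 → ℂ} {r : ℝ} (hk : ∀ w, r < ‖w‖ → k w = 0) {χ : C2 → ℝ} {z₀ : C2}
    {R : ℝ} (hχ : ∀ z ∈ closedBall z₀ (r + R), χ z = 1) (f : C2 → F) {z : C2}
    (hz : z ∈ closedBall z₀ R) : cv k f z = cv k (cut χ f) z := by
  unfold cv
  congr 1
  funext w
  by_cases hw : r < ‖w‖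
  · simp [hk w hw]
  · rw [cut, hχ, one_smul]
    rw [mem_closedBall, dist_eq_norm] at hz ⊢
    calc ‖z - w - z₀‖ = ‖(z - z₀) - w‖ := by congr 1; abel
      _ ≤ ‖z - z₀‖ + ‖w‖ := norm_sub_le _ _
      _ ≤ R + r := add_le_add hz (not_lt.1 hw)
      _ = r + R := add_comm _ _

lemma exists_radius {k : C2 → ℂ} (hk : HasCompactSupport k) :
    ∃ r : ℝ, 0 < r ∧ ∀ w, r < ‖w‖ → k w = 0 := by
  obtain ⟨r, hr⟩ := hk.isCompact.isBounded.subset_closedBall 0
  refine ⟨max r 1, by positivity, fun w hw => ?_⟩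
  by_contra h
  have := hr (subset_tsupport k h)
  rw [mem_closedBall_zero_iff] at this
  exact absurd (this.trans (le_max_left r 1)) (not_le.2 hw)

lemma exists_cut {k : C2 → ℂ} (hk : HasCompactSupport k) (z₀ : C2) :
    ∃ χ : C2 → ℝ, ContDiff ℝ ∞ χ ∧ HasCompactSupport χ ∧
      (∀ w, k w ≠ 0 → ∀ᶠ u in 𝓝 (z₀ - w), χ u = 1) ∧
      ∀ᶠ z in 𝓝 z₀, ∀ f : C2 → F, cv k f z = cv k (cut χ f) z := by
  obtain ⟨r, hr0, hr⟩ := exists_radius hk
  obtain ⟨χ, h1, h2, h3, -, -, -⟩ := exists_cutoff z₀ (R := r + 1) (by positivity)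
  refine ⟨χ, h1, h2, fun w hw => ?_, ?_⟩
  · have h4 : z₀ - w ∈ ball z₀ (r + 1) := by
      rw [mem_ball, dist_eq_norm]
      have : ‖z₀ - w - z₀‖ = ‖w‖ := by
        rw [show z₀ - w - z₀ = -w by abel, norm_neg]
      rw [this]
      by_contra h
      exact hw (hr w (by linarith))
    filter_upwards [isOpen_ball.mem_nhds h4] with u hu
    exact h3 u (ball_subset_closedBall hu)
  · filter_upwards [closedBall_mem_nhds z₀ one_pos] with z hz f
    exact cv_cut_eq hr h3 f hz

lemma integrable_cv_integrand' {k : C2 → ℂ} {f : C2 → F} (hk : LocallyIntegrable k)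
    (hkc : HasCompactSupport k) (hf : Continuous f) (z : C2) :
    Integrable fun w => k w • f (z - w) := by
  obtain ⟨χ, h1, h2, h3, -⟩ := exists_cut (F := F) hkc z
  have h4 := integrable_cv_integrand (f := cut χ f) hk (h1.continuous.smul hf)
    (hasCompactSupport_cut h2) z
  refine h4.congr (Eventually.of_forall fun w => ?_)
  simp only [cut]
  by_cases hw : k w = 0
  · simp [hw]
  · rw [(h3 w hw).self_of_nhds, one_smul]

lemma continuous_cv' {k : C2 → ℂ} {f : C2 → F} (hk : LocallyIntegrable k)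
    (hkc : HasCompactSupport k) (hf : Continuous f) : Continuous (cv k f) := by
  rw [continuous_iff_continuousAt]
  intro z
  obtain ⟨χ, h1, h2, -, h3⟩ := exists_cut (F := F) hkc z
  exact ((continuous_cv hk (h1.continuous.smul hf)
    (hasCompactSupport_cut h2)).continuousAt).congr (EventuallyEq.symm (h3.mono fun z hz => hz f))

lemma contDiff_cv' {k : C2 → ℂ} {f : C2 → F} {n : ℕ∞} (hk : LocallyIntegrable k)
    (hkc : HasCompactSupport k) (hf : ContDiff ℝ n f) : ContDiff ℝ n (cv k f) := by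
  rw [contDiff_iff_contDiffAt]
  intro z
  obtain ⟨χ, h1, h2, -, h3⟩ := exists_cut (F := F) hkc z
  exact ((contDiff_cv hk (contDiff_cut h1 hf) (hasCompactSupport_cut h2)).contDiffAt).congr_of_eventuallyEq
    (h3.mono fun z hz => hz f)

lemma cut_eventuallyEq {χ : C2 → ℝ} {f : C2 → F} {u : C2} (h : ∀ᶠ u in 𝓝 u, χ u = 1) :
    cut χ f =ᶠ[𝓝 u] f := by
  filter_upwards [h] with v hv
  rw [cut, hv, one_smul]

lemma fderiv_cv' {k : C2 → ℂ} {f : C2 → F} (hk : LocallyIntegrable k)
    (hkc : HasCompactSupport k) (hf : ContDiff ℝ 1 f) (z v : C2) :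
    fderiv ℝ (cv k f) z v = cv k (fun w => fderiv ℝ f w v) z := by
  obtain ⟨χ, h1, h2, h4, h3⟩ := exists_cut (F := F) hkc z
  rw [(EventuallyEq.fderiv_eq (𝕜 := ℝ) (h3.mono fun z hz => hz f : cv k f =ᶠ[𝓝 z] cv k (cut χ f))), fderiv_cv hk (contDiff_cut (n := 1) h1 hf) (hasCompactSupport_cut h2)]
  unfold cv
  congr 1
  funext w
  by_cases hw : k w = 0
  · simp [hw]
  · simp only [(cut_eventuallyEq (h4 w hw)).fderiv_eq]

lemma db_cv' {k : C2 → ℂ} {f : C2 → F} {j : Fin 2} (hk : LocallyIntegrable k)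
    (hkc : HasCompactSupport k) (hf : ContDiff ℝ 1 f) (z : C2) :
    db j (cv k f) z = cv k (db j f) z := by
  obtain ⟨χ, h1, h2, h4, h3⟩ := exists_cut (F := F) hkc z
  rw [db_congr_nhds (h3.mono fun z hz => hz f : cv k f =ᶠ[𝓝 z] cv k (cut χ f)), db_cv hk (contDiff_cut (n := 1) h1 hf) (hasCompactSupport_cut h2)]
  unfold cv
  congr 1
  funext w
  by_cases hw : k w = 0
  · simp [hw]
  · rw [db_congr_nhds (cut_eventuallyEq (h4 w hw))]

/-! ### Cut-off kernels -/

/-- A cut-off function near the origin. -/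
structure IsCutoff (η : C2 → ℝ) : Prop where
  smooth : ContDiff ℝ ∞ η
  compact : HasCompactSupport η
  one : ∀ᶠ z in 𝓝 (0 : C2), η z = 1

lemma exists_isCutoff {r : ℝ} (hr : 0 < r) : ∃ η : C2 → ℝ, IsCutoff η ∧
    tsupport η ⊆ closedBall 0 r ∧ (∀ z, 0 ≤ η z) ∧ (∀ z, η z ≤ 1) ∧ ∀ z, η (-z) = η z := by
  let b : ContDiffBump (0 : C2) := ⟨r / 2, r, by positivity, by linarith⟩
  refine ⟨b, ⟨b.contDiff, b.hasCompactSupport, ?_⟩, ?_, fun z => b.nonneg, fun z => b.le_one,
    fun z => b.neg z⟩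
  · filter_upwards [closedBall_mem_nhds (0 : C2) (half_pos hr)] with z hz
    exact b.one_of_mem_closedBall hz
  · rw [b.tsupport_eq]

/-- The cut-off kernel `η K_j`. -/
def kc (η : C2 → ℝ) (j : Fin 2) (z : C2) : ℂ := η z • K j z

/-- The smooth remainder kernel. -/
def rho (η : C2 → ℝ) (z : C2) : ℂ := - ∑ j, db j (fun w => (η w : ℂ)) z * K j z

lemma locallyIntegrable_kc {η : C2 → ℝ} (h : IsCutoff η) (j : Fin 2) :
    LocallyIntegrable (kc η j) := (locallyIntegrable_K j).continuous_smul h.smooth.continuous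

lemma hasCompactSupport_kc {η : C2 → ℝ} (h : IsCutoff η) (j : Fin 2) :
    HasCompactSupport (kc η j) := h.compact.smul_right

lemma integrable_of_compact {k : C2 → ℂ} (hk : LocallyIntegrable k) (hc : HasCompactSupport k) :
    Integrable k :=
  (integrableOn_iff_integrable_of_support_subset (subset_tsupport k)).mp
    (hk.integrableOn_isCompact hc.isCompact)

lemma integrable_kc {η : C2 → ℝ} (h : IsCutoff η) (j : Fin 2) : Integrable (kc η j) :=
  integrable_of_compact (locallyIntegrable_kc h j) (hasCompactSupport_kc h j)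

lemma contDiffAt_kc {η : C2 → ℝ} (h : IsCutoff η) {j : Fin 2} {z : C2} (hz : z ≠ 0) :
    ContDiffAt ℝ ∞ (kc η j) z := h.smooth.contDiffAt.smul (contDiffAt_K hz)

lemma kc_neg {η : C2 → ℝ} (h : ∀ z, η (-z) = η z) (j : Fin 2) (z : C2) :
    kc η j (-z) = - kc η j z := by
  simp [kc, h, K_neg]

lemma db_eta_eventually_zero {η : C2 → ℝ} (h : IsCutoff η) (j : Fin 2) :
    ∀ᶠ z in 𝓝 (0 : C2), db j (fun w => (η w : ℂ)) z = 0 := by
  have h1 := h.one.eventually_nhds
  filter_upwards [h1] with z hz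
  have h2 : (fun w => (η w : ℂ)) =ᶠ[𝓝 z] fun _ => 1 := by
    filter_upwards [hz] with w hw
    simp [hw]
  rw [db_congr_nhds h2]
  simp [db, dbL_zero]

lemma contDiff_ofReal_eta {η : C2 → ℝ} (h : IsCutoff η) : ContDiff ℝ ∞ (fun w => (η w : ℂ)) :=
  Complex.ofRealCLM.contDiff.comp h.smooth

lemma contDiff_rho {η : C2 → ℝ} (h : IsCutoff η) : ContDiff ℝ ∞ (rho η) := by
  unfold rho
  refine ContDiff.neg (ContDiff.sum fun j _ => ?_)
  rw [contDiff_iff_contDiffAt]
  intro z
  rcases eq_or_ne z 0 with rfl | hz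
  · have : (fun z => db j (fun w => (η w : ℂ)) z * K j z) =ᶠ[𝓝 0] fun _ => 0 := by
      filter_upwards [db_eta_eventually_zero h j] with z hz
      rw [hz, zero_mul]
    exact contDiffAt_const.congr_of_eventuallyEq this
  · exact (contDiff_db (m := ∞) (contDiff_ofReal_eta h) (by simp)).contDiffAt.mul (contDiffAt_K hz)

lemma hasCompactSupport_rho {η : C2 → ℝ} (h : IsCutoff η) : HasCompactSupport (rho η) := by
  have h0 : HasCompactSupport (fun w => (η w : ℂ)) := h.compact.comp_left Complex.ofReal_zero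
  refine HasCompactSupport.of_support_subset_isCompact h0.isCompact ?_
  intro z hz
  by_contra hz2
  apply hz
  have h1 : ∀ j, db j (fun w => (η w : ℂ)) z = 0 := fun j =>
    image_eq_zero_of_notMem_tsupport fun h3 => hz2 (tsupport_db_subset j _ h3)
  simp [rho, h1]

variable [CompleteSpace F]

/-- **Cut-off representation formula**, for arbitrary `C¹` functions. -/
theorem rep_cut {η : C2 → ℝ} (h : IsCutoff η) {f : C2 → F} (hf : ContDiff ℝ 1 f) (z : C2) :
    ∑ j, cv (kc η j) (db j f) z = f z - cv (rho η) f z := by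
  have hη1 : ContDiff ℝ 1 (fun w => (η w : ℂ)) := (contDiff_ofReal_eta h).of_le (by exact_mod_cast le_top)
  have hη2 : ContDiff ℝ 1 (fun w => (η (z - w) : ℂ)) := contDiff_sub_left hη1 z
  have hηc : HasCompactSupport (fun w => (η (z - w) : ℂ)) :=
    hasCompactSupport_sub_left (h.compact.comp_left (g := ((↑) : ℝ → ℂ)) Complex.ofReal_zero) z
  set g : C2 → F := fun w => (η (z - w) : ℂ) • f w with hg
  have hgC : ContDiff ℝ 1 g := hη2.smul hf
  have hgc : HasCompactSupport g := hηc.smul_right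
  have h0 : ∀ j w, db j g (z - w) =
      (η w : ℂ) • db j f (z - w) - db j (fun w => (η w : ℂ)) w • f (z - w) := by
    intro j w
    have h1 := db_smul (j := j) (hη2.differentiable one_ne_zero (z - w))
      (hf.differentiable one_ne_zero (z - w))
    have h2 := db_sub_left (j := j) (hη1.differentiable one_ne_zero) z (z - w)
    rw [h2, sub_sub_cancel, neg_smul, ← sub_eq_add_neg] at h1
    exact h1
  have h1 := rep hgC hgc z
  have hgz : g z = f z := by
    have : η 0 = 1 := h.one.self_of_nhds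
    simp [hg, this]
  have hi1 : ∀ j, Integrable fun w => kc η j w • db j f (z - w) := fun j =>
    integrable_cv_integrand' (locallyIntegrable_kc h j) (hasCompactSupport_kc h j)
      (continuous_db hf) z
  have hi2 : ∀ j, Integrable fun w => (db j (fun w => (η w : ℂ)) w * K j w) • f (z - w) := by
    intro j
    have hcs : HasCompactSupport (db j (fun w => (η w : ℂ))) :=
      hasCompactSupport_db (h.compact.comp_left (g := ((↑) : ℝ → ℂ)) Complex.ofReal_zero)
    have hli : LocallyIntegrable (fun w => db j (fun w => (η w : ℂ)) w * K j w) :=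
      (locallyIntegrable_K j).continuous_smul (g := db j (fun w => (η w : ℂ))) (continuous_db hη1)
    exact integrable_cv_integrand' hli hcs.mul_right hf.continuous z
  rw [hgz] at h1
  have h2 : ∀ j, ∫ w, K j w • db j g (z - w) =
      cv (kc η j) (db j f) z - ∫ w, (db j (fun w => (η w : ℂ)) w * K j w) • f (z - w) := by
    intro j
    unfold cv
    rw [← integral_sub (hi1 j) (hi2 j)]
    refine integral_congr_ae (Eventually.of_forall fun w => ?_)
    simp only [h0, kc, smul_sub, ← Complex.coe_smul, smul_smul]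
    rw [smul_eq_mul, mul_comm (K j w) (η w : ℂ), mul_comm (K j w)]
  rw [Finset.sum_congr rfl fun j _ => h2 j, Finset.sum_sub_distrib] at h1
  have h3 : cv (rho η) f z = - ∑ j, ∫ w, (db j (fun w => (η w : ℂ)) w * K j w) • f (z - w) := by
    unfold cv rho
    rw [← integral_finsetSum _ fun j _ => hi2 j, ← integral_neg]
    refine integral_congr_ae (Eventually.of_forall fun w => ?_)
    simp only [neg_smul, Finset.sum_smul]
  rw [h3, ← h1]
  abel

end

end Vale.Agent.P267.H667
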