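import Vale.Agent.P267.H667.Ker

/-!
# Local integrability of the kernels and the representation formula
-/

open MeasureTheory Filter Topology Set Metric
open scoped Convolution ComplexConjugate ContDiff

namespace Vale.Agent.P267.H667

noncomputable section

variable {F : Type*} [NormedAddCommGroup F] [NormedSpace ℂ F]

lemma finrank_C2 : Module.finrank ℝ C2 = 4 := by
  rw [Module.finrank_pi_fintype]
  simp [Complex.finrank_real_complex]

/-- `‖z‖^(-s)` is integrable on balls for `s < 4`. -/
lemma integrableOn_norm_rpow {s : ℝ} (hs : s < 4) (r : ℝ) :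
    IntegrableOn (fun z : C2 => ‖z‖ ^ (-s)) (ball 0 r) := by
  have h := (integrableOn_fun_norm_addHaar (E := C2) (F := ℝ) (volume : Measure C2)
    (f := fun t : ℝ => t ^ (-s)) (r := r))
  rw [h, finrank_C2]
  have h2 : IntegrableOn (fun y : ℝ => y ^ (3 - s)) (Ioo 0 r) := by
    rcases le_or_gt r 0 with hr | hr
    · rw [Ioo_eq_empty (not_lt.2 hr)]; exact integrableOn_empty
    · have := (intervalIntegral.intervalIntegrable_rpow' (a := 0) (b := r) (r := 3 - s) (by linarith))
      rw [intervalIntegrable_iff_integrableOn_Ioo_of_le hr.le] at this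
      exact this
  refine h2.congr_fun ?_ measurableSet_Ioo
  intro y hy
  simp only [smul_eq_mul]
  have hy0 : 0 < y := hy.1
  have : (y ^ (4 - 1) : ℝ) = y ^ (3 : ℝ) := by
    rw [← Real.rpow_natCast]; norm_num
  rw [this, ← Real.rpow_add hy0]
  congr 1

lemma locallyIntegrable_norm_rpow {s : ℝ} (hs : s < 4) :
    LocallyIntegrable (fun z : C2 => ‖z‖ ^ (-s)) := by
  intro z
  refine ⟨ball 0 (‖z‖ + 1), ?_, integrableOn_norm_rpow hs _⟩
  exact isOpen_ball.mem_nhds (by simp)

lemma norm_rpow_neg_three (z : C2) : ‖z‖ ^ (-3 : ℝ) = (‖z‖ ^ 3)⁻¹ := by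
  rw [Real.rpow_neg (norm_nonneg z)]
  congr 1
  exact_mod_cast Real.rpow_natCast ‖z‖ 3

lemma locallyIntegrable_norm_inv_cube : LocallyIntegrable (fun z : C2 => (‖z‖ ^ 3)⁻¹) := by
  have := locallyIntegrable_norm_rpow (s := 3) (by norm_num)
  simpa only [norm_rpow_neg_three] using this

lemma norm_Ke_le (e : ℝ) (j : Fin 2) (z : C2) : ‖Ke e j z‖ ≤ (‖z‖ ^ 3)⁻¹ := by
  rcases eq_or_ne z 0 with rfl | hz
  · simp [Ke, cj]
  have hz0 : 0 < ‖z‖ := norm_pos_iff.2 hz
  unfold Ke
  rw [norm_smul, Complex.norm_real, Real.norm_eq_abs, abs_of_nonneg (by positivity)]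
  have h1 : (‖z‖ ^ 2) ^ 2 ≤ (sq z + e ^ 2) ^ 2 := by
    gcongr
    have := norm_sq_le_sq z
    nlinarith [sq_nonneg z, _root_.sq_nonneg e]
  calc ((sq z + e ^ 2) ^ 2)⁻¹ * ‖cj j z‖ ≤ ((‖z‖ ^ 2) ^ 2)⁻¹ * ‖z‖ := by
        gcongr
        exact norm_cj_le j z
    _ = (‖z‖ ^ 3)⁻¹ := by field_simp

lemma measurable_Ke (e : ℝ) (j : Fin 2) : Measurable (Ke e j) := by
  unfold Ke
  have h1 : Measurable sq := continuous_sq.measurable
  have h2 : Measurable (cj j) := (contDiff_cj (j := j) (n := 0)).continuous.measurable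
  exact (Complex.measurable_ofReal.comp ((h1.add_const _).pow_const 2).inv).smul h2

lemma locallyIntegrable_Ke (e : ℝ) (j : Fin 2) : LocallyIntegrable (Ke e j) := by
  refine locallyIntegrable_norm_inv_cube.mono (measurable_Ke e j).aestronglyMeasurable ?_
  refine Eventually.of_forall fun z => ?_
  rw [Real.norm_eq_abs, abs_of_nonneg (by positivity)]
  exact norm_Ke_le e j z

/-- the profile of the approximate identity -/
def prof (z : C2) : ℝ := rhoe 1 z

lemma prof_eq (z : C2) : prof z = 2 * ((sq z + 1) ^ 3)⁻¹ := by simp [prof, rhoe]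

lemma prof_pos (z : C2) : 0 < prof z := by
  rw [prof_eq]; have := sq_nonneg z; positivity

lemma continuous_prof : Continuous prof := by
  have : prof = fun z => 2 * ((sq z + 1) ^ 3)⁻¹ := funext prof_eq
  rw [this]
  refine continuous_const.mul (Continuous.inv₀ ((continuous_sq.add continuous_const).pow 3) ?_)
  intro z
  have := sq_nonneg z
  positivity

lemma prof_le (z : C2) : prof z ≤ 2 * (1 + ‖z‖ ^ 2) ^ (-(6 : ℝ) / 2) := by
  rw [prof_eq]
  have h1 : (1 + ‖z‖ ^ 2 : ℝ) ^ (-(6 : ℝ) / 2) = ((1 + ‖z‖ ^ 2) ^ 3)⁻¹ := by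
    have : (-(6 : ℝ) / 2) = -(3 : ℕ) := by norm_num
    rw [this, Real.rpow_neg (by positivity), Real.rpow_natCast]
  rw [h1]
  have h2 : (1 + ‖z‖ ^ 2) ≤ sq z + 1 := by linarith [norm_sq_le_sq z]
  gcongr

lemma integrable_prof : Integrable prof := by
  have h := (integrable_rpow_neg_one_add_norm_sq (E := C2) (μ := volume) (r := 6)
    (by rw [finrank_C2]; norm_num)).const_mul 2
  refine h.mono continuous_prof.aestronglyMeasurable (Eventually.of_forall fun z => ?_)
  rw [Real.norm_eq_abs, abs_of_pos (prof_pos z), Real.norm_eq_abs]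
  exact (prof_le z).trans (le_abs_self _)

lemma integral_prof_pos : 0 < ∫ z, prof z := by
  rw [integral_pos_iff_support_of_nonneg (fun z => (prof_pos z).le) integrable_prof]
  have : Function.support prof = univ := by
    ext z; simp [(prof_pos z).ne']
  rw [this]
  exact isOpen_univ.measure_pos volume univ_nonempty

/-- The normalising constant (its value is `π⁻²`, which is not needed). -/
def cst : ℝ := (∫ z, prof z)⁻¹

lemma cst_pos : 0 < cst := inv_pos.2 integral_prof_pos

/-- The Bochner-Martinelli kernel. -/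
def K (j : Fin 2) (z : C2) : ℂ := (cst : ℂ) • Ke 0 j z

lemma norm_K_le (j : Fin 2) (z : C2) : ‖K j z‖ ≤ cst * (‖z‖ ^ 3)⁻¹ := by
  unfold K
  rw [norm_smul, Complex.norm_real, Real.norm_eq_abs, abs_of_pos cst_pos]
  exact mul_le_mul_of_nonneg_left (norm_Ke_le 0 j z) cst_pos.le

lemma measurable_K (j : Fin 2) : Measurable (K j) := (measurable_Ke 0 j).const_smul (cst : ℂ)

lemma locallyIntegrable_K (j : Fin 2) : LocallyIntegrable (K j) := (locallyIntegrable_Ke 0 j).smul (cst : ℂ)

lemma K_zero (j : Fin 2) : K j 0 = 0 := by simp [K, Ke, cj]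

lemma K_neg (j : Fin 2) (z : C2) : K j (-z) = - K j z := by
  simp [K, Ke, cj, sq_neg]

lemma contDiffAt_K {j : Fin 2} {z : C2} {n : WithTop ℕ∞} (hz : z ≠ 0) : ContDiffAt ℝ n (K j) z :=
  (contDiffAt_Ke (by simpa using (sq_pos hz).ne')).const_smul _

lemma contDiffOn_K {j : Fin 2} {n : WithTop ℕ∞} : ContDiffOn ℝ n (K j) {0}ᶜ :=
  fun _ hz => (contDiffAt_K hz).contDiffWithinAt

/-! ### The representation formula -/

lemma int_comb {u v : C2 → F} (hu : Integrable u) (hv : Integrable v) :
    ∫ w, ((1 / 2 : ℝ) • u w + (1 / 2 : ℝ) • (Complex.I • v w)) =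
      (1 / 2 : ℝ) • (∫ w, u w) + (1 / 2 : ℝ) • (Complex.I • ∫ w, v w) := by
  have h1 : Integrable fun w => (1 / 2 : ℝ) • u w := hu.smul _
  have h2 : Integrable fun w => Complex.I • v w := hv.smul _
  have h3 : Integrable fun w => (1 / 2 : ℝ) • (Complex.I • v w) := h2.smul _
  rw [integral_add h1 h3, integral_smul, integral_smul, integral_smul]

/-- Integration by parts. -/
lemma integral_smul_db {j : Fin 2} {φ : C2 → ℂ} {f : C2 → F} (hφ : ContDiff ℝ 1 φ)
    (hf : ContDiff ℝ 1 f) (hc : HasCompactSupport f) :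
    ∫ w, φ w • db j f w = - ∫ w, db j φ w • f w := by
  have hφd : Differentiable ℝ φ := hφ.differentiable one_ne_zero
  have hfd : Differentiable ℝ f := hf.differentiable one_ne_zero
  have hφc : ∀ v, Continuous fun x => fderiv ℝ φ x v := fun v =>
    (hφ.continuous_fderiv one_ne_zero).clm_apply continuous_const
  have hfc : ∀ v, Continuous fun x => fderiv ℝ f x v := fun v =>
    (hf.continuous_fderiv one_ne_zero).clm_apply continuous_const
  have hcs : ∀ v, HasCompactSupport fun x => fderiv ℝ f x v := fun v => hc.fderiv_apply ℝ v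
  have i1 : ∀ v, Integrable (fun x => fderiv ℝ φ x v • f x) := fun v =>
    ((hφc v).smul hf.continuous).integrable_of_hasCompactSupport hc.smul_left
  have i2 : ∀ v, Integrable (fun x => φ x • fderiv ℝ f x v) := fun v =>
    (hφ.continuous.smul (hfc v)).integrable_of_hasCompactSupport (hcs v).smul_left
  have i3 : Integrable (fun x => φ x • f x) :=
    (hφ.continuous.smul hf.continuous).integrable_of_hasCompactSupport hc.smul_left
  have key : ∀ v, ∫ x, φ x • fderiv ℝ f x v = - ∫ x, fderiv ℝ φ x v • f x := fun v =>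
    integral_smul_fderiv_eq_neg_fderiv_smul_of_integrable (i1 v) (i2 v) i3
      (fun x _ => hφd x) (fun x _ => hfd x)
  have e1 : ∀ w, φ w • db j f w = (1 / 2 : ℝ) • (φ w • fderiv ℝ f w (Pi.single j 1)) +
      (1 / 2 : ℝ) • (Complex.I • (φ w • fderiv ℝ f w (Pi.single j Complex.I))) := by
    intro w
    rw [db_eq]
    simp only [← Complex.coe_smul]
    module
  have e2 : ∀ w, db j φ w • f w = (1 / 2 : ℝ) • (fderiv ℝ φ w (Pi.single j 1) • f w) +
      (1 / 2 : ℝ) • (Complex.I • (fderiv ℝ φ w (Pi.single j Complex.I) • f w)) := by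
    intro w
    rw [db_eq]
    simp only [← Complex.coe_smul, smul_eq_mul]
    module
  simp only [e1, e2]
  rw [int_comb (i2 _) (i2 _), int_comb (i1 _) (i1 _), key, key]
  simp only [smul_neg, neg_add]

lemma fderiv_sub_left {f : C2 → F} (hf : Differentiable ℝ f) (z w : C2) :
    fderiv ℝ (fun w => f (z - w)) w = - fderiv ℝ f (z - w) := by
  have h1 : HasFDerivAt (fun w => z - w) (-(ContinuousLinearMap.id ℝ C2)) w := by
    simpa using (hasFDerivAt_id (𝕜 := ℝ) w).const_sub z
  have h2 := (hf (z - w)).hasFDerivAt.comp w h1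
  rw [show (fun w => f (z - w)) = f ∘ (fun w => z - w) from rfl, h2.fderiv]
  ext v
  simp

lemma db_sub_left {j : Fin 2} {f : C2 → F} (hf : Differentiable ℝ f) (z w : C2) :
    db j (fun w => f (z - w)) w = - db j f (z - w) := by
  unfold db
  rw [fderiv_sub_left hf, dbL_neg]

lemma hasCompactSupport_sub_left {G : Type*} [Zero G] {f : C2 → G} (hc : HasCompactSupport f)
    (z : C2) : HasCompactSupport (fun w => f (z - w)) :=
  hc.comp_homeomorph (Homeomorph.subLeft z)

lemma contDiff_sub_left {f : C2 → F} {n : WithTop ℕ∞} (hf : ContDiff ℝ n f) (z : C2) :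
    ContDiff ℝ n (fun w => f (z - w)) := hf.comp (contDiff_const.sub contDiff_id)

/-- Regularised representation formula. -/
lemma rep_e {e : ℝ} (he : e ≠ 0) {f : C2 → F} (hf : ContDiff ℝ 1 f) (hc : HasCompactSupport f)
    (z : C2) :
    ∑ j, ∫ w, Ke e j w • db j f (z - w) = ∫ w, rhoe e w • f (z - w) := by
  have hg : ContDiff ℝ 1 (fun w => f (z - w)) := contDiff_sub_left hf z
  have hgc := hasCompactSupport_sub_left hc z
  have h1 : ∀ j, ∫ w, Ke e j w • db j f (z - w) = ∫ w, db j (Ke e j) w • f (z - w) := by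
    intro j
    have := integral_smul_db (j := j) (contDiff_Ke he (j := j)) hg hgc
    simp only [db_sub_left (hf.differentiable one_ne_zero), smul_neg] at this
    rw [integral_neg, neg_inj] at this
    exact this
  have hi : ∀ j, Integrable fun w => db j (Ke e j) w • f (z - w) := fun j =>
    ((continuous_db (contDiff_Ke he)).smul hg.continuous).integrable_of_hasCompactSupport
      hgc.smul_left
  rw [Finset.sum_congr rfl fun j _ => h1 j, ← integral_finsetSum _ fun j _ => hi j]
  refine integral_congr_ae (Eventually.of_forall fun w => ?_)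
  simp only
  rw [← Finset.sum_smul, sum_db_Ke (sq_add_pos he w).ne', Complex.coe_smul]

lemma rhoe_inv {c : ℝ} (hc : 0 < c) (w : C2) : rhoe c⁻¹ w = c ^ 4 * prof (c • w) := by
  rw [prof_eq, sq_smul, rhoe]
  have h := sq_nonneg w
  field_simp

lemma tendsto_prof : Tendsto (fun x : C2 => ‖x‖ ^ Module.finrank ℝ C2 * (cst * prof x))
    (Bornology.cobounded C2) (𝓝 0) := by
  rw [finrank_C2]
  have h1 : Tendsto (fun x : C2 => 2 * cst * (‖x‖ ^ 2)⁻¹) (Bornology.cobounded C2) (𝓝 0) := by
    have := ((tendsto_pow_atTop (α := ℝ) two_ne_zero).comp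
      (tendsto_norm_cobounded_atTop (E := C2))).inv_tendsto_atTop
    simpa using this.const_mul (2 * cst)
  refine squeeze_zero' (Eventually.of_forall fun x => ?_) ?_ h1
  · have := prof_pos x; have := cst_pos; positivity
  · filter_upwards [(tendsto_norm_cobounded_atTop (E := C2)).eventually_gt_atTop 0] with x hx
    rw [prof_eq]
    have h2 : (‖x‖ ^ 2) ^ 3 ≤ (sq x + 1) ^ 3 := by
      gcongr
      linarith [norm_sq_le_sq x]
    have hc := cst_pos
    calc ‖x‖ ^ 4 * (cst * (2 * ((sq x + 1) ^ 3)⁻¹)) ≤ ‖x‖ ^ 4 * (cst * (2 * ((‖x‖ ^ 2) ^ 3)⁻¹)) := by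
          gcongr
      _ = 2 * cst * (‖x‖ ^ 2)⁻¹ := by field_simp

lemma norm_integrand_le {e : ℝ} {j : Fin 2} {g : C2 → F} (w : C2) :
    ‖Ke e j w • g w‖ ≤ (‖w‖ ^ 3)⁻¹ * ‖g w‖ := by
  rw [norm_smul]
  exact mul_le_mul_of_nonneg_right (norm_Ke_le e j w) (norm_nonneg _)

omit [NormedSpace ℂ F] in
lemma integrable_inv_cube_mul {g : C2 → F} (hg : Continuous g) (hc : HasCompactSupport g) :
    Integrable fun w : C2 => (‖w‖ ^ 3)⁻¹ * ‖g w‖ := by
  have h := locallyIntegrable_norm_inv_cube.integrable_smul_left_of_hasCompactSupport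
    (g := fun w => ‖g w‖) hg.norm hc.norm
  simpa [smul_eq_mul, mul_comm] using h

variable [CompleteSpace F]

/-- **Representation formula**: `∑ j, K j ⋆ ∂f/∂(conj z_j) = f` for `f` of class `C¹` with compact
support. -/
theorem rep {f : C2 → F} (hf : ContDiff ℝ 1 f) (hc : HasCompactSupport f) (z : C2) :
    ∑ j, ∫ w, K j w • db j f (z - w) = f z := by
  have hdb : ∀ j, Continuous fun w => db j f (z - w) := fun j =>
    (continuous_db hf).comp (continuous_const.sub continuous_id)
  have hdc : ∀ j, HasCompactSupport fun w => db j f (z - w) := fun j =>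
    hasCompactSupport_sub_left (hasCompactSupport_db hc) z
  -- the left hand sides converge
  have hL : ∀ j, Tendsto (fun c : ℝ => ∫ w, Ke c⁻¹ j w • db j f (z - w)) atTop
      (𝓝 (∫ w, Ke 0 j w • db j f (z - w))) := by
    intro j
    refine tendsto_integral_filter_of_dominated_convergence
      (fun w => (‖w‖ ^ 3)⁻¹ * ‖db j f (z - w)‖) ?_ ?_ (integrable_inv_cube_mul (hdb j) (hdc j)) ?_
    · exact Eventually.of_forall fun c =>
        ((measurable_Ke _ j).aestronglyMeasurable).smul (hdb j).aestronglyMeasurable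
    · exact Eventually.of_forall fun c => Eventually.of_forall fun w =>
        norm_integrand_le (g := fun w => db j f (z - w)) w
    · refine Eventually.of_forall fun w => ?_
      rcases eq_or_ne w 0 with rfl | hw
      · simp [Ke, cj]
      refine Tendsto.smul_const ?_ _
      unfold Ke
      refine Tendsto.smul_const ?_ _
      have h1 : Tendsto (fun c : ℝ => ((sq w + c⁻¹ ^ 2) ^ 2)⁻¹) atTop
          (𝓝 (((sq w + (0 : ℝ) ^ 2) ^ 2)⁻¹)) := by
        refine Tendsto.inv₀ (Tendsto.pow (tendsto_const_nhds.add (tendsto_inv_atTop_zero.pow 2)) 2) ?_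
        have := sq_pos hw
        positivity
      exact (Complex.continuous_ofReal.tendsto _).comp h1
  have hL' : Tendsto (fun c : ℝ => ∑ j, ∫ w, Ke c⁻¹ j w • db j f (z - w)) atTop
      (𝓝 (∑ j, ∫ w, Ke 0 j w • db j f (z - w))) := tendsto_finsetSum _ fun j _ => hL j
  -- the right hand sides converge
  have hR : Tendsto (fun c : ℝ => ∫ w, (c ^ Module.finrank ℝ C2 * (cst * prof (c • w))) • f (z - w))
      atTop (𝓝 (f (z - 0))) := by
    refine tendsto_integral_comp_smul_smul_of_integrable (φ := fun w => cst * prof w)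
      (fun w => (mul_pos cst_pos (prof_pos w)).le) ?_ tendsto_prof
      (g := fun w => f (z - w)) ?_ ?_
    · rw [integral_const_mul, cst, inv_mul_cancel₀ integral_prof_pos.ne']
    · exact (contDiff_sub_left hf z).continuous.integrable_of_hasCompactSupport
        (hasCompactSupport_sub_left hc z)
    · exact (contDiff_sub_left hf z).continuous.continuousAt
  have hEq : ∀ᶠ c : ℝ in atTop, ∫ w, (c ^ Module.finrank ℝ C2 * (cst * prof (c • w))) • f (z - w) =
      (cst : ℂ) • ∑ j, ∫ w, Ke c⁻¹ j w • db j f (z - w) := by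
    filter_upwards [eventually_gt_atTop 0] with c hc0
    rw [rep_e (inv_pos.2 hc0).ne' hf hc z, Complex.coe_smul, ← integral_smul]
    refine integral_congr_ae (Eventually.of_forall fun w => ?_)
    simp only
    rw [rhoe_inv hc0, smul_smul, finrank_C2]
    congr 1
    ring
  have h2 := (hL'.const_smul (cst : ℂ))
  have h3 := tendsto_nhds_unique (hR.congr' hEq) h2
  rw [sub_zero] at h3
  rw [h3, Finset.smul_sum]
  refine Finset.sum_congr rfl fun j _ => ?_
  rw [← integral_smul]
  refine integral_congr_ae (Eventually.of_forall fun w => ?_)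
  simp only [K, smul_assoc]

end

end Vale.Agent.P267.H667
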