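import Vale.Agent.P267.H667.Cut

/-!
# Sup bounds and Hölder bounds for convolution with kernels of the size of `K j`
-/

open MeasureTheory Filter Topology Set Metric
open scoped Convolution ComplexConjugate ContDiff

namespace Vale.Agent.P267.H667

noncomputable section

variable {F : Type*} [NormedAddCommGroup F] [NormedSpace ℂ F]

lemma cv_swap (k : C2 → ℂ) (f : C2 → F) (z : C2) : cv k f z = ∫ w, k (z - w) • f w := by
  unfold cv
  rw [← integral_sub_left_eq_self (fun w => k (z - w) • f w) volume z]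
  simp only [sub_sub_cancel]

/-- Sup bound. -/
lemma norm_cv_le {k : C2 → ℂ} (hk : Integrable k) {f : C2 → F} {M : ℝ} (hf : ∀ z, ‖f z‖ ≤ M)
    (z : C2) : ‖cv k f z‖ ≤ (∫ w, ‖k w‖) * M := by
  unfold cv
  refine (norm_integral_le_integral_norm _).trans ?_
  rw [← integral_mul_const]
  refine integral_mono_of_nonneg (Eventually.of_forall fun w => norm_nonneg _)
    (hk.norm.mul_const M) (Eventually.of_forall fun w => ?_)
  simp only [norm_smul]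
  exact mul_le_mul_of_nonneg_left (hf _) (norm_nonneg _)

/-- Kernels of the size and regularity of `K j`, supported in a ball. -/
structure IsKer (k : C2 → ℂ) (C r : ℝ) : Prop where
  meas : Measurable k
  size : ∀ x, ‖k x‖ ≤ C * (‖x‖ ^ 3)⁻¹
  diff : ∀ x y, 0 < ‖y‖ → ‖y‖ ≤ ‖x‖ → ‖k x - k y‖ ≤ C * ‖x - y‖ * (‖y‖ ^ 4)⁻¹
  supp : ∀ x, r < ‖x‖ → k x = 0
  Cpos : 0 < C
  rpos : 0 < r

lemma abs_sq_sub_sq_le (x y : C2) (h : ‖y‖ ≤ ‖x‖) : |sq y - sq x| ≤ 4 * ‖x - y‖ * ‖x‖ := by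
  have h1 : ∀ j, |Complex.normSq (y j) - Complex.normSq (x j)| ≤ 2 * ‖x - y‖ * ‖x‖ := by
    intro j
    rw [Complex.normSq_eq_norm_sq, Complex.normSq_eq_norm_sq, sq_sub_sq, abs_mul,
      abs_of_nonneg (by positivity)]
    have h2 : |‖y j‖ - ‖x j‖| ≤ ‖x - y‖ := by
      refine (abs_norm_sub_norm_le _ _).trans ?_
      rw [norm_sub_rev, ← Pi.sub_apply]
      exact norm_apply_le _ j
    have h3 : ‖y j‖ + ‖x j‖ ≤ 2 * ‖x‖ := by
      linarith [norm_apply_le x j, norm_apply_le y j]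
    calc (‖y j‖ + ‖x j‖) * |‖y j‖ - ‖x j‖| ≤ (2 * ‖x‖) * ‖x - y‖ := by gcongr
      _ = 2 * ‖x - y‖ * ‖x‖ := by ring
  have e : sq y - sq x = (Complex.normSq (y 0) - Complex.normSq (x 0)) +
      (Complex.normSq (y 1) - Complex.normSq (x 1)) := by unfold sq; ring
  rw [e]
  refine (abs_add_le _ _).trans ?_
  linarith [h1 0, h1 1]

lemma K_diff_le (j : Fin 2) (x y : C2) (hy : 0 < ‖y‖) (h : ‖y‖ ≤ ‖x‖) :
    ‖K j x - K j y‖ ≤ 17 * cst * ‖x - y‖ * (‖y‖ ^ 4)⁻¹ := by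
  have hx : 0 < ‖x‖ := hy.trans_le h
  have hsx : ‖x‖ ^ 2 ≤ sq x := norm_sq_le_sq x
  have hsy : ‖y‖ ^ 2 ≤ sq y := norm_sq_le_sq y
  have hsx0 : 0 < sq x := lt_of_lt_of_le (by positivity) hsx
  have hsy0 : 0 < sq y := lt_of_lt_of_le (by positivity) hsy
  have hsx' : sq x ≤ 2 * ‖x‖ ^ 2 := sq_le x
  have hsy' : sq y ≤ 2 * ‖x‖ ^ 2 := (sq_le y).trans (by gcongr)
  have hK : ∀ z, K j z = (cst : ℂ) * ((((sq z) ^ 2)⁻¹ : ℝ) * cj j z) := by
    intro z; simp [K, Ke]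
  have e : K j x - K j y = (cst : ℂ) * (((((sq x) ^ 2)⁻¹ : ℝ) : ℂ) * (cj j x - cj j y) +
      (((((sq x) ^ 2)⁻¹ - ((sq y) ^ 2)⁻¹ : ℝ)) : ℂ) * cj j y) := by
    rw [hK, hK]; push_cast; ring
  have h1 : ‖(((((sq x) ^ 2)⁻¹ : ℝ) : ℂ) * (cj j x - cj j y))‖ ≤ ‖x - y‖ * (‖y‖ ^ 4)⁻¹ := by
    rw [norm_mul, Complex.norm_real, Real.norm_eq_abs, abs_of_nonneg (by positivity)]
    have h2 : ‖cj j x - cj j y‖ ≤ ‖x - y‖ := by
      have : cj j x - cj j y = cj j (x - y) := by simp [cj]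
      rw [this]; exact norm_cj_le _ _
    have h3 : ‖y‖ ^ 4 ≤ (sq x) ^ 2 := by
      calc ‖y‖ ^ 4 = (‖y‖ ^ 2) ^ 2 := by ring
        _ ≤ (‖x‖ ^ 2) ^ 2 := by gcongr
        _ ≤ (sq x) ^ 2 := by gcongr
    calc ((sq x) ^ 2)⁻¹ * ‖cj j x - cj j y‖ ≤ (‖y‖ ^ 4)⁻¹ * ‖x - y‖ := by gcongr
      _ = _ := by ring
  have h2 : ‖(((((sq x) ^ 2)⁻¹ - ((sq y) ^ 2)⁻¹ : ℝ)) : ℂ) * cj j y‖ ≤ 16 * ‖x - y‖ * (‖y‖ ^ 4)⁻¹ := by
    rw [norm_mul, Complex.norm_real, Real.norm_eq_abs]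
    have e2 : ((sq x) ^ 2)⁻¹ - ((sq y) ^ 2)⁻¹ = ((sq y - sq x) * (sq y + sq x)) *
        (((sq x) ^ 2)⁻¹ * ((sq y) ^ 2)⁻¹) := by field_simp; ring
    rw [e2, abs_mul, abs_mul, abs_of_pos (by positivity : 0 < sq y + sq x),
      abs_of_pos (by positivity : 0 < ((sq x) ^ 2)⁻¹ * ((sq y) ^ 2)⁻¹)]
    have h3 := abs_sq_sub_sq_le x y h
    have h4 : sq y + sq x ≤ 4 * ‖x‖ ^ 2 := by linarith
    have h5 : ((sq x) ^ 2)⁻¹ ≤ (‖x‖ ^ 4)⁻¹ := by
      have : ‖x‖ ^ 4 ≤ (sq x) ^ 2 := by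
        calc ‖x‖ ^ 4 = (‖x‖ ^ 2) ^ 2 := by ring
          _ ≤ (sq x) ^ 2 := by gcongr
      gcongr
    have h6 : ((sq y) ^ 2)⁻¹ ≤ (‖y‖ ^ 4)⁻¹ := by
      have : ‖y‖ ^ 4 ≤ (sq y) ^ 2 := by
        calc ‖y‖ ^ 4 = (‖y‖ ^ 2) ^ 2 := by ring
          _ ≤ (sq y) ^ 2 := by gcongr
      gcongr
    have h7 := norm_cj_le j y
    calc |sq y - sq x| * (sq y + sq x) * (((sq x) ^ 2)⁻¹ * ((sq y) ^ 2)⁻¹) * ‖cj j y‖
        ≤ (4 * ‖x - y‖ * ‖x‖) * (4 * ‖x‖ ^ 2) * ((‖x‖ ^ 4)⁻¹ * (‖y‖ ^ 4)⁻¹) * ‖y‖ := by gcongr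
      _ = 16 * ‖x - y‖ * (‖y‖ ^ 4)⁻¹ * (‖y‖ / ‖x‖) := by
          field_simp
          ring
      _ ≤ 16 * ‖x - y‖ * (‖y‖ ^ 4)⁻¹ * 1 := by
          gcongr
          exact (div_le_one hx).2 h
      _ = _ := by ring
  rw [e, norm_mul, Complex.norm_real, Real.norm_eq_abs, abs_of_pos cst_pos]
  calc cst * ‖(((((sq x) ^ 2)⁻¹ : ℝ) : ℂ) * (cj j x - cj j y) +
      (((((sq x) ^ 2)⁻¹ - ((sq y) ^ 2)⁻¹ : ℝ)) : ℂ) * cj j y)‖ ≤
        cst * (‖x - y‖ * (‖y‖ ^ 4)⁻¹ + 16 * ‖x - y‖ * (‖y‖ ^ 4)⁻¹) := by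
        have hc := cst_pos
        gcongr
        exact (norm_add_le _ _).trans (add_le_add h1 h2)
    _ = _ := by ring

lemma exists_isKer {η : C2 → ℝ} (h : IsCutoff η) (j : Fin 2) : ∃ C r, IsKer (kc η j) C r := by
  obtain ⟨r, hr0, hr⟩ := exists_radius (k := fun z => (η z : ℂ))
    (h.compact.comp_left (g := ((↑) : ℝ → ℂ)) Complex.ofReal_zero)
  have hr' : ∀ w, r < ‖w‖ → η w = 0 := fun w hw => by exact_mod_cast hr w hw
  obtain ⟨M, hM⟩ := h.compact.exists_bound_of_continuous h.smooth.continuous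
  have hM0 : 0 ≤ M := (norm_nonneg _).trans (hM 0)
  obtain ⟨L, hL⟩ := (h.smooth.of_le (by exact_mod_cast le_top :
    (1 : WithTop ℕ∞) ≤ ∞)).lipschitzWith_of_hasCompactSupport h.compact one_ne_zero
  have hc := cst_pos
  refine ⟨17 * cst * (M + 1) + cst * L * (2 * r + 1), r, ?_, ?_, ?_, ?_, by positivity, hr0⟩
  · exact h.smooth.continuous.measurable.smul (measurable_K j)
  · intro x
    unfold kc
    rw [norm_smul]
    have h1 := norm_K_le j x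
    have h2 := hM x
    calc ‖η x‖ * ‖K j x‖ ≤ M * (cst * (‖x‖ ^ 3)⁻¹) := by gcongr
      _ = (M * cst) * (‖x‖ ^ 3)⁻¹ := by ring
      _ ≤ _ := by
        gcongr
        have : 0 ≤ cst * L * (2 * r + 1) := by positivity
        nlinarith
  · intro x y hy hxy
    by_cases hyr : r < ‖y‖
    · have hx : η x = 0 := hr' x (hyr.trans_le hxy)
      have hy' : η y = 0 := hr' y hyr
      simp only [kc, hx, hy', zero_smul, sub_self, norm_zero]
      positivity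
    · have e : kc η j x - kc η j y = η x • (K j x - K j y) + (η x - η y) • K j y := by
        simp only [kc, smul_sub, sub_smul]; abel
      have h1 := K_diff_le j x y hy hxy
      have h2 := hM x
      have h3 : ‖η x - η y‖ ≤ L * ‖x - y‖ := by
        have := hL.dist_le_mul x y
        rwa [dist_eq_norm, dist_eq_norm] at this
      have h4 := norm_K_le j y
      have h5 : (‖y‖ ^ 3)⁻¹ ≤ (2 * r + 1) * (‖y‖ ^ 4)⁻¹ := by
        have : (‖y‖ ^ 3)⁻¹ = ‖y‖ * (‖y‖ ^ 4)⁻¹ := by field_simp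
        rw [this]
        gcongr
        linarith [not_lt.1 hyr]
      rw [e]
      refine (norm_add_le _ _).trans ?_
      rw [norm_smul, norm_smul]
      calc ‖η x‖ * ‖K j x - K j y‖ + ‖η x - η y‖ * ‖K j y‖ ≤
          M * (17 * cst * ‖x - y‖ * (‖y‖ ^ 4)⁻¹) + (L * ‖x - y‖) * (cst * ((2 * r + 1) * (‖y‖ ^ 4)⁻¹)) := by
            gcongr
            exact h4.trans (by gcongr)
        _ = (17 * cst * M + cst * L * (2 * r + 1)) * ‖x - y‖ * (‖y‖ ^ 4)⁻¹ := by ring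
        _ ≤ _ := by
          gcongr
          linarith
  · intro x hx
    simp [kc, hr' x hx]

namespace IsKer

variable {k : C2 → ℂ} {C r : ℝ}

lemma integrable (h : IsKer k C r) : Integrable k := by
  have h1 : LocallyIntegrable k := by
    refine (locallyIntegrable_norm_inv_cube.smul C).mono h.meas.aestronglyMeasurable
      (Eventually.of_forall fun z => ?_)
    simp only [Pi.smul_apply, smul_eq_mul, norm_mul, Real.norm_eq_abs, abs_of_pos h.Cpos]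
    rw [abs_of_nonneg (by positivity)]
    exact h.size z
  refine integrable_of_compact h1 (HasCompactSupport.of_support_subset_isCompact
    (isCompact_closedBall (0 : C2) r) fun z hz => ?_)
  rw [mem_closedBall_zero_iff]
  by_contra hlt
  exact hz (h.supp z (not_le.1 hlt))

lemma hasCompactSupport (h : IsKer k C r) : HasCompactSupport k :=
  HasCompactSupport.of_support_subset_isCompact (isCompact_closedBall (0 : C2) r) fun z hz => by
    rw [mem_closedBall_zero_iff]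
    by_contra hlt
    exact hz (h.supp z (not_le.1 hlt))

/-- Pointwise interpolation. -/
lemma diff_half (h : IsKer k C r) {x y : C2} (hy : 0 < ‖y‖) (hxy : ‖y‖ ≤ ‖x‖) :
    ‖k x - k y‖ ≤ 2 * C * ‖x - y‖ ^ (1 / 2 : ℝ) * ‖y‖ ^ (-(7 / 2) : ℝ) := by
  have hx : 0 < ‖x‖ := hy.trans_le hxy
  have hC := h.Cpos
  have h1 := h.diff x y hy hxy
  have h2 : ‖k x - k y‖ ≤ 2 * C * (‖y‖ ^ 3)⁻¹ := by
    refine (norm_sub_le _ _).trans ?_
    have h3 := h.size x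
    have h4 := h.size y
    have h5 : (‖x‖ ^ 3)⁻¹ ≤ (‖y‖ ^ 3)⁻¹ := by gcongr
    nlinarith
  have e4 : ‖y‖ ^ (-(7 / 2) : ℝ) = ‖y‖ ^ (1 / 2 : ℝ) * (‖y‖ ^ 4)⁻¹ := by
    rw [← Real.rpow_natCast, ← Real.rpow_neg hy.le, ← Real.rpow_add hy]
    norm_num
  have e3 : ‖y‖ ^ (-(7 / 2) : ℝ) * ‖y‖ ^ (1 / 2 : ℝ) = (‖y‖ ^ 3)⁻¹ := by
    rw [← Real.rpow_natCast, ← Real.rpow_neg hy.le, ← Real.rpow_add hy]
    norm_num
  rcases le_total ‖x - y‖ ‖y‖ with hle | hle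
  · -- use the difference bound
    rcases (norm_nonneg (x - y)).eq_or_lt with h0 | h0
    · have : x - y = 0 := by rw [← norm_eq_zero]; exact h0.symm
      have hxy' : x = y := sub_eq_zero.1 this
      rw [hxy', sub_self, norm_zero]; positivity
    have e1 : ‖x - y‖ = ‖x - y‖ ^ (1 / 2 : ℝ) * ‖x - y‖ ^ (1 / 2 : ℝ) := by
      rw [← Real.rpow_add h0]; norm_num
    have h6 : ‖x - y‖ ^ (1 / 2 : ℝ) ≤ ‖y‖ ^ (1 / 2 : ℝ) := by gcongr
    calc ‖k x - k y‖ ≤ C * ‖x - y‖ * (‖y‖ ^ 4)⁻¹ := h1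
      _ = C * (‖x - y‖ ^ (1 / 2 : ℝ) * ‖x - y‖ ^ (1 / 2 : ℝ)) * (‖y‖ ^ 4)⁻¹ := by rw [← e1]
      _ ≤ C * (‖x - y‖ ^ (1 / 2 : ℝ) * ‖y‖ ^ (1 / 2 : ℝ)) * (‖y‖ ^ 4)⁻¹ := by gcongr
      _ = C * ‖x - y‖ ^ (1 / 2 : ℝ) * ‖y‖ ^ (-(7 / 2) : ℝ) := by rw [e4]; ring
      _ ≤ 2 * C * ‖x - y‖ ^ (1 / 2 : ℝ) * ‖y‖ ^ (-(7 / 2) : ℝ) := by
        gcongr
        linarith
  · have h6 : ‖y‖ ^ (1 / 2 : ℝ) ≤ ‖x - y‖ ^ (1 / 2 : ℝ) := by gcongr
    calc ‖k x - k y‖ ≤ 2 * C * (‖y‖ ^ 3)⁻¹ := h2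
      _ = 2 * C * ‖y‖ ^ (1 / 2 : ℝ) * ‖y‖ ^ (-(7 / 2) : ℝ) := by rw [← e3]; ring
      _ ≤ _ := by gcongr

/-- The constant in the Hölder bound. -/
def hc (C r : ℝ) : ℝ := 4 * C * (∫ w in ball (0 : C2) (r + 2), ‖w‖ ^ (-(7 / 2) : ℝ))

lemma setIntegral_nonneg (r : ℝ) : 0 ≤ ∫ w in ball (0 : C2) r, ‖w‖ ^ (-(7 / 2) : ℝ) :=
  integral_nonneg fun w => by positivity

/-- The difference of a kernel and its translate. -/
lemma integral_diff_le (h : IsKer k C r) {v : C2} (hv : ‖v‖ ≤ 1) :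
    ∫ w, ‖k (w + v) - k w‖ ≤ hc C r * ‖v‖ ^ (1 / 2 : ℝ) := by
  have hC := h.Cpos
  have hr := h.rpos
  set G : C2 → ℝ := (ball (0 : C2) (r + 2)).indicator fun w => ‖w‖ ^ (-(7 / 2) : ℝ) with hG
  have hGi : Integrable G :=
    (integrableOn_norm_rpow (s := 7 / 2) (by norm_num) (r + 2)).integrable_indicator measurableSet_ball
  have hGn : ∀ w, 0 ≤ G w := fun w => indicator_nonneg (fun w _ => by positivity) _
  have hGv : Integrable fun w => G (w + v) := hGi.comp_add_right v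
  have hGint : ∫ w, G w = ∫ w in ball (0 : C2) (r + 2), ‖w‖ ^ (-(7 / 2) : ℝ) :=
    integral_indicator measurableSet_ball
  have hpt : ∀ᵐ w : C2, ‖k (w + v) - k w‖ ≤ 2 * C * ‖v‖ ^ (1 / 2 : ℝ) * (G w + G (w + v)) := by
    have h0 : ∀ᵐ w : C2, w ≠ 0 := by
      rw [ae_iff]; simp
    have h1 : ∀ᵐ w : C2, w ≠ -v := by
      rw [ae_iff]; simp
    filter_upwards [h0, h1] with w hw0 hwv
    have hw : 0 < ‖w‖ := norm_pos_iff.2 hw0
    have hwv' : 0 < ‖w + v‖ := norm_pos_iff.2 fun h => hwv (eq_neg_of_add_eq_zero_left h)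
    by_cases hbig : r < ‖w‖ ∧ r < ‖w + v‖
    · rw [h.supp _ hbig.1, h.supp _ hbig.2, sub_zero, norm_zero]
      have := hGn w; have := hGn (w + v)
      positivity
    · have hwb : ‖w‖ < r + 2 ∧ ‖w + v‖ < r + 2 := by
        have t1 : ‖w‖ ≤ ‖w + v‖ + ‖v‖ := by
          calc ‖w‖ = ‖(w + v) - v‖ := by congr 1; abel
            _ ≤ _ := norm_sub_le _ _
        have t2 : ‖w + v‖ ≤ ‖w‖ + ‖v‖ := norm_add_le _ _
        by_cases hb : r < ‖w‖
        · have : ‖w + v‖ ≤ r := by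
            by_contra hh
            exact hbig ⟨hb, not_le.1 hh⟩
          constructor <;> linarith
        · constructor <;> linarith
      have g1 : G w = ‖w‖ ^ (-(7 / 2) : ℝ) :=
        indicator_of_mem (by rw [mem_ball_zero_iff]; exact hwb.1) _
      have g2 : G (w + v) = ‖w + v‖ ^ (-(7 / 2) : ℝ) :=
        indicator_of_mem (s := ball (0 : C2) (r + 2)) (f := fun w => ‖w‖ ^ (-(7 / 2) : ℝ))
          (by rw [mem_ball_zero_iff]; exact hwb.2)
      rw [g1, g2]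
      rcases le_total ‖w‖ ‖w + v‖ with hle | hle
      · have := h.diff_half hw hle
        rw [add_sub_cancel_left] at this
        refine this.trans ?_
        gcongr
        have : 0 ≤ ‖w + v‖ ^ (-(7 / 2) : ℝ) := by positivity
        linarith
      · have := h.diff_half hwv' hle
        rw [norm_sub_rev, show w - (w + v) = -v by abel, norm_neg] at this
        refine this.trans ?_
        gcongr
        have : 0 ≤ ‖w‖ ^ (-(7 / 2) : ℝ) := by positivity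
        linarith
  have hint : Integrable fun w => 2 * C * ‖v‖ ^ (1 / 2 : ℝ) * (G w + G (w + v)) :=
    (hGi.add hGv).const_mul _
  calc ∫ w, ‖k (w + v) - k w‖ ≤ ∫ w, 2 * C * ‖v‖ ^ (1 / 2 : ℝ) * (G w + G (w + v)) :=
        integral_mono_of_nonneg (Eventually.of_forall fun w => norm_nonneg _) hint hpt
    _ = 2 * C * ‖v‖ ^ (1 / 2 : ℝ) * ((∫ w, G w) + ∫ w, G w) := by
        rw [integral_const_mul, integral_add hGi hGv, integral_add_right_eq_self G v]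
    _ = hc C r * ‖v‖ ^ (1 / 2 : ℝ) := by rw [hGint, hc]; ring

/-- The integral of the difference of two translates, no restriction on the distance. -/
lemma exists_integral_diff_le (h : IsKer k C r) : ∃ H : ℝ, 0 < H ∧ ∀ v : C2,
    ∫ w, ‖k (w + v) - k w‖ ≤ H * ‖v‖ ^ (1 / 2 : ℝ) := by
  refine ⟨hc C r + 2 * (∫ w, ‖k w‖) + 1, ?_, fun v => ?_⟩
  · have h1 : 0 ≤ hc C r := by
      unfold hc
      have := setIntegral_nonneg (r + 2)
      have := h.Cpos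
      positivity
    have h2 : 0 ≤ ∫ w, ‖k w‖ := integral_nonneg fun w => norm_nonneg _
    positivity
  have h1 : 0 ≤ hc C r := by
    unfold hc
    have := setIntegral_nonneg (r + 2)
    have := h.Cpos
    positivity
  have h2 : 0 ≤ ∫ w, ‖k w‖ := integral_nonneg fun w => norm_nonneg _
  have hp : 0 ≤ ‖v‖ ^ (1 / 2 : ℝ) := by positivity
  rcases le_or_gt ‖v‖ 1 with hv | hv
  · refine (h.integral_diff_le hv).trans ?_
    nlinarith
  · have h3 : 1 ≤ ‖v‖ ^ (1 / 2 : ℝ) := Real.one_le_rpow hv.le (by norm_num)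
    have hk := h.integrable
    have h4 : ∫ w, ‖k (w + v) - k w‖ ≤ 2 * ∫ w, ‖k w‖ := by
      calc ∫ w, ‖k (w + v) - k w‖ ≤ ∫ w, (‖k (w + v)‖ + ‖k w‖) :=
            integral_mono_of_nonneg (Eventually.of_forall fun w => norm_nonneg _)
              ((hk.comp_add_right v).norm.add hk.norm) (Eventually.of_forall fun w => norm_sub_le _ _)
        _ = 2 * ∫ w, ‖k w‖ := by
            rw [integral_add (hk.comp_add_right v).norm hk.norm,
              integral_add_right_eq_self (fun w => ‖k w‖) v]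
            ring
    nlinarith

end IsKer

/-- **Hölder bound**: convolution with `k` maps bounded functions to Hölder-`1/2` functions. -/
theorem IsKer.exists_holder {k : C2 → ℂ} {C r : ℝ} (h : IsKer k C r) : ∃ H : ℝ, 0 < H ∧
    ∀ (f : C2 → F) (M : ℝ), AEStronglyMeasurable f → (∀ z, ‖f z‖ ≤ M) → ∀ x y,
      ‖cv k f x - cv k f y‖ ≤ H * M * ‖x - y‖ ^ (1 / 2 : ℝ) := by
  obtain ⟨H, hH, hb⟩ := h.exists_integral_diff_le
  refine ⟨H, hH, fun f M hf hM x y => ?_⟩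
  have hk := h.integrable
  have hi : ∀ x, Integrable fun w => k (x - w) • f w := fun x =>
    (hk.comp_sub_left x).smul_bdd M hf (Eventually.of_forall hM)
  rw [cv_swap, cv_swap, ← integral_sub (hi x) (hi y)]
  refine (norm_integral_le_integral_norm _).trans ?_
  have h1 : ∫ w, ‖k (x - w) • f w - k (y - w) • f w‖ ≤ ∫ w, ‖k (x - w) - k (y - w)‖ * M := by
    refine integral_mono_of_nonneg (Eventually.of_forall fun w => norm_nonneg _)
      (((hk.comp_sub_left x).sub (hk.comp_sub_left y)).norm.mul_const M)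
      (Eventually.of_forall fun w => ?_)
    simp only
    rw [← sub_smul, norm_smul]
    exact mul_le_mul_of_nonneg_left (hM w) (norm_nonneg _)
  have hM0 : 0 ≤ M := (norm_nonneg _).trans (hM 0)
  have h2 : ∫ w, ‖k (x - w) - k (y - w)‖ = ∫ w, ‖k (w + (x - y)) - k w‖ := by
    rw [← integral_sub_left_eq_self (fun w => ‖k (w + (x - y)) - k w‖) volume y]
    congr 1
    funext w
    congr 3
    abel
  calc ∫ w, ‖k (x - w) • f w - k (y - w) • f w‖ ≤ ∫ w, ‖k (x - w) - k (y - w)‖ * M := h1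
    _ = (∫ w, ‖k (w + (x - y)) - k w‖) * M := by rw [integral_mul_const, h2]
    _ ≤ (H * ‖x - y‖ ^ (1 / 2 : ℝ)) * M := by gcongr; exact hb _
    _ = H * M * ‖x - y‖ ^ (1 / 2 : ℝ) := by ring

end

end Vale.Agent.P267.H667
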