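import Mathlib

/-!
# The Bochner-Martinelli kernel on `ℂ²` and the representation formula

Model space `C2 = Fin 2 → ℂ`.  `db j f` is the derivative `∂f/∂(conj z_j)`.
`K j z = c * conj (z j) / (|z 0|² + |z 1|²)²`.  For `f` of class `C¹` with compact support
`∑ j, K j ⋆ db j f = f`.
-/

open MeasureTheory Filter Topology Set Metric
open scoped Convolution ComplexConjugate ContDiff

namespace Vale.Agent.P267.H667

noncomputable section

/-- The model space `ℂ²` (sup norm). -/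
abbrev C2 := Fin 2 → ℂ

/-- `|z 0|² + |z 1|²`. -/
def sq (z : C2) : ℝ := Complex.normSq (z 0) + Complex.normSq (z 1)

lemma sq_nonneg (z : C2) : 0 ≤ sq z := add_nonneg (Complex.normSq_nonneg _) (Complex.normSq_nonneg _)

lemma sq_zero : sq 0 = 0 := by simp [sq]

lemma norm_apply_le (z : C2) (j : Fin 2) : ‖z j‖ ≤ ‖z‖ := norm_le_pi_norm z j

lemma norm_sq_le_sq (z : C2) : ‖z‖ ^ 2 ≤ sq z := by
  have h : ∀ j, ‖z j‖ ^ 2 ≤ sq z := by
    intro j
    rw [← Complex.normSq_eq_norm_sq]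
    fin_cases j
    · simp [sq, Complex.normSq_nonneg]
    · simp [sq, Complex.normSq_nonneg]
  have h2 : ‖z‖ ≤ Real.sqrt (sq z) := by
    rw [pi_norm_le_iff_of_nonneg (Real.sqrt_nonneg _)]
    intro j
    exact Real.le_sqrt_of_sq_le (h j)
  calc ‖z‖ ^ 2 ≤ Real.sqrt (sq z) ^ 2 := by gcongr
    _ = sq z := Real.sq_sqrt (sq_nonneg z)

lemma sq_le (z : C2) : sq z ≤ 2 * ‖z‖ ^ 2 := by
  have h : ∀ j, Complex.normSq (z j) ≤ ‖z‖ ^ 2 := by
    intro j
    rw [Complex.normSq_eq_norm_sq]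
    gcongr
    exact norm_apply_le z j
  have h0 := h 0
  have h1 := h 1
  unfold sq
  linarith

lemma sq_pos {z : C2} (hz : z ≠ 0) : 0 < sq z :=
  lt_of_lt_of_le (by have := norm_pos_iff.2 hz; positivity) (norm_sq_le_sq z)

lemma sq_neg (z : C2) : sq (-z) = sq z := by simp [sq]

lemma sq_smul (r : ℝ) (z : C2) : sq (r • z) = r ^ 2 * sq z := by
  simp [sq, Complex.normSq_mul, Complex.normSq_ofReal]
  ring

lemma contDiff_normSq {n : WithTop ℕ∞} : ContDiff ℝ n (fun z : ℂ => Complex.normSq z) := by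
  have h : (fun z : ℂ => Complex.normSq z) = fun z => ‖z‖ ^ 2 := by
    funext z; rw [Complex.normSq_eq_norm_sq]
  rw [h]; exact contDiff_norm_sq ℝ

lemma contDiff_sq {n : WithTop ℕ∞} : ContDiff ℝ n sq := by
  have h0 : ContDiff ℝ n (fun z : C2 => z 0) := contDiff_apply ℝ ℂ 0
  have h1 : ContDiff ℝ n (fun z : C2 => z 1) := contDiff_apply ℝ ℂ 1
  exact (contDiff_normSq.comp h0).add (contDiff_normSq.comp h1)

lemma continuous_sq : Continuous sq := (contDiff_sq (n := 0)).continuous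

variable {F : Type*} [NormedAddCommGroup F] [NormedSpace ℂ F]

/-- The linear map `L ↦ (L e_j + i L (i e_j)) / 2`. -/
def dbL (j : Fin 2) (L : C2 →L[ℝ] F) : F :=
  (1 / 2 : ℝ) • (L (Pi.single j 1) + Complex.I • L (Pi.single j Complex.I))

/-- `∂f/∂(conj z_j)`. -/
def db (j : Fin 2) (f : C2 → F) (z : C2) : F := dbL j (fderiv ℝ f z)

lemma db_eq (j : Fin 2) (f : C2 → F) (z : C2) : db j f z =
    (1 / 2 : ℝ) • (fderiv ℝ f z (Pi.single j 1) + Complex.I • fderiv ℝ f z (Pi.single j Complex.I)) :=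
  rfl

/-- The same with the complex scalar `1/2`. -/
lemma db_eq_complex (j : Fin 2) (f : C2 → F) (z : C2) : db j f z =
    (1 / 2 : ℂ) • (fderiv ℝ f z (Pi.single j 1) + Complex.I • fderiv ℝ f z (Pi.single j Complex.I)) := by
  rw [db_eq, ← Complex.coe_smul]
  norm_num

lemma dbL_add (j : Fin 2) (L M : C2 →L[ℝ] F) : dbL j (L + M) = dbL j L + dbL j M := by
  simp only [dbL, _root_.add_apply, smul_add]; abel

lemma dbL_neg (j : Fin 2) (L : C2 →L[ℝ] F) : dbL j (-L) = - dbL j L := by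
  simp only [dbL, _root_.neg_apply, smul_neg, ← neg_add]

lemma dbL_sub (j : Fin 2) (L M : C2 →L[ℝ] F) : dbL j (L - M) = dbL j L - dbL j M := by
  rw [sub_eq_add_neg, dbL_add, dbL_neg, sub_eq_add_neg]

lemma dbL_zero (j : Fin 2) : dbL j (0 : C2 →L[ℝ] F) = 0 := by
  simp [dbL]

lemma norm_single_one (j : Fin 2) : ‖(Pi.single j (1 : ℂ) : C2)‖ = 1 := by
  rw [Pi.norm_single]; simp

lemma norm_single_I (j : Fin 2) : ‖(Pi.single j (Complex.I : ℂ) : C2)‖ = 1 := by
  rw [Pi.norm_single]; simp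

lemma norm_dbL_le (j : Fin 2) (L : C2 →L[ℝ] F) : ‖dbL j L‖ ≤ ‖L‖ := by
  have h1 : ‖L (Pi.single j 1)‖ ≤ ‖L‖ := by
    have := L.le_opNorm (Pi.single j (1 : ℂ)); rwa [norm_single_one, mul_one] at this
  have h2 : ‖L (Pi.single j Complex.I)‖ ≤ ‖L‖ := by
    have := L.le_opNorm (Pi.single j (Complex.I : ℂ)); rwa [norm_single_I, mul_one] at this
  unfold dbL
  rw [norm_smul]
  have h3 : ‖L (Pi.single j 1) + Complex.I • L (Pi.single j Complex.I)‖ ≤ ‖L‖ + ‖L‖ := by
    refine (norm_add_le _ _).trans (add_le_add h1 ?_)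
    rw [norm_smul, Complex.norm_I, one_mul]; exact h2
  have h4 : ‖(1 / 2 : ℝ)‖ = 1 / 2 := by norm_num
  rw [h4]; linarith

lemma db_congr_nhds {j : Fin 2} {f g : C2 → F} {z : C2} (h : f =ᶠ[𝓝 z] g) : db j f z = db j g z := by
  unfold db; rw [h.fderiv_eq]

lemma continuous_dbL (j : Fin 2) : Continuous (dbL j : (C2 →L[ℝ] F) → F) := by
  unfold dbL
  fun_prop

/-- `dbL j` as a continuous linear map. -/
def dbLL (j : Fin 2) : (C2 →L[ℝ] F) →L[ℝ] F where
  toFun := dbL j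
  map_add' := dbL_add j
  map_smul' := by
    intro r L
    simp only [dbL, _root_.smul_apply, RingHom.id_apply]
    rw [smul_comm Complex.I r, ← smul_add, smul_comm]
  cont := continuous_dbL j

lemma dbLL_apply (j : Fin 2) (L : C2 →L[ℝ] F) : dbLL j L = dbL j L := rfl

lemma contDiff_db {j : Fin 2} {f : C2 → F} {m n : WithTop ℕ∞} (hf : ContDiff ℝ n f) (h : m + 1 ≤ n) :
    ContDiff ℝ m (db j f) :=
  (dbLL (F := F) j).contDiff.comp (hf.fderiv_right h)

lemma continuous_db {j : Fin 2} {f : C2 → F} (hf : ContDiff ℝ 1 f) : Continuous (db j f) :=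
  (contDiff_db (m := 0) hf (by simp)).continuous

lemma hasCompactSupport_db {j : Fin 2} {f : C2 → F} (hf : HasCompactSupport f) :
    HasCompactSupport (db j f) := by
  have h := hf.fderiv (𝕜 := ℝ)
  exact h.comp_left (g := dbL j) (dbL_zero j)

lemma tsupport_db_subset (j : Fin 2) (f : C2 → F) : tsupport (db j f) ⊆ tsupport f := by
  refine (closure_mono ?_).trans (tsupport_fderiv_subset ℝ)
  intro z hz h
  apply hz
  simp only [db, h, dbL_zero]

lemma db_add {j : Fin 2} {f g : C2 → F} {z : C2} (hf : DifferentiableAt ℝ f z)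
    (hg : DifferentiableAt ℝ g z) : db j (fun w => f w + g w) z = db j f z + db j g z := by
  unfold db; rw [fderiv_fun_add hf hg, dbL_add]

lemma db_sub {j : Fin 2} {f g : C2 → F} {z : C2} (hf : DifferentiableAt ℝ f z)
    (hg : DifferentiableAt ℝ g z) : db j (fun w => f w - g w) z = db j f z - db j g z := by
  unfold db; rw [fderiv_fun_sub hf hg, dbL_sub]

lemma db_neg {j : Fin 2} {f : C2 → F} {z : C2} : db j (fun w => - f w) z = - db j f z := by
  unfold db; rw [fderiv_fun_neg, dbL_neg]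

/-- Leibniz rule for a complex valued function times a vector valued function. -/
lemma db_smul {j : Fin 2} {a : C2 → ℂ} {f : C2 → F} {z : C2} (ha : DifferentiableAt ℝ a z)
    (hf : DifferentiableAt ℝ f z) :
    db j (fun w => a w • f w) z = a z • db j f z + db j a z • f z := by
  have h : fderiv ℝ (fun w => a w • f w) z = a z • fderiv ℝ f z + (fderiv ℝ a z).smulRight (f z) :=
    fderiv_fun_smul ha hf
  simp only [db, dbL, h, _root_.add_apply, _root_.smul_apply,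
    ContinuousLinearMap.smulRight_apply, smul_eq_mul, ← Complex.coe_smul]
  module

/-! ### Derivatives of the kernels -/

/-- The conjugate of the `j`-th coordinate. -/
def cj (j : Fin 2) (z : C2) : ℂ := conj (z j)

/-- `cj j` as a continuous linear map. -/
def cjL (j : Fin 2) : C2 →L[ℝ] ℂ :=
  (Complex.conjCLE : ℂ →L[ℝ] ℂ).comp (ContinuousLinearMap.proj j)

lemma cjL_apply (j : Fin 2) (z : C2) : cjL j z = cj j z := rfl

lemma contDiff_cj {j : Fin 2} {n : WithTop ℕ∞} : ContDiff ℝ n (cj j) := (cjL j).contDiff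

lemma db_cj_self (j : Fin 2) (z : C2) : db j (cj j) z = 1 := by
  have h : fderiv ℝ (cj j) z = cjL j := (cjL j).fderiv
  rw [db_eq, h]
  simp only [cjL_apply, cj, Pi.single_eq_same, map_one, Complex.conj_I, smul_eq_mul, mul_neg,
    Complex.I_mul_I, neg_neg]
  norm_num

lemma norm_cj_le (j : Fin 2) (z : C2) : ‖cj j z‖ ≤ ‖z‖ := by
  rw [cj, RCLike.norm_conj]; exact norm_apply_le z j

/-- The derivative of `sq`. -/
def sqL (z : C2) : C2 →L[ℝ] ℝ :=
  (2 * (z 0).re) • (Complex.reCLM.comp (ContinuousLinearMap.proj 0)) +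
  (2 * (z 0).im) • (Complex.imCLM.comp (ContinuousLinearMap.proj 0)) +
  ((2 * (z 1).re) • (Complex.reCLM.comp (ContinuousLinearMap.proj 1)) +
  (2 * (z 1).im) • (Complex.imCLM.comp (ContinuousLinearMap.proj 1)))

lemma sqL_apply (z v : C2) : sqL z v = 2 * (z 0).re * (v 0).re + 2 * (z 0).im * (v 0).im +
    (2 * (z 1).re * (v 1).re + 2 * (z 1).im * (v 1).im) := rfl

lemma hasFDerivAt_sq (z : C2) : HasFDerivAt sq (sqL z) z := by
  have hre : ∀ j : Fin 2, HasFDerivAt (fun w : C2 => (w j).re)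
      (Complex.reCLM.comp (ContinuousLinearMap.proj j)) z := fun j =>
    (Complex.reCLM.comp (ContinuousLinearMap.proj (R := ℝ) (φ := fun _ : Fin 2 => ℂ) j)).hasFDerivAt
  have him : ∀ j : Fin 2, HasFDerivAt (fun w : C2 => (w j).im)
      (Complex.imCLM.comp (ContinuousLinearMap.proj j)) z := fun j =>
    (Complex.imCLM.comp (ContinuousLinearMap.proj (R := ℝ) (φ := fun _ : Fin 2 => ℂ) j)).hasFDerivAt
  have h : HasFDerivAt (fun w : C2 => (w 0).re ^ 2 + (w 0).im ^ 2 + ((w 1).re ^ 2 + (w 1).im ^ 2))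
      (sqL z) z := by
    convert! (((hre 0).pow 2).add ((him 0).pow 2)).add (((hre 1).pow 2).add ((him 1).pow 2)) using 1
    ext v
    simp [sqL_apply]
  have he : sq = fun w : C2 => (w 0).re ^ 2 + (w 0).im ^ 2 + ((w 1).re ^ 2 + (w 1).im ^ 2) := by
    funext w
    simp only [sq, Complex.normSq_apply]
    ring
  rw [he]; exact h

lemma db_comp_sq {j : Fin 2} {g : ℝ → ℝ} {g' : ℝ} {z : C2} (hg : HasDerivAt g g' (sq z)) :
    db j (fun w => ((g (sq w) : ℝ) : ℂ)) z = g' * z j := by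
  have h1 : HasFDerivAt (fun w => g (sq w)) (g' • sqL z) z := hg.comp_hasFDerivAt z (hasFDerivAt_sq z)
  have h2 : HasFDerivAt (fun w => ((g (sq w) : ℝ) : ℂ)) (Complex.ofRealCLM.comp (g' • sqL z)) z :=
    Complex.ofRealCLM.hasFDerivAt.comp z h1
  rw [db_eq, h2.fderiv]
  have hz : z j = (z j).re + (z j).im * Complex.I := (Complex.re_add_im _).symm
  fin_cases j
  · simp only [Fin.zero_eta, Fin.isValue, ContinuousLinearMap.coe_comp, Function.comp_apply,
      _root_.smul_apply, sqL_apply, smul_eq_mul, Complex.ofRealCLM_apply,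
      Pi.single_eq_same, Complex.one_re, Complex.one_im, Complex.I_re, Complex.I_im,
      Complex.real_smul] at hz ⊢
    simp
    linear_combination (-(g' : ℂ)) * hz
  · simp only [Fin.mk_one, Fin.isValue, ContinuousLinearMap.coe_comp, Function.comp_apply,
      _root_.smul_apply, sqL_apply, smul_eq_mul, Complex.ofRealCLM_apply,
      Pi.single_eq_same, Complex.one_re, Complex.one_im, Complex.I_re, Complex.I_im,
      Complex.real_smul] at hz ⊢
    simp
    linear_combination (-(g' : ℂ)) * hz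

/-- Regularised kernel `conj (z j) / (|z|² + e²)²` (for `e = 0` the kernel itself, up to a constant). -/
def Ke (e : ℝ) (j : Fin 2) (z : C2) : ℂ := ((((sq z + e ^ 2) ^ 2)⁻¹ : ℝ) : ℂ) • cj j z

/-- `∑ ∂ (Ke e j) / ∂ conj z_j`. -/
def rhoe (e : ℝ) (z : C2) : ℝ := 2 * e ^ 2 * ((sq z + e ^ 2) ^ 3)⁻¹

lemma contDiffAt_Ke {e : ℝ} {j : Fin 2} {z : C2} {n : WithTop ℕ∞} (h : sq z + e ^ 2 ≠ 0) :
    ContDiffAt ℝ n (Ke e j) z := by
  have h1 : ContDiffAt ℝ n (fun w => ((sq w + e ^ 2) ^ 2)⁻¹) z :=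
    ((contDiff_sq.add contDiff_const).pow 2).contDiffAt.inv (pow_ne_zero 2 h)
  have h2 : ContDiffAt ℝ n (fun w => ((((sq w + e ^ 2) ^ 2)⁻¹ : ℝ) : ℂ)) z :=
    Complex.ofRealCLM.contDiff.contDiffAt.comp z h1
  exact h2.smul contDiff_cj.contDiffAt

lemma sq_add_pos {e : ℝ} (he : e ≠ 0) (z : C2) : 0 < sq z + e ^ 2 := by
  have := sq_nonneg z; positivity

lemma contDiff_Ke {e : ℝ} (he : e ≠ 0) {j : Fin 2} {n : WithTop ℕ∞} : ContDiff ℝ n (Ke e j) :=
  contDiff_iff_contDiffAt.2 fun z => contDiffAt_Ke (sq_add_pos he z).ne'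

lemma db_Ke {e : ℝ} {j : Fin 2} {z : C2} (h : sq z + e ^ 2 ≠ 0) :
    db j (Ke e j) z = (((sq z + e ^ 2) ^ 2)⁻¹ : ℝ) -
      (2 * ((sq z + e ^ 2) ^ 3)⁻¹ : ℝ) * (Complex.normSq (z j) : ℝ) := by
  have hg : HasDerivAt (fun s : ℝ => ((s + e ^ 2) ^ 2)⁻¹) (-(2 * ((sq z + e ^ 2) ^ 3)⁻¹)) (sq z) := by
    have h1 : HasDerivAt (fun s : ℝ => (s + e ^ 2) ^ 2) (2 * (sq z + e ^ 2)) (sq z) := by
      have := ((hasDerivAt_id (sq z)).add_const (e ^ 2)).fun_pow 2
      simpa using this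
    have h2 := h1.inv (pow_ne_zero 2 h)
    convert! h2 using 1
    field_simp
  have h1 : ContDiffAt ℝ 1 (fun w => ((((sq w + e ^ 2) ^ 2)⁻¹ : ℝ) : ℂ)) z :=
    Complex.ofRealCLM.contDiff.contDiffAt.comp z
      (((contDiff_sq.add contDiff_const).pow 2).contDiffAt.inv (pow_ne_zero 2 h))
  have h3 := db_smul (j := j) (h1.differentiableAt one_ne_zero)
    ((contDiff_cj (j := j) (n := 1)).contDiffAt.differentiableAt (x := z) one_ne_zero)
  have h4 := db_comp_sq (j := j) hg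
  have h5 : db j (Ke e j) z = db j (fun w => ((((sq w + e ^ 2) ^ 2)⁻¹ : ℝ) : ℂ) • cj j w) z := rfl
  rw [h5, h3, h4, db_cj_self]
  simp only [smul_eq_mul, cj]
  have h6 : z j * conj (z j) = (Complex.normSq (z j) : ℝ) := Complex.mul_conj _
  push_cast
  rw [mul_assoc, h6]
  ring

lemma sum_db_Ke {e : ℝ} {z : C2} (h : sq z + e ^ 2 ≠ 0) :
    ∑ j, db j (Ke e j) z = (rhoe e z : ℝ) := by
  rw [Fin.sum_univ_two, db_Ke h, db_Ke h]
  have : sq z = Complex.normSq (z 0) + Complex.normSq (z 1) := rfl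
  have h2 : ((sq z + e ^ 2) ^ 2)⁻¹ - 2 * ((sq z + e ^ 2) ^ 3)⁻¹ * Complex.normSq (z 0) +
      (((sq z + e ^ 2) ^ 2)⁻¹ - 2 * ((sq z + e ^ 2) ^ 3)⁻¹ * Complex.normSq (z 1)) = rhoe e z := by
    unfold rhoe
    have h3 : ((sq z + e ^ 2) ^ 2)⁻¹ = (sq z + e ^ 2) * ((sq z + e ^ 2) ^ 3)⁻¹ := by
      field_simp
    rw [h3, this]
    ring
  rw [← h2]
  push_cast
  ring

end

end Vale.Agent.P267.H667
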