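import Vale.Agent.P267.H667.Hol

/-!
# Pseudolocality and smooth dependence on parameters
-/

open MeasureTheory Filter Topology Set Metric
open scoped Convolution ComplexConjugate ContDiff

namespace Vale.Agent.P267.H667

noncomputable section

variable {F : Type*} [NormedAddCommGroup F] [NormedSpace ℂ F]

/-- A smooth function with support in `U` times a function which is `C^n` on `U`. -/
lemma contDiff_cut_of_tsupport {χ : C2 → ℝ} (hχ : ContDiff ℝ ∞ χ) {U : Set C2} (hU : IsOpen U)
    (hs : tsupport χ ⊆ U) {f : C2 → F} {n : ℕ∞} (hf : ContDiffOn ℝ n f U) :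
    ContDiff ℝ n (cut χ f) := by
  rw [contDiff_iff_contDiffAt]
  intro z
  by_cases hz : z ∈ tsupport χ
  · exact (hχ.of_le (by exact_mod_cast le_top)).contDiffAt.smul (hf.contDiffAt (hU.mem_nhds (hs hz)))
  · have h1 : cut χ f =ᶠ[𝓝 z] fun _ => 0 := by
      filter_upwards [(isClosed_tsupport χ).isOpen_compl.mem_nhds hz] with w hw
      have : χ w = 0 := image_eq_zero_of_notMem_tsupport hw
      simp [cut, this]
    exact contDiffAt_const.congr_of_eventuallyEq h1

lemma locallyIntegrable_cut {χ : C2 → ℝ} (hχ : Continuous χ) {f : C2 → F}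
    (hf : LocallyIntegrable f) : LocallyIntegrable (cut χ f) := hf.continuous_smul hχ

lemma integrable_cv_integrand_left {k : C2 → ℂ} {f : C2 → F} (hk : Continuous k)
    (hkc : HasCompactSupport k) (hf : LocallyIntegrable f) (z : C2) :
    Integrable fun w => k w • f (z - w) :=
  hkc.convolutionExists_left (ContinuousLinearMap.lsmul ℝ ℂ) hk hf z

lemma contDiff_cv_left {k : C2 → ℂ} {f : C2 → F} {n : ℕ∞} (hk : ContDiff ℝ n k)
    (hkc : HasCompactSupport k) (hf : LocallyIntegrable f) : ContDiff ℝ n (cv k f) := by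
  rw [cv_eq]; exact hkc.contDiff_convolution_left _ hk hf

/-- The decomposition behind pseudolocality. -/
lemma exists_split {k : C2 → ℂ} (hk : LocallyIntegrable k) (hkc : HasCompactSupport k)
    (hks : ∀ z ≠ 0, ContDiffAt ℝ ∞ k z) {f : C2 → F} (hf : LocallyIntegrable f) {U : Set C2}
    (hU : IsOpen U) (hfU : ContinuousOn f U) {z₀ : C2} (hz₀ : z₀ ∈ U) :
    ∃ (χ : C2 → ℝ) (k₂ : C2 → ℂ) (f₂ : C2 → F), ContDiff ℝ ∞ χ ∧ HasCompactSupport χ ∧
      tsupport χ ⊆ U ∧ ContDiff ℝ ∞ k₂ ∧ HasCompactSupport k₂ ∧ LocallyIntegrable f₂ ∧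
      ∀ᶠ z in 𝓝 z₀, (Integrable fun w => k w • f (z - w)) ∧
        cv k f z = cv k (cut χ f) z + cv k₂ f₂ z := by
  obtain ⟨d, hd, hdU⟩ := Metric.isOpen_iff.1 hU z₀ hz₀
  have hd3 : 0 < d / 3 := by positivity
  obtain ⟨χ, h1, h2, h3, h4, h5, h6⟩ := exists_cutoff z₀ hd3
  have hsub : tsupport χ ⊆ U := h6.trans ((closedBall_subset_ball (by linarith)).trans hdU)
  have hd12 : 0 < d / 12 := by positivity
  obtain ⟨ψ, g1, g2, g3, -, -, g6⟩ := exists_cutoff (0 : C2) hd12
  have hf1 : Continuous (cut χ f) :=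
    (contDiff_cut_of_tsupport (n := 0) h1 hU hsub (contDiffOn_zero.2 hfU)).continuous
  refine ⟨χ, fun w => (1 - ψ w) • k w, fun w => (1 - χ w) • f w, h1, h2, hsub, ?_, ?_, ?_, ?_⟩
  · rw [contDiff_iff_contDiffAt]
    intro z
    rcases eq_or_ne z 0 with rfl | hz
    · have : (fun w => (1 - ψ w) • k w) =ᶠ[𝓝 0] fun _ => 0 := by
        filter_upwards [closedBall_mem_nhds (0 : C2) hd12] with w hw
        simp [g3 w hw]
      exact contDiffAt_const.congr_of_eventuallyEq this
    · exact (contDiff_const.sub g1).contDiffAt.smul (hks z hz)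
  · exact hkc.smul_left (f := fun w => (1 - ψ w))
  · exact hf.continuous_smul (continuous_const.sub h1.continuous)
  · filter_upwards [ball_mem_nhds z₀ (by positivity : 0 < d / 6)] with z hz
    have hk2c : Continuous fun w => (1 - ψ w) • k w := by
      rw [continuous_iff_continuousAt]
      intro z
      rcases eq_or_ne z 0 with rfl | hz
      · have : (fun w => (1 - ψ w) • k w) =ᶠ[𝓝 0] fun _ => 0 := by
          filter_upwards [closedBall_mem_nhds (0 : C2) hd12] with w hw
          simp [g3 w hw]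
        exact (continuousAt_const (y := (0 : ℂ))).congr this.symm
      · exact (continuous_const.sub g1.continuous).continuousAt.smul (hks z hz).continuousAt
    have i1 := integrable_cv_integrand (f := cut χ f) hk hf1 (hasCompactSupport_cut h2) z
    have i2 := integrable_cv_integrand_left (k := fun w => (1 - ψ w) • k w)
      (f := fun w => (1 - χ w) • f w) hk2c (hkc.smul_left (f := fun w => (1 - ψ w)))
      (hf.continuous_smul (continuous_const.sub h1.continuous)) z
    have hpt : ∀ w, k w • f (z - w) = k w • cut χ f (z - w) +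
        ((1 - ψ w) • k w) • ((1 - χ (z - w)) • f (z - w)) := by
      intro w
      by_cases hw : w ∈ tsupport ψ
      · have hw' := g6 hw
        rw [mem_closedBall_zero_iff] at hw'
        have : z - w ∈ closedBall z₀ (d / 3) := by
          rw [mem_closedBall, dist_eq_norm]
          rw [mem_ball, dist_eq_norm] at hz
          calc ‖z - w - z₀‖ = ‖(z - z₀) - w‖ := by congr 1; abel
            _ ≤ ‖z - z₀‖ + ‖w‖ := norm_sub_le _ _
            _ ≤ d / 3 := by linarith
        simp [cut, h3 _ this]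
      · have : ψ w = 0 := image_eq_zero_of_notMem_tsupport hw
        rw [this, cut, sub_zero, one_smul, ← smul_add, ← add_smul]
        simp
    refine ⟨(i1.add i2).congr (Eventually.of_forall fun w => (hpt w).symm), ?_⟩
    unfold cv
    rw [← integral_add i1 i2]
    exact integral_congr_ae (Eventually.of_forall hpt)

/-- **Pseudolocality**: if `f` is locally integrable and `C^n` on the open set `U`, then `k ⋆ f` is
`C^n` on `U`. -/
theorem contDiffOn_cv {k : C2 → ℂ} (hk : LocallyIntegrable k) (hkc : HasCompactSupport k)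
    (hks : ∀ z ≠ 0, ContDiffAt ℝ ∞ k z) {f : C2 → F} (hf : LocallyIntegrable f) {U : Set C2}
    (hU : IsOpen U) {n : ℕ∞} (hfU : ContDiffOn ℝ n f U) : ContDiffOn ℝ n (cv k f) U := by
  intro z₀ hz₀
  refine ContDiffAt.contDiffWithinAt ?_
  obtain ⟨χ, k₂, f₂, h1, h2, h3, h4, h5, h6, h7⟩ := exists_split hk hkc hks hf hU hfU.continuousOn hz₀
  have e1 : ContDiff ℝ n (cv k (cut χ f)) :=
    contDiff_cv hk (contDiff_cut_of_tsupport h1 hU h3 hfU) (hasCompactSupport_cut h2)
  have e2 : ContDiff ℝ n (cv k₂ f₂) :=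
    contDiff_cv_left (h4.of_le (by exact_mod_cast le_top)) h5 h6
  refine (e1.add e2).contDiffAt.congr_of_eventuallyEq ?_
  filter_upwards [h7] with z hz using hz.2

/-- Integrability of the convolution integrand at the points where `f` is continuous. -/
lemma integrable_cv_integrand_of_continuousOn {k : C2 → ℂ} (hk : LocallyIntegrable k)
    (hkc : HasCompactSupport k) (hks : ∀ z ≠ 0, ContDiffAt ℝ ∞ k z) {f : C2 → F}
    (hf : LocallyIntegrable f) {U : Set C2} (hU : IsOpen U) (hfU : ContinuousOn f U) {z : C2}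
    (hz : z ∈ U) : Integrable fun w => k w • f (z - w) := by
  obtain ⟨χ, k₂, f₂, h1, h2, h3, h4, h5, h6, h7⟩ := exists_split hk hkc hks hf hU hfU hz
  exact h7.self_of_nhds.1

/-- **Smooth dependence on parameters.** -/
theorem contDiffOn_cv_param {X : Type*} [NormedAddCommGroup X] [NormedSpace ℝ X] {k : C2 → ℂ}
    (hk : LocallyIntegrable k) (hkc : HasCompactSupport k) {s : Set X} (hs : IsOpen s)
    {G : X → C2 → F} {n : ℕ∞} (hG : ContDiffOn ℝ n (fun q : X × C2 => G q.1 q.2) (s ×ˢ univ)) :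
    ContDiffOn ℝ n (fun q : X × C2 => cv k (G q.1) q.2) (s ×ˢ univ) := by
  rintro ⟨x₀, z₀⟩ ⟨hx₀, -⟩
  refine ContDiffAt.contDiffWithinAt ?_
  obtain ⟨χ, h1, h2, -, h3⟩ := exists_cut (F := F) hkc z₀
  let g : X → C2 → F := fun x => cut χ (G x)
  have hg : ContDiffOn ℝ n (↿g) (s ×ˢ univ) := by
    have : (↿g : X × C2 → F) = fun q => χ q.2 • G q.1 q.2 := rfl
    rw [this]
    have h1n : ContDiff ℝ n χ := h1.of_le (by exact_mod_cast le_top)
    have h2n : ContDiff ℝ n (fun q : X × C2 => χ q.2) := h1n.comp contDiff_snd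
    exact h2n.contDiffOn.smul hG
  have hgs : ∀ x : X, ∀ w : C2, x ∈ s → w ∉ tsupport χ → g x w = 0 := fun x w _ hw => by
    simp only [g, cut, image_eq_zero_of_notMem_tsupport hw, zero_smul]
  have h4 := contDiffOn_convolution_right_with_param (μ := (volume : Measure C2))
    (ContinuousLinearMap.lsmul ℝ ℂ : ℂ →L[ℝ] F →L[ℝ] F) hs h2.isCompact hgs hk hg
  have h5 : ContDiffAt ℝ n (fun q : X × C2 => cv k (cut χ (G q.1)) q.2) (x₀, z₀) :=
    h4.contDiffAt ((hs.prod isOpen_univ).mem_nhds ⟨hx₀, mem_univ _⟩)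
  refine h5.congr_of_eventuallyEq ?_
  have h6 : ∀ᶠ q : X × C2 in 𝓝 (x₀, z₀), ∀ f : C2 → F, cv k f q.2 = cv k (cut χ f) q.2 :=
    (continuous_snd.tendsto (x₀, z₀)).eventually h3
  filter_upwards [h6] with q hq using hq _

end

end Vale.Agent.P267.H667
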