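import Vale.Agent.P267.H667.Ker

/-!
# The one-variable Cauchy kernel and its representation formula
-/

open MeasureTheory Filter Topology Set Metric
open scoped Convolution ComplexConjugate ContDiff

namespace Vale.Agent.P267.H667.One

noncomputable section

variable {F : Type*} [NormedAddCommGroup F] [NormedSpace ℂ F]

/-- `∂g/∂(conj w)` in one variable. -/
def d1 (g : ℂ → F) (w : ℂ) : F := (1 / 2 : ℝ) • (fderiv ℝ g w 1 + Complex.I • fderiv ℝ g w Complex.I)

/-- `|w|²` -/
def nsq (w : ℂ) : ℝ := Complex.normSq w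

lemma nsq_nonneg (w : ℂ) : 0 ≤ nsq w := Complex.normSq_nonneg w

lemma nsq_eq (w : ℂ) : nsq w = ‖w‖ ^ 2 := Complex.normSq_eq_norm_sq w

/-- regularised Cauchy kernel -/
def ke (e : ℝ) (w : ℂ) : ℂ := (((nsq w + e ^ 2)⁻¹ : ℝ) : ℂ) • conj w

/-- its derivative -/
def re (e : ℝ) (w : ℂ) : ℝ := e ^ 2 * ((nsq w + e ^ 2) ^ 2)⁻¹

lemma nsq_add_pos {e : ℝ} (he : e ≠ 0) (w : ℂ) : 0 < nsq w + e ^ 2 := by
  have := nsq_nonneg w; positivity

lemma contDiff_nsq {n : WithTop ℕ∞} : ContDiff ℝ n nsq := contDiff_normSq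

lemma contDiff_ke {e : ℝ} (he : e ≠ 0) {n : WithTop ℕ∞} : ContDiff ℝ n (ke e) := by
  have h1 : ContDiff ℝ n (fun w => (nsq w + e ^ 2)⁻¹) :=
    (contDiff_nsq.add contDiff_const).inv fun w => (nsq_add_pos he w).ne'
  have h2 : ContDiff ℝ n (fun w => (((nsq w + e ^ 2)⁻¹ : ℝ) : ℂ)) := Complex.ofRealCLM.contDiff.comp h1
  exact h2.smul Complex.conjCLE.contDiff

lemma hasFDerivAt_nsq (w : ℂ) : HasFDerivAt nsq
    ((2 * w.re) • Complex.reCLM + (2 * w.im) • Complex.imCLM) w := by
  have h : HasFDerivAt (fun w : ℂ => w.re ^ 2 + w.im ^ 2)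
      ((2 * w.re) • Complex.reCLM + (2 * w.im) • Complex.imCLM) w := by
    convert! ((Complex.reCLM.hasFDerivAt (x := w)).pow 2).add
      ((Complex.imCLM.hasFDerivAt (x := w)).pow 2) using 1
    ext v
    simp
  have he : nsq = fun w : ℂ => w.re ^ 2 + w.im ^ 2 := by
    funext w; simp only [nsq, Complex.normSq_apply]; ring
  rw [he]; exact h

/-- Leibniz rule. -/
lemma d1_smul {a : ℂ → ℂ} {f : ℂ → F} {z : ℂ} (ha : DifferentiableAt ℝ a z)
    (hf : DifferentiableAt ℝ f z) :
    d1 (fun w => a w • f w) z = a z • d1 f z + d1 a z • f z := by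
  have h : fderiv ℝ (fun w => a w • f w) z = a z • fderiv ℝ f z + (fderiv ℝ a z).smulRight (f z) :=
    fderiv_fun_smul ha hf
  simp only [d1, h, _root_.add_apply, _root_.smul_apply,
    ContinuousLinearMap.smulRight_apply, smul_eq_mul, ← Complex.coe_smul]
  module

lemma d1_conj (w : ℂ) : d1 (fun w : ℂ => conj w) w = 1 := by
  have h3 : fderiv ℝ (fun w : ℂ => conj w) w = (Complex.conjCLE : ℂ →L[ℝ] ℂ) :=
    (Complex.conjCLE : ℂ →L[ℝ] ℂ).fderiv
  unfold d1
  rw [h3]
  simp only [ContinuousLinearEquiv.coe_coe, Complex.conjCLE_apply, map_one, Complex.conj_I,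
    smul_eq_mul, mul_neg, Complex.I_mul_I, neg_neg]
  norm_num

lemma d1_comp_nsq {g : ℝ → ℝ} {g' : ℝ} {w : ℂ} (hg : HasDerivAt g g' (nsq w)) :
    d1 (fun w => ((g (nsq w) : ℝ) : ℂ)) w = g' * w := by
  have h1 := hg.comp_hasFDerivAt w (hasFDerivAt_nsq w)
  have h2 := Complex.ofRealCLM.hasFDerivAt.comp w h1
  have h3 : fderiv ℝ (fun w => ((g (nsq w) : ℝ) : ℂ)) w = _ := h2.fderiv
  unfold d1
  rw [h3]
  have hz : w = w.re + w.im * Complex.I := (Complex.re_add_im _).symm
  simp
  linear_combination (-(g' : ℂ)) * hz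

lemma d1_ke {e : ℝ} (he : e ≠ 0) (w : ℂ) : d1 (ke e) w = (re e w : ℝ) := by
  have hp := nsq_add_pos he w
  have hg : HasDerivAt (fun s : ℝ => (s + e ^ 2)⁻¹) (-((nsq w + e ^ 2) ^ 2)⁻¹) (nsq w) := by
    have h1 : HasDerivAt (fun s : ℝ => s + e ^ 2) 1 (nsq w) := (hasDerivAt_id _).add_const _
    have h2 := h1.inv hp.ne'
    convert! h2 using 1
    field_simp
  have h1 : ContDiff ℝ 1 (fun w => (((nsq w + e ^ 2)⁻¹ : ℝ) : ℂ)) :=
    Complex.ofRealCLM.contDiff.comp ((contDiff_nsq.add contDiff_const).inv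
      fun w => (nsq_add_pos he w).ne')
  have h3 := d1_smul (h1.differentiable one_ne_zero w)
    ((Complex.conjCLE : ℂ →L[ℝ] ℂ).contDiff.differentiable (one_ne_zero (α := WithTop ℕ∞)) w)
  have h4 := d1_comp_nsq hg
  have h5 : d1 (ke e) w = d1 (fun w => (((nsq w + e ^ 2)⁻¹ : ℝ) : ℂ) •
    (Complex.conjCLE : ℂ →L[ℝ] ℂ) w) w := rfl
  have h6 : d1 (fun w => (Complex.conjCLE : ℂ →L[ℝ] ℂ) w) w = 1 := d1_conj w
  rw [h5, h3, h4, h6]
  simp only [smul_eq_mul, ContinuousLinearEquiv.coe_coe, Complex.conjCLE_apply]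
  have h7 : w * conj w = (nsq w : ℝ) := Complex.mul_conj _
  rw [mul_assoc, h7]
  have h8 : (nsq w + e ^ 2)⁻¹ - ((nsq w + e ^ 2) ^ 2)⁻¹ * nsq w = re e w := by
    unfold re
    field_simp
    ring
  rw [← h8]
  push_cast
  ring

lemma norm_ke_le (e : ℝ) (w : ℂ) : ‖ke e w‖ ≤ ‖w‖⁻¹ := by
  rcases eq_or_ne w 0 with rfl | hw
  · simp [ke]
  have h0 : 0 < ‖w‖ := norm_pos_iff.2 hw
  unfold ke
  rw [norm_smul, Complex.norm_real, Real.norm_eq_abs, RCLike.norm_conj, nsq_eq,
    abs_of_nonneg (by positivity)]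
  calc (‖w‖ ^ 2 + e ^ 2)⁻¹ * ‖w‖ ≤ (‖w‖ ^ 2)⁻¹ * ‖w‖ := by
        gcongr
        nlinarith [_root_.sq_nonneg e]
    _ = ‖w‖⁻¹ := by field_simp

lemma measurable_ke (e : ℝ) : Measurable (ke e) := by
  unfold ke
  have h1 : Measurable nsq := (contDiff_nsq (n := 0)).continuous.measurable
  exact (Complex.measurable_ofReal.comp (h1.add_const _).inv).smul Complex.continuous_conj.measurable

lemma integrableOn_norm_inv (r : ℝ) : IntegrableOn (fun w : ℂ => ‖w‖⁻¹) (ball 0 r) := by
  have h := (integrableOn_fun_norm_addHaar (E := ℂ) (F := ℝ) (volume : Measure ℂ)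
    (f := fun t : ℝ => t⁻¹) (r := r))
  rw [h, Complex.finrank_real_complex]
  have h2 : IntegrableOn (fun _ : ℝ => (1 : ℝ)) (Ioo 0 r) := by
    exact integrableOn_const (by simp)
  refine h2.congr_fun ?_ measurableSet_Ioo
  intro y hy
  have hy0 : y ≠ 0 := hy.1.ne'
  simp [hy0]

lemma locallyIntegrable_norm_inv : LocallyIntegrable (fun w : ℂ => ‖w‖⁻¹) := by
  intro z
  refine ⟨ball 0 (‖z‖ + 1), ?_, integrableOn_norm_inv _⟩
  exact isOpen_ball.mem_nhds (by simp)

lemma locallyIntegrable_ke (e : ℝ) : LocallyIntegrable (ke e) := by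
  refine locallyIntegrable_norm_inv.mono (measurable_ke e).aestronglyMeasurable ?_
  refine Eventually.of_forall fun z => ?_
  rw [Real.norm_eq_abs, abs_of_nonneg (by positivity)]
  exact norm_ke_le e z

/-- the profile of the approximate identity -/
def prof (w : ℂ) : ℝ := ((nsq w + 1) ^ 2)⁻¹

lemma prof_pos (w : ℂ) : 0 < prof w := by
  unfold prof; have := nsq_nonneg w; positivity

lemma continuous_prof : Continuous prof := by
  unfold prof
  refine Continuous.inv₀ (((contDiff_nsq (n := 0)).continuous.add continuous_const).pow 2) ?_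
  intro z
  have := nsq_nonneg z
  positivity

lemma integrable_prof : Integrable prof := by
  have h := (integrable_rpow_neg_one_add_norm_sq (E := ℂ) (μ := volume) (r := 4)
    (by rw [Complex.finrank_real_complex]; norm_num))
  refine h.congr (Eventually.of_forall fun z => ?_)
  have : (-(4 : ℝ) / 2) = -(2 : ℕ) := by norm_num
  simp only
  rw [this, Real.rpow_neg (by positivity), Real.rpow_natCast, prof, nsq_eq, add_comm]

lemma integral_prof_pos : 0 < ∫ z, prof z := by
  rw [integral_pos_iff_support_of_nonneg (fun z => (prof_pos z).le) integrable_prof]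
  have : Function.support prof = univ := by
    ext z; simp [(prof_pos z).ne']
  rw [this]
  exact isOpen_univ.measure_pos volume univ_nonempty

/-- The normalising constant (equal to `π⁻¹`). -/
def cst : ℝ := (∫ z, prof z)⁻¹

lemma cst_pos : 0 < cst := inv_pos.2 integral_prof_pos

/-- The Cauchy kernel. -/
def K1 (w : ℂ) : ℂ := (cst : ℂ) • ke 0 w

lemma norm_K1_le (w : ℂ) : ‖K1 w‖ ≤ cst * ‖w‖⁻¹ := by
  unfold K1
  rw [norm_smul, Complex.norm_real, Real.norm_eq_abs, abs_of_pos cst_pos]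
  exact mul_le_mul_of_nonneg_left (norm_ke_le 0 w) cst_pos.le

lemma K1_eq (w : ℂ) : K1 w = cst * w⁻¹ := by
  unfold K1 ke
  rw [nsq, smul_eq_mul, smul_eq_mul, Complex.inv_def, mul_comm (conj w)]
  norm_num

lemma measurable_K1 : Measurable K1 := (measurable_ke 0).const_smul (cst : ℂ)

lemma locallyIntegrable_K1 : LocallyIntegrable K1 := (locallyIntegrable_ke 0).smul (cst : ℂ)

/-- Integration by parts. -/
lemma integral_smul_d1 {φ : ℂ → ℂ} {f : ℂ → F} (hφ : ContDiff ℝ 1 φ)
    (hf : ContDiff ℝ 1 f) (hc : HasCompactSupport f) :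
    ∫ w, φ w • d1 f w = - ∫ w, d1 φ w • f w := by
  have hφd : Differentiable ℝ φ := hφ.differentiable one_ne_zero
  have hfd : Differentiable ℝ f := hf.differentiable one_ne_zero
  have hφc : ∀ v, Continuous fun x => fderiv ℝ φ x v := fun v =>
    (hφ.continuous_fderiv one_ne_zero).clm_apply continuous_const
  have hfc : ∀ v, Continuous fun x => fderiv ℝ f x v := fun v =>
    (hf.continuous_fderiv one_ne_zero).clm_apply continuous_const
  have hcs : ∀ v, HasCompactSupport fun x => fderiv ℝ f x v := fun v => hc.fderiv_apply ℝ v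
  have i1 : ∀ v, Integrable (fun x => fderiv ℝ φ x v • f x) := fun v =>
    ((hφc v).smul hf.continuous).integrable_of_hasCompactSupport hc.smul_left
  have i2 : ∀ v, Integrable (fun x => φ x • fderiv ℝ f x v) := fun v =>
    (hφ.continuous.smul (hfc v)).integrable_of_hasCompactSupport (hcs v).smul_left
  have i3 : Integrable (fun x => φ x • f x) :=
    (hφ.continuous.smul hf.continuous).integrable_of_hasCompactSupport hc.smul_left
  have key : ∀ v, ∫ x, φ x • fderiv ℝ f x v = - ∫ x, fderiv ℝ φ x v • f x := fun v =>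
    integral_smul_fderiv_eq_neg_fderiv_smul_of_integrable (i1 v) (i2 v) i3
      (fun x _ => hφd x) (fun x _ => hfd x)
  have e1 : ∀ w, φ w • d1 f w = (1 / 2 : ℝ) • (φ w • fderiv ℝ f w 1) +
      (1 / 2 : ℝ) • (Complex.I • (φ w • fderiv ℝ f w Complex.I)) := by
    intro w
    unfold d1
    simp only [← Complex.coe_smul]
    module
  have e2 : ∀ w, d1 φ w • f w = (1 / 2 : ℝ) • (fderiv ℝ φ w 1 • f w) +
      (1 / 2 : ℝ) • (Complex.I • (fderiv ℝ φ w Complex.I • f w)) := by
    intro w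
    unfold d1
    simp only [← Complex.coe_smul, smul_eq_mul]
    module
  have comb : ∀ {u v : ℂ → F}, Integrable u → Integrable v →
      ∫ w, ((1 / 2 : ℝ) • u w + (1 / 2 : ℝ) • (Complex.I • v w)) =
      (1 / 2 : ℝ) • (∫ w, u w) + (1 / 2 : ℝ) • (Complex.I • ∫ w, v w) := by
    intro u v hu hv
    have h1 : Integrable fun w => (1 / 2 : ℝ) • u w := hu.smul _
    have h2 : Integrable fun w => Complex.I • v w := hv.smul _
    have h3 : Integrable fun w => (1 / 2 : ℝ) • (Complex.I • v w) := h2.smul _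
    rw [integral_add h1 h3, integral_smul, integral_smul, integral_smul]
  simp only [e1, e2]
  rw [comb (i2 _) (i2 _), comb (i1 _) (i1 _), key, key]
  simp only [smul_neg, neg_add]

lemma continuous_d1 {f : ℂ → F} (hf : ContDiff ℝ 1 f) : Continuous (d1 f) := by
  unfold d1
  have h := hf.continuous_fderiv one_ne_zero
  exact ((h.clm_apply continuous_const).add ((h.clm_apply continuous_const).const_smul _)).const_smul _

lemma hasCompactSupport_d1 {f : ℂ → F} (hc : HasCompactSupport f) : HasCompactSupport (d1 f) :=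
  ((hc.fderiv_apply ℝ 1).add ((hc.fderiv_apply ℝ Complex.I).smul_left
    (f := fun _ => Complex.I))).smul_left (f := fun _ => (1 / 2 : ℝ))

lemma d1_sub_left {f : ℂ → F} (hf : Differentiable ℝ f) (z w : ℂ) :
    d1 (fun w => f (z - w)) w = - d1 f (z - w) := by
  have h1 : HasFDerivAt (fun w => z - w) (-(ContinuousLinearMap.id ℝ ℂ)) w := by
    simpa using (hasFDerivAt_id (𝕜 := ℝ) w).const_sub z
  have h2 := (hf (z - w)).hasFDerivAt.comp w h1
  have h3 : fderiv ℝ (fun w => f (z - w)) w = - fderiv ℝ f (z - w) := by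
    rw [show (fun w => f (z - w)) = f ∘ (fun w => z - w) from rfl, h2.fderiv]
    ext
    simp
  unfold d1
  rw [h3]
  simp only [_root_.neg_apply, smul_neg, ← neg_add]

lemma re_inv {c : ℝ} (hc : 0 < c) (w : ℂ) : re c⁻¹ w = c ^ 2 * prof (c • w) := by
  have h1 : nsq (c • w) = c ^ 2 * nsq w := by
    rw [nsq_eq, nsq_eq, norm_smul, mul_pow, Real.norm_eq_abs, abs_of_pos hc]
  rw [re, prof, h1]
  have h := nsq_nonneg w
  field_simp

lemma rep_e {e : ℝ} (he : e ≠ 0) {f : ℂ → F} (hf : ContDiff ℝ 1 f) (hc : HasCompactSupport f)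
    (z : ℂ) : ∫ w, ke e w • d1 f (z - w) = ∫ w, re e w • f (z - w) := by
  have hg : ContDiff ℝ 1 (fun w => f (z - w)) := hf.comp (contDiff_const.sub contDiff_id)
  have hgc : HasCompactSupport (fun w => f (z - w)) := hc.comp_homeomorph (Homeomorph.subLeft z)
  have := integral_smul_d1 (contDiff_ke he) hg hgc
  simp only [d1_sub_left (hf.differentiable one_ne_zero), smul_neg] at this
  rw [integral_neg, neg_inj] at this
  rw [this]
  refine integral_congr_ae (Eventually.of_forall fun w => ?_)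
  simp only
  rw [d1_ke he, Complex.coe_smul]

lemma tendsto_prof : Tendsto (fun x : ℂ => ‖x‖ ^ Module.finrank ℝ ℂ * (cst * prof x))
    (Bornology.cobounded ℂ) (𝓝 0) := by
  rw [Complex.finrank_real_complex]
  have h1 : Tendsto (fun x : ℂ => cst * (‖x‖ ^ 2)⁻¹) (Bornology.cobounded ℂ) (𝓝 0) := by
    have := ((tendsto_pow_atTop (α := ℝ) two_ne_zero).comp
      (tendsto_norm_cobounded_atTop (E := ℂ))).inv_tendsto_atTop
    simpa using this.const_mul cst
  refine squeeze_zero' (Eventually.of_forall fun x => ?_) ?_ h1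
  · have := prof_pos x; have := cst_pos; positivity
  · filter_upwards [(tendsto_norm_cobounded_atTop (E := ℂ)).eventually_gt_atTop 0] with x hx
    rw [prof, nsq_eq]
    have h2 : (‖x‖ ^ 2) ^ 2 ≤ (‖x‖ ^ 2 + 1) ^ 2 := by gcongr; linarith
    have hc := cst_pos
    calc ‖x‖ ^ 2 * (cst * ((‖x‖ ^ 2 + 1) ^ 2)⁻¹) ≤ ‖x‖ ^ 2 * (cst * ((‖x‖ ^ 2) ^ 2)⁻¹) := by
          gcongr
      _ = cst * (‖x‖ ^ 2)⁻¹ := by field_simp

variable [CompleteSpace F]

/-- **Cauchy-Pompeiu**: `K1 ⋆ ∂f/∂(conj w) = f`. -/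
theorem rep {f : ℂ → F} (hf : ContDiff ℝ 1 f) (hc : HasCompactSupport f) (z : ℂ) :
    ∫ w, K1 w • d1 f (z - w) = f z := by
  have hg : ContDiff ℝ 1 (fun w => f (z - w)) := hf.comp (contDiff_const.sub contDiff_id)
  have hgc : HasCompactSupport (fun w => f (z - w)) := hc.comp_homeomorph (Homeomorph.subLeft z)
  have hdb : Continuous fun w => d1 f (z - w) :=
    (continuous_d1 hf).comp (continuous_const.sub continuous_id)
  have hdc : HasCompactSupport fun w => d1 f (z - w) :=
    (hasCompactSupport_d1 hc).comp_homeomorph (Homeomorph.subLeft z)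
  have hdom : Integrable fun w : ℂ => ‖w‖⁻¹ * ‖d1 f (z - w)‖ := by
    have h := locallyIntegrable_norm_inv.integrable_smul_left_of_hasCompactSupport
      (g := fun w => ‖d1 f (z - w)‖) hdb.norm hdc.norm
    simpa [smul_eq_mul, mul_comm] using h
  have hL : Tendsto (fun c : ℝ => ∫ w, ke c⁻¹ w • d1 f (z - w)) atTop
      (𝓝 (∫ w, ke 0 w • d1 f (z - w))) := by
    refine tendsto_integral_filter_of_dominated_convergence
      (fun w => ‖w‖⁻¹ * ‖d1 f (z - w)‖) ?_ ?_ hdom ?_
    · exact Eventually.of_forall fun c =>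
        ((measurable_ke _).aestronglyMeasurable).smul hdb.aestronglyMeasurable
    · refine Eventually.of_forall fun c => Eventually.of_forall fun w => ?_
      rw [norm_smul]
      exact mul_le_mul_of_nonneg_right (norm_ke_le _ w) (norm_nonneg _)
    · refine Eventually.of_forall fun w => ?_
      rcases eq_or_ne w 0 with rfl | hw
      · simp [ke]
      refine Tendsto.smul_const ?_ _
      unfold ke
      refine Tendsto.smul_const ?_ _
      have h1 : Tendsto (fun c : ℝ => (nsq w + c⁻¹ ^ 2)⁻¹) atTop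
          (𝓝 ((nsq w + (0 : ℝ) ^ 2)⁻¹)) := by
        refine Tendsto.inv₀ (tendsto_const_nhds.add (tendsto_inv_atTop_zero.pow 2)) ?_
        have := norm_pos_iff.2 hw
        rw [nsq_eq]
        positivity
      exact (Complex.continuous_ofReal.tendsto _).comp h1
  have hR : Tendsto (fun c : ℝ => ∫ w, (c ^ Module.finrank ℝ ℂ * (cst * prof (c • w))) • f (z - w))
      atTop (𝓝 (f (z - 0))) := by
    refine tendsto_integral_comp_smul_smul_of_integrable (φ := fun w => cst * prof w)
      (fun w => (mul_pos cst_pos (prof_pos w)).le) ?_ tendsto_prof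
      (g := fun w => f (z - w)) ?_ ?_
    · rw [integral_const_mul, cst, inv_mul_cancel₀ integral_prof_pos.ne']
    · exact hg.continuous.integrable_of_hasCompactSupport hgc
    · exact hg.continuous.continuousAt
  have hEq : ∀ᶠ c : ℝ in atTop, ∫ w, (c ^ Module.finrank ℝ ℂ * (cst * prof (c • w))) • f (z - w) =
      (cst : ℂ) • ∫ w, ke c⁻¹ w • d1 f (z - w) := by
    filter_upwards [eventually_gt_atTop 0] with c hc0
    rw [rep_e (inv_pos.2 hc0).ne' hf hc z, Complex.coe_smul, ← integral_smul]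
    refine integral_congr_ae (Eventually.of_forall fun w => ?_)
    simp only
    rw [re_inv hc0, smul_smul, Complex.finrank_real_complex]
    congr 1
    ring
  have h2 := (hL.const_smul (cst : ℂ))
  have h3 := tendsto_nhds_unique (hR.congr' hEq) h2
  rw [sub_zero] at h3
  rw [h3, ← integral_smul]
  refine integral_congr_ae (Eventually.of_forall fun w => ?_)
  simp only [K1, smul_assoc]

end

end Vale.Agent.P267.H667.One
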