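import Vale.Agent.P267.H667.Rep

/-!
# Convolution operators with scalar kernels, the operators `T j`
-/

open MeasureTheory Filter Topology Set Metric
open scoped Convolution ComplexConjugate ContDiff

namespace Vale.Agent.P267.H667

noncomputable section

variable {F : Type*} [NormedAddCommGroup F] [NormedSpace ℂ F]

/-- Convolution of a scalar kernel with a vector valued function. -/
def cv (k : C2 → ℂ) (f : C2 → F) (z : C2) : F := ∫ w, k w • f (z - w)

lemma cv_eq (k : C2 → ℂ) (f : C2 → F) :
    cv k f = (k ⋆[ContinuousLinearMap.lsmul ℝ ℂ, volume] f) := rfl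

/-- The operators `T j f = K j ⋆ f`. -/
def T (j : Fin 2) (f : C2 → F) : C2 → F := cv (K j) f

lemma T_apply (j : Fin 2) (f : C2 → F) (z : C2) : T j f z = ∫ w, K j w • f (z - w) := rfl

/-! ### Locally integrable kernel, compactly supported function -/

lemma integrable_cv_integrand {k : C2 → ℂ} {f : C2 → F} (hk : LocallyIntegrable k)
    (hf : Continuous f) (hc : HasCompactSupport f) (z : C2) :
    Integrable fun w => k w • f (z - w) :=
  hk.integrable_smul_right_of_hasCompactSupport (hf.comp (continuous_const.sub continuous_id))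
    (hasCompactSupport_sub_left hc z)

lemma contDiff_cv {k : C2 → ℂ} {f : C2 → F} {n : ℕ∞} (hk : LocallyIntegrable k)
    (hf : ContDiff ℝ n f) (hc : HasCompactSupport f) : ContDiff ℝ n (cv k f) := by
  rw [cv_eq]; exact hc.contDiff_convolution_right _ hk hf

lemma continuous_cv {k : C2 → ℂ} {f : C2 → F} (hk : LocallyIntegrable k)
    (hf : Continuous f) (hc : HasCompactSupport f) : Continuous (cv k f) := by
  rw [cv_eq]; exact hc.continuous_convolution_right _ hk hf

lemma fderiv_cv {k : C2 → ℂ} {f : C2 → F} (hk : LocallyIntegrable k)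
    (hf : ContDiff ℝ 1 f) (hc : HasCompactSupport f) (z v : C2) :
    fderiv ℝ (cv k f) z v = cv k (fun w => fderiv ℝ f w v) z := by
  have h := hc.hasFDerivAt_convolution_right (ContinuousLinearMap.lsmul ℝ ℂ) hk hf z
  rw [cv_eq, h.fderiv]
  exact (convolution_precompR_apply (ContinuousLinearMap.lsmul ℝ ℂ) hk (hc.fderiv (𝕜 := ℝ))
    (hf.continuous_fderiv one_ne_zero) z v)

lemma cv_add {k : C2 → ℂ} {f g : C2 → F} {z : C2} (hf : Integrable fun w => k w • f (z - w))
    (hg : Integrable fun w => k w • g (z - w)) : cv k (fun w => f w + g w) z = cv k f z + cv k g z := by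
  unfold cv
  simp only [smul_add]
  exact integral_add hf hg

lemma cv_sub {k : C2 → ℂ} {f g : C2 → F} {z : C2} (hf : Integrable fun w => k w • f (z - w))
    (hg : Integrable fun w => k w • g (z - w)) : cv k (fun w => f w - g w) z = cv k f z - cv k g z := by
  unfold cv
  simp only [smul_sub]
  exact integral_sub hf hg

lemma cv_neg (k : C2 → ℂ) (f : C2 → F) (z : C2) : cv k (fun w => - f w) z = - cv k f z := by
  unfold cv
  simp only [smul_neg]
  exact integral_neg _

lemma cv_smul (k : C2 → ℂ) (c : ℂ) (f : C2 → F) (z : C2) :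
    cv k (fun w => c • f w) z = c • cv k f z := by
  unfold cv
  rw [← integral_smul]
  congr 1
  funext w
  exact smul_comm _ _ _

lemma cv_real_smul (k : C2 → ℂ) (c : ℝ) (f : C2 → F) (z : C2) :
    cv k (fun w => c • f w) z = c • cv k f z := by
  have := cv_smul k (c : ℂ) f z
  simpa only [Complex.coe_smul] using this

lemma db_cv {k : C2 → ℂ} {f : C2 → F} {j : Fin 2} (hk : LocallyIntegrable k)
    (hf : ContDiff ℝ 1 f) (hc : HasCompactSupport f) (z : C2) :
    db j (cv k f) z = cv k (db j f) z := by
  have hi : ∀ v, Integrable fun w => k w • fderiv ℝ f (z - w) v := fun v =>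
    integrable_cv_integrand (f := fun w => fderiv ℝ f w v) hk
      ((hf.continuous_fderiv one_ne_zero).clm_apply continuous_const) (hc.fderiv_apply ℝ v) z
  have hi2 : Integrable fun w => k w • Complex.I • fderiv ℝ f (z - w) (Pi.single j Complex.I) := by
    have := (hi (Pi.single j Complex.I)).smul Complex.I
    refine this.congr (Eventually.of_forall fun w => ?_)
    exact smul_comm _ _ _
  have h1 : cv k (db j f) z = (1 / 2 : ℝ) • (cv k (fun w => fderiv ℝ f w (Pi.single j 1)) z +
      Complex.I • cv k (fun w => fderiv ℝ f w (Pi.single j Complex.I)) z) := by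
    have : db j f = fun w => (1 / 2 : ℝ) • (fderiv ℝ f w (Pi.single j 1) +
      Complex.I • fderiv ℝ f w (Pi.single j Complex.I)) := rfl
    rw [this, cv_real_smul, cv_add (hi _) hi2, cv_smul]
  rw [h1, db_eq, fderiv_cv hk hf hc, fderiv_cv hk hf hc]

/-! ### The identities for `T j` -/

lemma contDiff_T {j : Fin 2} {f : C2 → F} {n : ℕ∞} (hf : ContDiff ℝ n f) (hc : HasCompactSupport f) :
    ContDiff ℝ n (T j f) := contDiff_cv (locallyIntegrable_K j) hf hc

lemma continuous_T {j : Fin 2} {f : C2 → F} (hf : Continuous f) (hc : HasCompactSupport f) :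
    Continuous (T j f) := continuous_cv (locallyIntegrable_K j) hf hc

lemma fderiv_T {j : Fin 2} {f : C2 → F} (hf : ContDiff ℝ 1 f) (hc : HasCompactSupport f) (z v : C2) :
    fderiv ℝ (T j f) z v = T j (fun w => fderiv ℝ f w v) z := fderiv_cv (locallyIntegrable_K j) hf hc z v

lemma db_T {i j : Fin 2} {f : C2 → F} (hf : ContDiff ℝ 1 f) (hc : HasCompactSupport f) (z : C2) :
    db i (T j f) z = T j (db i f) z := db_cv (locallyIntegrable_K j) hf hc z

variable [CompleteSpace F]

/-- `∑ T j (∂f/∂conj z_j) = f`. -/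
theorem sum_T_db {f : C2 → F} (hf : ContDiff ℝ 1 f) (hc : HasCompactSupport f) (z : C2) :
    ∑ j, T j (db j f) z = f z := rep hf hc z

/-- `∑ ∂(T j f)/∂conj z_j = f`. -/
theorem sum_db_T {f : C2 → F} (hf : ContDiff ℝ 1 f) (hc : HasCompactSupport f) (z : C2) :
    ∑ j, db j (T j f) z = f z := by
  rw [← sum_T_db hf hc z]
  exact Finset.sum_congr rfl fun j _ => db_T hf hc z

/-- Homotopy formula for `(0,1)`-forms `a = a 0 d conj z_0 + a 1 d conj z_1`. -/
theorem koppelman_one {a : Fin 2 → C2 → F} (ha : ∀ j, ContDiff ℝ 1 (a j))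
    (hc : ∀ j, HasCompactSupport (a j)) (i : Fin 2) (z : C2) :
    db i (fun z => ∑ j, T j (a j) z) z =
      a i z + ∑ j, T j (fun w => db i (a j) w - db j (a i) w) z := by
  have hd : ∀ j, DifferentiableAt ℝ (T j (a j)) z := fun j =>
    (contDiff_T (n := 1) (ha j) (hc j)).differentiable one_ne_zero z
  have h1 : db i (fun z => ∑ j, T j (a j) z) z = ∑ j, T j (db i (a j)) z := by
    simp only [Fin.sum_univ_two]
    rw [db_add (hd 0) (hd 1), db_T (ha 0) (hc 0), db_T (ha 1) (hc 1)]
  have h2 : ∀ j, T j (fun w => db i (a j) w - db j (a i) w) z =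
      T j (db i (a j)) z - T j (db j (a i)) z := fun j =>
    cv_sub (integrable_cv_integrand (locallyIntegrable_K j) (continuous_db (ha j))
        (hasCompactSupport_db (hc j)) z)
      (integrable_cv_integrand (locallyIntegrable_K j) (continuous_db (ha i))
        (hasCompactSupport_db (hc i)) z)
  rw [h1, Finset.sum_congr rfl fun j _ => h2 j, Finset.sum_sub_distrib, sum_T_db (ha i) (hc i)]
  abel

/-- `(0,1)`-forms of class `C¹` with compact support which are `∂bar`-closed are `∂bar`-exact. -/
theorem koppelman_one_closed {a : Fin 2 → C2 → F} (ha : ∀ j, ContDiff ℝ 1 (a j))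
    (hc : ∀ j, HasCompactSupport (a j)) (hcl : ∀ w, db 0 (a 1) w = db 1 (a 0) w) (i : Fin 2) (z : C2) :
    db i (fun z => ∑ j, T j (a j) z) z = a i z := by
  rw [koppelman_one ha hc]
  have h : ∀ j, T j (fun w => db i (a j) w - db j (a i) w) z = 0 := by
    intro j
    have h0 : (fun w => db i (a j) w - db j (a i) w) = fun _ => 0 := by
      funext w
      fin_cases i <;> fin_cases j <;> simp [hcl w]
    rw [h0]
    simp [T, cv]
  simp [h]

/-- Homotopy formula for `(0,2)`-forms: `b = ∂(T 0 b)/∂conj z_0 - ∂(- T 1 b)/∂conj z_1`. -/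
theorem koppelman_two {b : C2 → F} (hb : ContDiff ℝ 1 b) (hc : HasCompactSupport b) (z : C2) :
    db 0 (T 0 b) z - db 1 (fun w => - T 1 b w) z = b z := by
  rw [db_neg, sub_neg_eq_add]
  simpa [Fin.sum_univ_two] using sum_db_T hb hc z

end

end Vale.Agent.P267.H667
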