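import Vale.Agent.P267.H667.One

/-!
# Partial Cauchy transforms and the local `∂bar`-Poincaré lemma in degree `(0,1)` on `ℂ²`
-/

open MeasureTheory Filter Topology Set Metric
open scoped Convolution ComplexConjugate ContDiff

namespace Vale.Agent.P267.H667

noncomputable section

open Vale.Agent.P267.H667.One (K1 d1 locallyIntegrable_K1 measurable_K1)

variable {F : Type*} [NormedAddCommGroup F] [NormedSpace ℂ F]

/-- Cauchy transform in the variable `z j`. -/
def PT (j : Fin 2) (f : C2 → F) (z : C2) : F := ∫ w : ℂ, K1 w • f (z - Pi.single j w)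

lemma norm_single (j : Fin 2) (w : ℂ) : ‖(Pi.single j w : C2)‖ = ‖w‖ := Pi.norm_single _

lemma continuous_single (j : Fin 2) : Continuous fun w : ℂ => (Pi.single j w : C2) :=
  (ContinuousLinearMap.single ℝ (fun _ : Fin 2 => ℂ) j).continuous

lemma contDiff_single (j : Fin 2) {n : WithTop ℕ∞} : ContDiff ℝ n fun w : ℂ => (Pi.single j w : C2) :=
  (ContinuousLinearMap.single ℝ (fun _ : Fin 2 => ℂ) j).contDiff

lemma sub_single_apply (z : C2) (j : Fin 2) (w p : ℂ) :
    (z - (Pi.single j w : C2)) j - p = (z j - p) - w := by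
  simp only [Pi.sub_apply, Pi.single_eq_same]; ring

lemma norm_sub_ge (a w : ℂ) : ‖w‖ - ‖a‖ ≤ ‖a - w‖ := by
  have := norm_sub_norm_le w a
  rwa [norm_sub_rev w a] at this

/-- The support condition: `f z = 0` for `z j` outside the closed ball of radius `R` around `p`. -/
def Sup (j : Fin 2) (p : ℂ) (R : ℝ) (f : C2 → F) : Prop := ∀ z : C2, R < ‖z j - p‖ → f z = 0

omit [NormedSpace ℂ F] in
lemma Sup.integrand_zero {j : Fin 2} {p : ℂ} {R : ℝ} {f : C2 → F} (hs : Sup j p R f) {z : C2} {w : ℂ}
    (hw : R + ‖z j - p‖ < ‖w‖) : f (z - Pi.single j w) = 0 := by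
  apply hs
  rw [sub_single_apply]
  have := norm_sub_ge (z j - p) w
  linarith

omit [NormedSpace ℂ F] in
lemma Sup.hasCompactSupport {j : Fin 2} {p : ℂ} {R : ℝ} {f : C2 → F} (hs : Sup j p R f) (z : C2) :
    HasCompactSupport fun w : ℂ => f (z - Pi.single j w) :=
  HasCompactSupport.of_support_subset_isCompact (isCompact_closedBall (0 : ℂ) (R + ‖z j - p‖))
    fun w hw => by
      rw [mem_closedBall_zero_iff]
      by_contra hlt
      exact hw (hs.integrand_zero (not_le.1 hlt))

lemma integrable_PT {j : Fin 2} {p : ℂ} {R : ℝ} {f : C2 → F} (hf : Continuous f) (hs : Sup j p R f)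
    (z : C2) : Integrable fun w : ℂ => K1 w • f (z - Pi.single j w) :=
  locallyIntegrable_K1.integrable_smul_right_of_hasCompactSupport
    (hf.comp (continuous_const.sub (continuous_single j))) (hs.hasCompactSupport z)

/-- The integral of the kernel over a ball. -/
def kap (R : ℝ) : ℝ := ∫ w in closedBall (0 : ℂ) R, ‖K1 w‖

lemma kap_nonneg (R : ℝ) : 0 ≤ kap R := integral_nonneg fun _ => norm_nonneg _

/-- Sup bound. -/
lemma norm_PT_le {j : Fin 2} {p : ℂ} {R M : ℝ} {f : C2 → F} (hs : Sup j p R f)
    {z : C2} (hz : ‖z j - p‖ ≤ R) (hM : ∀ w : C2, (∀ i, i ≠ j → w i = z i) → ‖f w‖ ≤ M) :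
    ‖PT j f z‖ ≤ kap (2 * R) * M := by
  unfold PT kap
  have hM0 : 0 ≤ M := (norm_nonneg _).trans (hM z fun i _ => rfl)
  have hKi : IntegrableOn (fun w => ‖K1 w‖) (closedBall (0 : ℂ) (2 * R)) :=
    (locallyIntegrable_K1.integrableOn_isCompact (isCompact_closedBall _ _)).norm
  have hd : Integrable ((closedBall (0 : ℂ) (2 * R)).indicator fun w => ‖K1 w‖ * M) :=
    IntegrableOn.integrable_indicator (hKi.mul_const M) measurableSet_closedBall
  refine (norm_integral_le_integral_norm _).trans ?_
  calc ∫ w : ℂ, ‖K1 w • f (z - Pi.single j w)‖ ≤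
        ∫ w, (closedBall (0 : ℂ) (2 * R)).indicator (fun w => ‖K1 w‖ * M) w := by
        refine integral_mono_of_nonneg (Eventually.of_forall fun w => norm_nonneg _) hd
          (Eventually.of_forall fun w => ?_)
        simp only
        by_cases hw : w ∈ closedBall (0 : ℂ) (2 * R)
        · rw [indicator_of_mem hw, norm_smul]
          refine mul_le_mul_of_nonneg_left (hM _ fun i hi => ?_) (norm_nonneg _)
          simp [Pi.single_eq_of_ne hi]
        · rw [indicator_of_notMem hw]
          rw [mem_closedBall_zero_iff, not_le] at hw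
          have : f (z - Pi.single j w) = 0 := hs.integrand_zero (by linarith)
          rw [this, smul_zero, norm_zero]
    _ = (∫ w in closedBall (0 : ℂ) (2 * R), ‖K1 w‖) * M := by
        rw [integral_indicator measurableSet_closedBall, integral_mul_const]

/-- The derivative of the transform. -/
lemma hasFDerivAt_PT {j : Fin 2} {p : ℂ} {R : ℝ} {f : C2 → F} (hf : ContDiff ℝ 1 f)
    (hs : Sup j p R f) (z₀ : C2) :
    HasFDerivAt (PT j f) (∫ w : ℂ, K1 w • fderiv ℝ f (z₀ - Pi.single j w)) z₀ := by
  set ρ : ℝ := R + ‖z₀ j - p‖ + 1 with hρ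
  have hf' : Continuous (fderiv ℝ f) := hf.continuous_fderiv one_ne_zero
  -- a bound on the derivative
  have hcomp : IsCompact ((fun q : C2 × ℂ => q.1 - Pi.single j q.2) ''
      (closedBall z₀ 1 ×ˢ closedBall (0 : ℂ) ρ)) :=
    ((isCompact_closedBall _ _).prod (isCompact_closedBall _ _)).image
      (continuous_fst.sub ((continuous_single j).comp continuous_snd))
  obtain ⟨M, hM⟩ := hcomp.exists_bound_of_continuousOn hf'.continuousOn
  have hzero : ∀ z ∈ ball z₀ 1, ∀ w : ℂ, ρ < ‖w‖ → fderiv ℝ f (z - Pi.single j w) = 0 := by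
    intro z hz w hw
    have h1 : f =ᶠ[𝓝 (z - Pi.single j w)] fun _ => 0 := by
      have hopen : IsOpen {u : C2 | R < ‖u j - p‖} :=
        isOpen_lt continuous_const ((continuous_apply j).sub continuous_const).norm
      have hmem : z - Pi.single j w ∈ {u : C2 | R < ‖u j - p‖} := by
        show R < ‖(z - (Pi.single j w : C2)) j - p‖
        rw [sub_single_apply]
        have h2 := norm_sub_ge (z j - p) w
        have h3 : ‖z j - p‖ ≤ ‖z₀ j - p‖ + 1 := by
          have h4 : ‖(z - z₀) j‖ ≤ ‖z - z₀‖ := norm_apply_le _ j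
          rw [mem_ball, dist_eq_norm] at hz
          calc ‖z j - p‖ = ‖(z - z₀) j + (z₀ j - p)‖ := by congr 1; simp
            _ ≤ ‖(z - z₀) j‖ + ‖z₀ j - p‖ := norm_add_le _ _
            _ ≤ _ := by linarith
        linarith
      filter_upwards [hopen.mem_nhds hmem] with u hu using hs u hu
    rw [h1.fderiv_eq]
    simp
  have hKi : IntegrableOn (fun w => ‖K1 w‖) (closedBall (0 : ℂ) ρ) :=
    (locallyIntegrable_K1.integrableOn_isCompact (isCompact_closedBall _ _)).norm
  have hd : Integrable ((closedBall (0 : ℂ) ρ).indicator fun w => ‖K1 w‖ * M) :=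
    IntegrableOn.integrable_indicator (hKi.mul_const M) measurableSet_closedBall
  refine hasFDerivAt_integral_of_dominated_of_fderiv_le
    (F := fun z w => K1 w • f (z - Pi.single j w))
    (F' := fun z w => K1 w • fderiv ℝ f (z - Pi.single j w))
    (bound := (closedBall (0 : ℂ) ρ).indicator fun w => ‖K1 w‖ * M) (ball_mem_nhds z₀ one_pos)
    ?_ (integrable_PT hf.continuous hs z₀) ?_ ?_ hd ?_
  · exact Eventually.of_forall fun z => measurable_K1.aestronglyMeasurable.smul
      (hf.continuous.comp (continuous_const.sub (continuous_single j))).aestronglyMeasurable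
  · exact measurable_K1.aestronglyMeasurable.smul
      (hf'.comp (continuous_const.sub (continuous_single j))).aestronglyMeasurable
  · refine Eventually.of_forall fun w z hz => ?_
    by_cases hw : w ∈ closedBall (0 : ℂ) ρ
    · rw [indicator_of_mem hw, norm_smul]
      refine mul_le_mul_of_nonneg_left (hM _ ?_) (norm_nonneg _)
      exact ⟨(z, w), ⟨ball_subset_closedBall hz, hw⟩, rfl⟩
    · rw [indicator_of_notMem hw]
      rw [mem_closedBall_zero_iff, not_le] at hw
      rw [hzero z hz w hw, smul_zero, norm_zero]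
  · refine Eventually.of_forall fun w z _ => ?_
    have h1 : HasFDerivAt (fun z : C2 => z - Pi.single j w) (ContinuousLinearMap.id ℝ C2) z :=
      (hasFDerivAt_id z).sub_const _
    have h2 := ((hf.differentiable one_ne_zero) (z - Pi.single j w)).hasFDerivAt.comp z h1
    rw [ContinuousLinearMap.comp_id] at h2
    exact h2.const_smul (K1 w)

lemma integrable_fderiv {j : Fin 2} {p : ℂ} {R : ℝ} {f : C2 → F} (hf : ContDiff ℝ 1 f)
    (hs : Sup j p R f) (z : C2) : Integrable fun w : ℂ => K1 w • fderiv ℝ f (z - Pi.single j w) := by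
  have hf' : Continuous (fderiv ℝ f) := hf.continuous_fderiv one_ne_zero
  refine locallyIntegrable_K1.integrable_smul_right_of_hasCompactSupport
    (hf'.comp (continuous_const.sub (continuous_single j))) ?_
  refine HasCompactSupport.of_support_subset_isCompact
    (isCompact_closedBall (0 : ℂ) (R + ‖z j - p‖)) fun w hw => ?_
  rw [mem_closedBall_zero_iff]
  by_contra hlt
  apply hw
  have h1 : f =ᶠ[𝓝 (z - Pi.single j w)] fun _ => 0 := by
    have hopen : IsOpen {u : C2 | R < ‖u j - p‖} :=
      isOpen_lt continuous_const ((continuous_apply j).sub continuous_const).norm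
    have hmem : z - Pi.single j w ∈ {u : C2 | R < ‖u j - p‖} := by
      show R < ‖(z - (Pi.single j w : C2)) j - p‖
      rw [sub_single_apply]
      have h2 := norm_sub_ge (z j - p) w
      have := not_le.1 hlt
      linarith
    filter_upwards [hopen.mem_nhds hmem] with u hu using hs u hu
  simp only
  rw [h1.fderiv_eq]
  simp

lemma Sup.db {i j : Fin 2} {p : ℂ} {R : ℝ} {f : C2 → F} (hs : Sup j p R f) : Sup j p R (db i f) := by
  intro z hz
  have hopen : IsOpen {u : C2 | R < ‖u j - p‖} :=
    isOpen_lt continuous_const ((continuous_apply j).sub continuous_const).norm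
  have h1 : f =ᶠ[𝓝 z] fun _ => 0 := by
    filter_upwards [hopen.mem_nhds hz] with u hu using hs u hu
  rw [db_congr_nhds h1]
  simp [Vale.Agent.P267.H667.db, dbL_zero]

/-- The transform is of class `C^n`, also with parameters. -/
theorem contDiffOn_PT_param {X : Type*} [NormedAddCommGroup X] [NormedSpace ℝ X] {j : Fin 2}
    {p : ℂ} {R : ℝ} {s : Set X} (hso : IsOpen s) {f : X → C2 → F} {n : ℕ∞}
    (hf : ContDiffOn ℝ n (fun q : X × C2 => f q.1 q.2) (s ×ˢ univ))
    (hs : ∀ x ∈ s, Sup j p R (f x)) :
    ContDiffOn ℝ n (fun q : X × C2 => PT j (f q.1) q.2) (s ×ˢ univ) := by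
  let g : X × C2 → ℂ → F := fun q x => f q.1 (q.2 + Pi.single j (x - q.2 j))
  have hg : ContDiffOn ℝ n (↿g) ((s ×ˢ (univ : Set C2)) ×ˢ univ) := by
    have h1 : ContDiff ℝ n fun r : (X × C2) × ℂ =>
        ((r.1.1, r.1.2 + Pi.single j (r.2 - r.1.2 j)) : X × C2) := by
      refine ContDiff.prodMk (contDiff_fst.comp contDiff_fst) (ContDiff.add
        (contDiff_snd.comp contDiff_fst) ((contDiff_single j).comp (ContDiff.sub contDiff_snd ?_)))
      exact (contDiff_apply ℝ ℂ j).comp (contDiff_snd.comp contDiff_fst)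
    have h2 := hf.comp (h1.contDiffOn (s := (s ×ˢ (univ : Set C2)) ×ˢ univ))
      (fun r hr => ⟨hr.1.1, mem_univ _⟩)
    exact h2
  have hgs : ∀ q : X × C2, ∀ x : ℂ, q ∈ s ×ˢ (univ : Set C2) → x ∉ closedBall p R → g q x = 0 := by
    intro q x hq hx
    refine hs q.1 hq.1 _ ?_
    rw [mem_closedBall, dist_eq_norm, not_le] at hx
    simpa using hx
  have h4 := contDiffOn_convolution_right_with_param_comp (μ := (volume : Measure ℂ))
    (ContinuousLinearMap.lsmul ℝ ℂ : ℂ →L[ℝ] F →L[ℝ] F) (v := fun q : X × C2 => q.2 j)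
    (s := s ×ˢ (univ : Set C2)) ((contDiff_apply ℝ ℂ j).comp contDiff_snd).contDiffOn
    (hso.prod isOpen_univ) (isCompact_closedBall p R) hgs locallyIntegrable_K1 hg
  refine h4.congr fun q _ => ?_
  unfold PT convolution
  congr 1
  funext w
  simp only [ContinuousLinearMap.lsmul_apply, g]
  congr 2
  ext i
  by_cases hi : i = j
  · subst hi; simp; ring
  · simp [Pi.single_eq_of_ne hi]

lemma contDiff_PT {j : Fin 2} {p : ℂ} {R : ℝ} {f : C2 → F} {n : ℕ∞} (hf : ContDiff ℝ n f)
    (hs : Sup j p R f) : ContDiff ℝ n (PT j f) := by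
  have h := contDiffOn_PT_param (X := ℝ) (s := univ) isOpen_univ (f := fun _ => f) (n := n) (j := j)
    (p := p) (R := R) ((hf.comp contDiff_snd).contDiffOn) (fun _ _ => hs)
  rw [univ_prod_univ, contDiffOn_univ] at h
  have h2 : ContDiff ℝ n fun z : C2 => ((0 : ℝ), z) := contDiff_const.prodMk contDiff_id
  exact h.comp h2

variable [CompleteSpace F]

/-- The transform commutes with derivatives. -/
lemma db_PT {i j : Fin 2} {p : ℂ} {R : ℝ} {f : C2 → F} (hf : ContDiff ℝ 1 f) (hs : Sup j p R f)
    (z : C2) : db i (PT j f) z = PT j (db i f) z := by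
  have h1 := (hasFDerivAt_PT hf hs z).fderiv
  have h2 := integrable_fderiv hf hs z
  unfold db
  rw [h1, ← dbLL_apply, ← (dbLL (F := F) i).integral_comp_comm h2]
  unfold PT
  congr 1
  funext w
  rw [dbLL_apply]
  simp only [dbL, _root_.smul_apply]
  simp only [← Complex.coe_smul]
  module

/-- The transform in the variable `z j` inverts `db j`. -/
lemma PT_db {j : Fin 2} {p : ℂ} {R : ℝ} {f : C2 → F} (hf : ContDiff ℝ 1 f) (hs : Sup j p R f)
    (z : C2) : PT j (db j f) z = f z := by
  -- the slice
  set g : ℂ → F := fun x => f (z + Pi.single j (x - z j)) with hg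
  have hgC : ContDiff ℝ 1 g :=
    hf.comp (contDiff_const.add ((contDiff_single j).comp (contDiff_id.sub contDiff_const)))
  have hgc : HasCompactSupport g :=
    HasCompactSupport.of_support_subset_isCompact (isCompact_closedBall p R) fun x hx => by
      rw [mem_closedBall, dist_eq_norm]
      by_contra hlt
      apply hx
      apply hs
      simpa using hlt
  have h1 := One.rep hgC hgc (z j)
  have e1 : g (z j) = f z := by simp [hg]
  rw [e1] at h1
  rw [← h1]
  unfold PT
  congr 1
  funext w
  congr 1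
  have h2 : HasFDerivAt (fun x : ℂ => z + Pi.single j (x - z j))
      (ContinuousLinearMap.single ℝ (fun _ : Fin 2 => ℂ) j) (z j - w) := by
    have h3 : HasFDerivAt (fun x : ℂ => x - z j) (ContinuousLinearMap.id ℝ ℂ) (z j - w) :=
      (hasFDerivAt_id _).sub_const _
    have h4 := ((ContinuousLinearMap.single ℝ (fun _ : Fin 2 => ℂ) j).hasFDerivAt
      (x := z j - w - z j)).comp (z j - w) h3
    rw [ContinuousLinearMap.comp_id] at h4
    exact h4.const_add z
  have h5 := ((hf.differentiable one_ne_zero)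
    (z + Pi.single j (z j - w - z j))).hasFDerivAt.comp (z j - w) h2
  have h6 : fderiv ℝ g (z j - w) = _ := h5.fderiv
  have e2 : z + Pi.single j (z j - w - z j) = z - Pi.single j w := by
    have : z j - w - z j = -w := by ring
    rw [this]
    ext i
    by_cases hi : i = j
    · subst hi; simp; ring
    · simp [Pi.single_eq_of_ne hi]
  unfold d1 db dbL
  rw [h6, e2]
  rfl

end

end Vale.Agent.P267.H667
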