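import Vale.Agent.P267.H667.Poin
import Vale.Agent.P267.H667.Loc

/-!
# The local `∂bar`-Poincaré lemma in degree `(0,1)` on polydiscs of `ℂ²`, with sup bounds
-/

open MeasureTheory Filter Topology Set Metric
open scoped Convolution ComplexConjugate ContDiff

namespace Vale.Agent.P267.H667

noncomputable section

open Vale.Agent.P267.H667.One (K1 d1 locallyIntegrable_K1 measurable_K1)

variable {F : Type*} [NormedAddCommGroup F] [NormedSpace ℂ F]

/-- A smooth complex function with support in `U` times a function which is `C^n` on `U`. -/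
lemma contDiff_smul_of_tsupport {χ : C2 → ℂ} (hχ : ContDiff ℝ ∞ χ) {U : Set C2} (hU : IsOpen U)
    (hs : tsupport χ ⊆ U) {f : C2 → F} {n : ℕ∞} (hf : ContDiffOn ℝ n f U) :
    ContDiff ℝ n (fun z => χ z • f z) := by
  rw [contDiff_iff_contDiffAt]
  intro z
  by_cases hz : z ∈ tsupport χ
  · exact (hχ.of_le (by exact_mod_cast le_top)).contDiffAt.smul (hf.contDiffAt (hU.mem_nhds (hs hz)))
  · have h1 : (fun z => χ z • f z) =ᶠ[𝓝 z] fun _ => 0 := by
      filter_upwards [(isClosed_tsupport χ).isOpen_compl.mem_nhds hz] with w hw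
      have : χ w = 0 := image_eq_zero_of_notMem_tsupport hw
      simp [this]
    exact contDiffAt_const.congr_of_eventuallyEq h1

lemma PT_congr {j : Fin 2} {f g : C2 → F} {z : C2}
    (h : ∀ w : C2, (∀ i, i ≠ j → w i = z i) → f w = g w) : PT j f z = PT j g z := by
  unfold PT
  congr 1
  funext w
  rw [h]
  intro i hi
  simp [Pi.single_eq_of_ne hi]

lemma PT_add {j : Fin 2} {p : ℂ} {R : ℝ} {f g : C2 → F} (hf : Continuous f) (hg : Continuous g)
    (hsf : Sup j p R f) (hsg : Sup j p R g) (z : C2) :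
    PT j (fun w => f w + g w) z = PT j f z + PT j g z := by
  unfold PT
  simp only [smul_add]
  exact integral_add (integrable_PT hf hsf z) (integrable_PT hg hsg z)

/-- Derivative of a function of one coordinate. -/
lemma db_coord {i j : Fin 2} {c : ℂ → ℂ} {z : C2} (hc : DifferentiableAt ℝ c (z j)) :
    db i (fun z : C2 => c (z j)) z = if i = j then d1 c (z j) else 0 := by
  have h1 : HasFDerivAt (fun z : C2 => z j)
      (ContinuousLinearMap.proj (R := ℝ) (φ := fun _ : Fin 2 => ℂ) j) z :=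
    (ContinuousLinearMap.proj (R := ℝ) (φ := fun _ : Fin 2 => ℂ) j).hasFDerivAt
  have h2 : HasFDerivAt (fun z : C2 => c (z j)) _ z := hc.hasFDerivAt.comp z h1
  unfold db dbL
  rw [h2.fderiv]
  split_ifs with hij
  · subst hij
    simp [d1]
  · simp [Pi.single_eq_of_ne (Ne.symm hij)]

variable [CompleteSpace F]

/-- **Local `∂bar`-Poincaré lemma** on polydiscs centred at the origin, with sup bounds. -/
theorem poincare_zero {r R : ℝ} (hr : 0 < r) (hrR : r < R) : ∃ C : ℝ, 0 < C ∧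
    ∀ (n : ℕ∞) (a : Fin 2 → C2 → F), 1 ≤ n → (∀ i, ContDiffOn ℝ n (a i) (ball 0 R)) →
      (∀ z ∈ ball (0 : C2) R, db 0 (a 1) z = db 1 (a 0) z) →
      ∃ φ : C2 → F, ContDiff ℝ n φ ∧ (∀ z ∈ ball (0 : C2) r, ∀ i, db i φ z = a i z) ∧
        ∀ M : ℝ, (∀ z ∈ ball (0 : C2) R, ∀ i, ‖a i z‖ ≤ M) → ∀ z ∈ ball (0 : C2) r, ‖φ z‖ ≤ C * M := by
  -- radii and cut-offs
  obtain ⟨r₁, hr₁, hr₁'⟩ : ∃ r₁, r < r₁ ∧ r₁ < R := exists_between hrR
  obtain ⟨r₂, hr₂, hr₂'⟩ : ∃ r₂, r₁ < r₂ ∧ r₂ < R := exists_between hr₁'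
  have hr10 : 0 < r₁ := hr.trans hr₁
  have hr20 : 0 < r₂ := hr10.trans hr₂
  let χb : ContDiffBump (0 : ℂ) := ⟨r₁, r₂, hr10, hr₂⟩
  let ψb : ContDiffBump (0 : ℂ) := ⟨r, r₁, hr, hr₁⟩
  let χ : ℂ → ℂ := fun w => ((χb w : ℝ) : ℂ)
  let ψ : ℂ → ℂ := fun w => ((ψb w : ℝ) : ℂ)
  have hχC : ContDiff ℝ ∞ χ := Complex.ofRealCLM.contDiff.comp χb.contDiff
  have hψC : ContDiff ℝ ∞ ψ := Complex.ofRealCLM.contDiff.comp ψb.contDiff
  have hχ1 : ∀ w : ℂ, ‖w‖ < r₁ → χ =ᶠ[𝓝 w] fun _ => 1 := by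
    intro w hw
    have : ball (0 : ℂ) r₁ ∈ 𝓝 w := isOpen_ball.mem_nhds (by simpa using hw)
    filter_upwards [this] with u hu
    have := χb.one_of_mem_closedBall (ball_subset_closedBall hu)
    simp [χ, this]
  have hψ1 : ∀ w : ℂ, ‖w‖ < r → ψ =ᶠ[𝓝 w] fun _ => 1 := by
    intro w hw
    have : ball (0 : ℂ) r ∈ 𝓝 w := isOpen_ball.mem_nhds (by simpa using hw)
    filter_upwards [this] with u hu
    have := ψb.one_of_mem_closedBall (ball_subset_closedBall hu)
    simp [ψ, this]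
  have hχ0 : ∀ w : ℂ, r₂ < ‖w‖ → χ w = 0 := by
    intro w hw
    have := χb.zero_of_le_dist (x := w) (by rw [dist_zero_right]; exact hw.le)
    simp [χ, this]
  have hψ0 : ∀ w : ℂ, r₁ < ‖w‖ → ψ w = 0 := by
    intro w hw
    have := ψb.zero_of_le_dist (x := w) (by rw [dist_zero_right]; exact hw.le)
    simp [ψ, this]
  have hχn : ∀ w, ‖χ w‖ ≤ 1 := by
    intro w
    simp only [χ, Complex.norm_real, Real.norm_eq_abs, abs_of_nonneg χb.nonneg]
    exact χb.le_one
  have hψn : ∀ w, ‖ψ w‖ ≤ 1 := by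
    intro w
    simp only [ψ, Complex.norm_real, Real.norm_eq_abs, abs_of_nonneg ψb.nonneg]
    exact ψb.le_one
  let γ : ℂ → ℂ := d1 χ
  have hγC : ContDiff ℝ ∞ γ := by
    have h1 : ContDiff ℝ ∞ (fderiv ℝ χ) := hχC.fderiv_right (by simp)
    exact ((h1.clm_apply contDiff_const).add ((h1.clm_apply contDiff_const).const_smul
      Complex.I)).const_smul (1 / 2 : ℝ)
  have hγ1 : ∀ w : ℂ, ‖w‖ < r₁ → γ w = 0 := by
    intro w hw
    have := (hχ1 w hw).fderiv_eq (𝕜 := ℝ)
    simp [γ, d1, this]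
  have hγ0 : ∀ w : ℂ, r₂ < ‖w‖ → γ w = 0 := by
    intro w hw
    have h1 : χ =ᶠ[𝓝 w] fun _ => 0 := by
      have : (closedBall (0 : ℂ) r₂)ᶜ ∈ 𝓝 w := isClosed_closedBall.isOpen_compl.mem_nhds (by
        simpa using hw)
      filter_upwards [this] with u hu
      exact hχ0 u (by simpa using hu)
    have := h1.fderiv_eq (𝕜 := ℝ)
    simp [γ, d1, this]
  have hγc : HasCompactSupport γ :=
    HasCompactSupport.of_support_subset_isCompact (isCompact_closedBall (0 : ℂ) r₂) fun w hw => by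
      rw [mem_closedBall_zero_iff]
      by_contra hlt
      exact hw (hγ0 w (not_le.1 hlt))
  obtain ⟨Γ, hΓ⟩ := hγc.exists_bound_of_continuous hγC.continuous
  have hΓ0 : 0 ≤ Γ := (norm_nonneg _).trans (hΓ 0)
  refine ⟨kap (2 * r₂) + kap (2 * r₁) * (kap (2 * r₂) * Γ) + 1, by
    have := kap_nonneg (2 * r₂); have := kap_nonneg (2 * r₁); positivity, ?_⟩
  intro n a hn ha hcl
  have hn1 : (1 : WithTop ℕ∞) ≤ n := by exact_mod_cast hn
  -- the cut-off functions on `ℂ²`
  let X : C2 → ℂ := fun z => χ (z 0) * χ (z 1)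
  let Y : C2 → ℂ := fun z => χ (z 0) * γ (z 1)
  have hc0 : ContDiff ℝ ∞ fun z : C2 => z 0 := contDiff_apply ℝ ℂ 0
  have hc1 : ContDiff ℝ ∞ fun z : C2 => z 1 := contDiff_apply ℝ ℂ 1
  have hXC : ContDiff ℝ ∞ X := (hχC.comp hc0).mul (hχC.comp hc1)
  have hYC : ContDiff ℝ ∞ Y := (hχC.comp hc0).mul (hγC.comp hc1)
  have hsub : ∀ g : C2 → ℂ, (∀ z : C2, r₂ < ‖z 0‖ ∨ r₂ < ‖z 1‖ → g z = 0) →
      tsupport g ⊆ ball (0 : C2) R := by
    intro g hg
    refine (closure_minimal (s := Function.support g) (t := closedBall (0 : C2) r₂) ?_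
      isClosed_closedBall).trans (closedBall_subset_ball hr₂')
    intro z hz
    rw [mem_closedBall_zero_iff, pi_norm_le_iff_of_nonneg hr20.le]
    intro i
    by_contra hlt
    apply hz
    apply hg
    fin_cases i
    · exact Or.inl (not_le.1 hlt)
    · exact Or.inr (not_le.1 hlt)
  have hXs : tsupport X ⊆ ball (0 : C2) R := hsub X (by
    rintro z (hz | hz)
    · simp [X, hχ0 _ hz]
    · simp [X, hχ0 _ hz])
  have hYs : tsupport Y ⊆ ball (0 : C2) R := hsub Y (by
    rintro z (hz | hz)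
    · simp [Y, hχ0 _ hz]
    · simp [Y, hγ0 _ hz])
  let A : Fin 2 → C2 → F := fun i z => X z • a i z
  let G : C2 → F := fun z => Y z • a 0 z
  have hA : ∀ i, ContDiff ℝ n (A i) := fun i => contDiff_smul_of_tsupport hXC isOpen_ball hXs (ha i)
  have hG : ContDiff ℝ n G := contDiff_smul_of_tsupport hYC isOpen_ball hYs (ha 0)
  have hA1 : ∀ i, ContDiff ℝ 1 (A i) := fun i => (hA i).of_le hn1
  have hG1 : ContDiff ℝ 1 G := hG.of_le hn1
  have sA : ∀ i, Sup 1 0 r₂ (A i) := fun i z hz => by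
    rw [sub_zero] at hz
    simp [A, X, hχ0 _ hz]
  have sG : Sup 1 0 r₂ G := fun z hz => by
    rw [sub_zero] at hz
    simp [G, Y, hγ0 _ hz]
  have hPG : ContDiff ℝ n (PT 1 G) := contDiff_PT hG sG
  let b : C2 → F := fun z => ψ (z 0) • PT 1 G z
  have hψz : ContDiff ℝ n fun z : C2 => ψ (z 0) :=
    (hψC.comp hc0).of_le (by exact_mod_cast le_top)
  have hb : ContDiff ℝ n b := hψz.smul hPG
  have hb1 : ContDiff ℝ 1 b := hb.of_le hn1
  have sb : Sup 0 0 r₁ b := fun z hz => by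
    rw [sub_zero] at hz
    simp [b, hψ0 _ hz]
  have hP1 : ContDiff ℝ n (PT 1 (A 1)) := contDiff_PT (hA 1) (sA 1)
  have hP0 : ContDiff ℝ n (PT 0 b) := contDiff_PT hb sb
  refine ⟨fun z => PT 1 (A 1) z + PT 0 b z, hP1.add hP0, ?_, ?_⟩
  · intro z hz
    have hzi : ∀ i, ‖z i‖ < r := fun i => (norm_apply_le z i).trans_lt (by simpa using hz)
    have hX1 : X z = 1 := by
      have h0 := (hχ1 (z 0) ((hzi 0).trans hr₁)).self_of_nhds
      have h1 := (hχ1 (z 1) ((hzi 1).trans hr₁)).self_of_nhds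
      simp only [X, h0, h1, mul_one]
    have hAz : ∀ i, A i z = a i z := fun i => by simp only [A, hX1, one_smul]
    have hsum : ∀ i, db i (fun z => PT 1 (A 1) z + PT 0 b z) z =
        PT 1 (db i (A 1)) z + PT 0 (db i b) z := by
      intro i
      rw [db_add (((hP1.of_le hn1).differentiable one_ne_zero) z)
        (((hP0.of_le hn1).differentiable one_ne_zero) z), db_PT (hA1 1) (sA 1), db_PT hb1 sb]
    -- the index one
    have hi1 : PT 1 (db 1 (A 1)) z + PT 0 (db 1 b) z = a 1 z := by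
      rw [PT_db (hA1 1) (sA 1), hAz]
      have h0 : PT 0 (db 1 b) z = PT 0 (fun _ => (0 : F)) z := by
        refine PT_congr fun w hw => ?_
        have hw1 : w 1 = z 1 := hw 1 (by decide)
        have e1 : db 1 b w = ψ (w 0) • db 1 (PT 1 G) w + db 1 (fun z : C2 => ψ (z 0)) w • PT 1 G w :=
          db_smul (((hψz.of_le hn1).differentiable one_ne_zero) w)
            (((hPG.of_le hn1).differentiable one_ne_zero) w)
        have e2 : db 1 (fun z : C2 => ψ (z 0)) w = 0 := by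
          rw [db_coord ((hψC.differentiable (by simp)) (w 0))]
          simp
        have e3 : db 1 (PT 1 G) w = 0 := by
          rw [db_PT hG1 sG, PT_db hG1 sG]
          simp only [G, Y]
          rw [hw1, hγ1 _ ((hzi 1).trans hr₁)]
          simp
        rw [e1, e2, e3]
        simp
      rw [h0]
      simp [PT]
    have hi0 : PT 1 (db 0 (A 1)) z + PT 0 (db 0 b) z = a 0 z := by
      rw [PT_db hb1 sb]
      have hbz : b z = PT 1 G z := by
        have := (hψ1 (z 0) (hzi 0)).self_of_nhds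
        simp only [b, this, one_smul]
      rw [hbz, ← PT_add (continuous_db (hA1 1)) hG1.continuous ((sA 1).db) sG]
      have h1 : PT 1 (fun w => db 0 (A 1) w + G w) z = PT 1 (db 1 (A 0)) z := by
        refine PT_congr fun w hw => ?_
        have hw0 : w 0 = z 0 := hw 0 (by decide)
        have hχw : χ =ᶠ[𝓝 (w 0)] fun _ => 1 := hχ1 _ (by rw [hw0]; exact (hzi 0).trans hr₁)
        have hχw1 : χ (w 0) = 1 := hχw.self_of_nhds
        by_cases hwR : w ∈ ball (0 : C2) R
        · have hXw : DifferentiableAt ℝ X w := (hXC.differentiable (by simp)) w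
          have hadiff : ∀ i, DifferentiableAt ℝ (a i) w := fun i =>
            (((ha i).contDiffAt (isOpen_ball.mem_nhds hwR)).of_le hn1).differentiableAt one_ne_zero
          have e1 : ∀ i j, db i (A j) w = X w • db i (a j) w + db i X w • a j w := fun i j =>
            db_smul hXw (hadiff j)
          have hXe : X =ᶠ[𝓝 w] fun z => χ (z 1) := by
            have : ∀ᶠ u : C2 in 𝓝 w, χ (u 0) = 1 := (continuous_apply (0 : Fin 2)).continuousAt.eventually hχw
            filter_upwards [this] with u hu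
            simp only [X, hu, one_mul]
          have e2 : db 0 X w = 0 := by
            rw [db_congr_nhds hXe, db_coord ((hχC.differentiable (by simp)) (w 1))]
            simp
          have e3 : db 1 X w = γ (w 1) := by
            rw [db_congr_nhds hXe, db_coord ((hχC.differentiable (by simp)) (w 1))]
            simp [γ]
          rw [e1, e1, e2, e3, hcl w hwR]
          simp only [G, Y, hχw1, one_mul, zero_smul, add_zero]
        · have hz0 : ∀ i j, db i (A j) w = 0 := by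
            intro i j
            have hnot : w ∉ tsupport X := fun h => hwR (hXs h)
            have : A j =ᶠ[𝓝 w] fun _ => 0 := by
              filter_upwards [(isClosed_tsupport X).isOpen_compl.mem_nhds hnot] with u hu
              have : X u = 0 := image_eq_zero_of_notMem_tsupport hu
              simp [A, this]
            rw [db_congr_nhds this]
            simp [db, dbL_zero]
          have hY0 : Y w = 0 := image_eq_zero_of_notMem_tsupport fun h => hwR (hYs h)
          rw [hz0, hz0]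
          simp [G, hY0]
      rw [h1, PT_db (hA1 0) (sA 0), hAz]
    intro i
    rw [hsum]
    fin_cases i
    · exact hi0
    · exact hi1
  · intro M hM z hz
    have hzi : ∀ i, ‖z i‖ < r := fun i => (norm_apply_le z i).trans_lt (by simpa using hz)
    have hM0 : 0 ≤ M := (norm_nonneg _).trans (hM 0 (mem_ball_self (hr.trans hrR)) 0)
    have hbd : ∀ (g : C2 → ℂ) (B : ℝ), 0 ≤ B → (∀ z, ‖g z‖ ≤ B) → tsupport g ⊆ ball (0 : C2) R →
        ∀ i w, ‖g w • a i w‖ ≤ B * M := by
      intro g B hB hg hgs i w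
      by_cases hw : w ∈ ball (0 : C2) R
      · rw [norm_smul]
        exact mul_le_mul (hg w) (hM w hw i) (norm_nonneg _) hB
      · have : g w = 0 := image_eq_zero_of_notMem_tsupport fun h => hw (hgs h)
        rw [this, zero_smul, norm_zero]
        positivity
    have hA1b : ∀ w, ‖A 1 w‖ ≤ 1 * M := hbd X 1 zero_le_one (fun z => by
      simp only [X, norm_mul]
      exact mul_le_one₀ (hχn _) (norm_nonneg _) (hχn _)) hXs 1
    have hGb : ∀ w, ‖G w‖ ≤ Γ * M := hbd Y Γ hΓ0 (fun z => by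
      simp only [Y, norm_mul]
      calc ‖χ (z 0)‖ * ‖γ (z 1)‖ ≤ 1 * Γ := mul_le_mul (hχn _) (hΓ _) (norm_nonneg _) zero_le_one
        _ = Γ := one_mul _) hYs 0
    have h1 : ‖PT 1 (A 1) z‖ ≤ kap (2 * r₂) * M := by
      have := norm_PT_le (sA 1) (z := z) (M := M)
        (by rw [sub_zero]; exact ((hzi 1).trans (hr₁.trans hr₂)).le)
        (fun w _ => by simpa using hA1b w)
      exact this
    have h2 : ‖PT 0 b z‖ ≤ kap (2 * r₁) * (kap (2 * r₂) * Γ * M) := by
      refine norm_PT_le sb (z := z) (by rw [sub_zero]; exact ((hzi 0).trans hr₁).le)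
        (fun w hw => ?_)
      have hw1 : w 1 = z 1 := hw 1 (by decide)
      have h3 : ‖PT 1 G w‖ ≤ kap (2 * r₂) * (Γ * M) := norm_PT_le sG (z := w)
        (by rw [sub_zero, hw1]; exact ((hzi 1).trans (hr₁.trans hr₂)).le) (fun u _ => hGb u)
      simp only [b, norm_smul]
      calc ‖ψ (w 0)‖ * ‖PT 1 G w‖ ≤ 1 * (kap (2 * r₂) * (Γ * M)) :=
            mul_le_mul (hψn _) h3 (norm_nonneg _) zero_le_one
        _ = _ := by ring
    calc ‖PT 1 (A 1) z + PT 0 b z‖ ≤ kap (2 * r₂) * M + kap (2 * r₁) * (kap (2 * r₂) * Γ * M) :=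
          (norm_add_le _ _).trans (add_le_add h1 h2)
      _ ≤ _ := by nlinarith

omit [CompleteSpace F] in
lemma fderiv_comp_add_right' {f : C2 → F} (p z : C2) :
    fderiv ℝ (fun w => f (w + p)) z = fderiv ℝ f (z + p) := by
  rw [fderiv_comp_add_right]

omit [CompleteSpace F] in
lemma db_comp_add {i : Fin 2} {f : C2 → F} (p z : C2) :
    db i (fun w => f (w + p)) z = db i f (z + p) := by
  unfold db
  rw [fderiv_comp_add_right']

/-- **Local `∂bar`-Poincaré lemma** on polydiscs (balls for the sup norm) with arbitrary centre, with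
sup bounds; the constant depends only on the radii. -/
theorem poincare {r R : ℝ} (hr : 0 < r) (hrR : r < R) : ∃ C : ℝ, 0 < C ∧
    ∀ (p : C2) (n : ℕ∞) (a : Fin 2 → C2 → F), 1 ≤ n → (∀ i, ContDiffOn ℝ n (a i) (ball p R)) →
      (∀ z ∈ ball p R, db 0 (a 1) z = db 1 (a 0) z) →
      ∃ φ : C2 → F, ContDiff ℝ n φ ∧ (∀ z ∈ ball p r, ∀ i, db i φ z = a i z) ∧
        ∀ M : ℝ, (∀ z ∈ ball p R, ∀ i, ‖a i z‖ ≤ M) → ∀ z ∈ ball p r, ‖φ z‖ ≤ C * M := by
  obtain ⟨C, hC, h⟩ := poincare_zero (F := F) hr hrR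
  refine ⟨C, hC, fun p n a hn ha hcl => ?_⟩
  have hmem : ∀ (z : C2) (ρ : ℝ), z ∈ ball (0 : C2) ρ ↔ z + p ∈ ball p ρ := by
    intro z ρ; simp [dist_eq_norm]
  obtain ⟨φ, h1, h2, h3⟩ := h n (fun i z => a i (z + p)) hn (fun i => by
      have h5 : ContDiff ℝ n fun z : C2 => z + p := contDiff_id.add contDiff_const
      exact (ha i).comp h5.contDiffOn (fun z hz => (hmem z R).1 hz))
    (fun z hz => by rw [db_comp_add, db_comp_add]; exact hcl _ ((hmem z R).1 hz))
  have h5 : ContDiff ℝ n fun z : C2 => z - p := contDiff_id.sub contDiff_const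
  refine ⟨fun z => φ (z - p), h1.comp h5, ?_, ?_⟩
  · intro z hz i
    have e := db_comp_add (i := i) (f := φ) (-p) z
    simp only [← sub_eq_add_neg] at e
    rw [e, h2 (z - p) ((hmem _ _).2 (by simpa using hz)) i]
    simp
  · intro M hM z hz
    exact h3 M (fun z hz i => hM _ ((hmem z R).1 hz) i) (z - p) ((hmem _ _).2 (by simpa using hz))

/-- Local form: near each point a smooth `∂bar`-closed `(0,1)`-form is `∂bar`-exact. -/
theorem poincare_local {n : ℕ∞} (hn : 1 ≤ n) {U : Set C2} (hU : IsOpen U) {p : C2} (hp : p ∈ U)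
    {a : Fin 2 → C2 → F} (ha : ∀ i, ContDiffOn ℝ n (a i) U)
    (hcl : ∀ z ∈ U, db 0 (a 1) z = db 1 (a 0) z) :
    ∃ V : Set C2, IsOpen V ∧ p ∈ V ∧ V ⊆ U ∧ ∃ u : C2 → F, ContDiff ℝ n u ∧
      ∀ z ∈ V, ∀ i, db i u z = a i z := by
  obtain ⟨R, hR, hRU⟩ := Metric.isOpen_iff.1 hU p hp
  obtain ⟨C, -, h⟩ := poincare (F := F) (half_pos hR) (half_lt_self hR)
  obtain ⟨φ, h1, h2, -⟩ := h p n a hn (fun i => (ha i).mono hRU) (fun z hz => hcl z (hRU hz))
  exact ⟨ball p (R / 2), isOpen_ball, mem_ball_self (half_pos hR),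
    (ball_subset_ball (half_le_self hR.le)).trans hRU, φ, h1, h2⟩

end

end Vale.Agent.P267.H667
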