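import Vale.Agent.P267.H667.Loc

/-!
# Duality and weak `∂bar`-derivatives, Weyl's lemma
-/

open MeasureTheory Filter Topology Set Metric
open scoped Convolution ComplexConjugate ContDiff

namespace Vale.Agent.P267.H667

noncomputable section

variable {F : Type*} [NormedAddCommGroup F] [NormedSpace ℂ F]

/-- Restriction of a function to a ball does not change the convolution near a point. -/
lemma cv_indicator_eq {k : C2 → ℂ} {r : ℝ} (hk : ∀ w, r < ‖w‖ → k w = 0) {z₀ : C2}
    {R : ℝ} (f : C2 → F) {z : C2} (hz : z ∈ closedBall z₀ R) :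
    cv k f z = cv k ((closedBall z₀ (r + R)).indicator f) z := by
  unfold cv
  congr 1
  funext w
  by_cases hw : r < ‖w‖
  · simp [hk w hw]
  · rw [indicator_of_mem]
    rw [mem_closedBall, dist_eq_norm] at hz ⊢
    calc ‖z - w - z₀‖ = ‖(z - z₀) - w‖ := by congr 1; abel
      _ ≤ ‖z - z₀‖ + ‖w‖ := norm_sub_le _ _
      _ ≤ R + r := add_le_add hz (not_lt.1 hw)
      _ = r + R := add_comm _ _

omit [NormedSpace ℂ F] in
lemma integrable_indicator_closedBall {f : C2 → F} (hf : LocallyIntegrable f) (z₀ : C2) (R : ℝ) :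
    Integrable ((closedBall z₀ R).indicator f) :=
  (hf.integrableOn_isCompact (isCompact_closedBall _ _)).integrable_indicator measurableSet_closedBall

lemma integrable_cv {k : C2 → ℂ} (hk : Integrable k) {f : C2 → F} (hf : Integrable f) :
    Integrable (cv k f) := by
  rw [cv_eq]; exact hk.integrable_convolution _ hf

lemma locallyIntegrable_cv {k : C2 → ℂ} (hk : Integrable k) (hkc : HasCompactSupport k)
    {f : C2 → F} (hf : LocallyIntegrable f) : LocallyIntegrable (cv k f) := by
  obtain ⟨r, hr0, hr⟩ := exists_radius hkc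
  intro z₀
  refine ⟨closedBall z₀ 1, closedBall_mem_nhds z₀ one_pos, ?_⟩
  have h1 : Integrable (cv k ((closedBall z₀ (r + 1)).indicator f)) :=
    integrable_cv hk (integrable_indicator_closedBall hf z₀ (r + 1))
  refine h1.integrableOn.congr_fun ?_ measurableSet_closedBall
  intro z hz
  exact (cv_indicator_eq hr f hz).symm

/-- Duality for integrable functions. -/
lemma integral_smul_cv_aux [CompleteSpace F] {k : C2 → ℂ} (hk : Integrable k) {φ : C2 → ℂ} (hφ : Continuous φ)
    {M : ℝ} (hM : ∀ z, ‖φ z‖ ≤ M) {f : C2 → F} (hf : Integrable f) :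
    ∫ z, φ z • cv k f z = ∫ w, cv (fun u => k (-u)) φ w • f w := by
  have h1 : Integrable (fun q : C2 × C2 => k (q.1 - q.2) • f q.2) (volume.prod volume) := by
    have := hf.convolution_integrand (ContinuousLinearMap.lsmul ℝ ℂ : ℂ →L[ℝ] F →L[ℝ] F).flip hk
    exact this
  have h2 : Integrable (fun q : C2 × C2 => φ q.1 • (k (q.1 - q.2) • f q.2)) (volume.prod volume) :=
    h1.bdd_smul M (hφ.comp continuous_fst).aestronglyMeasurable (Eventually.of_forall fun q => hM q.1)
  calc ∫ z, φ z • cv k f z = ∫ z, ∫ w, φ z • (k (z - w) • f w) := by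
        congr 1; funext z
        rw [cv_swap, integral_smul]
    _ = ∫ w, ∫ z, φ z • (k (z - w) • f w) := integral_integral_swap h2
    _ = ∫ w, cv (fun u => k (-u)) φ w • f w := by
        congr 1; funext w
        have e1 : (∫ z, φ z • (k (z - w) • f w)) = (∫ z, k (z - w) • φ z) • f w := by
          rw [← integral_smul_const]
          congr 1; funext z
          rw [smul_smul, smul_eq_mul, mul_comm]
        rw [e1, cv_swap]
        congr 2
        funext z
        rw [neg_sub]

/-- **Duality**: `∫ φ • (k ⋆ f) = ∫ (ǩ ⋆ φ) • f`, `f` locally integrable, `φ` continuous with compact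
support, `k` integrable with compact support. -/
theorem integral_smul_cv [CompleteSpace F] {k : C2 → ℂ} (hk : Integrable k) (hkc : HasCompactSupport k)
    {φ : C2 → ℂ} (hφ : Continuous φ) (hφc : HasCompactSupport φ) {f : C2 → F}
    (hf : LocallyIntegrable f) :
    ∫ z, φ z • cv k f z = ∫ w, cv (fun u => k (-u)) φ w • f w := by
  obtain ⟨r, hr0, hr⟩ := exists_radius hkc
  obtain ⟨R, hR0, hR⟩ := exists_radius hφc
  obtain ⟨M, hM⟩ := hφc.exists_bound_of_continuous hφ
  have h1 := integral_smul_cv_aux hk hφ hM (integrable_indicator_closedBall hf 0 (r + R))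
  have e1 : ∀ z, φ z • cv k f z = φ z • cv k ((closedBall 0 (r + R)).indicator f) z := by
    intro z
    by_cases hz : R < ‖z‖
    · rw [hR z hz, zero_smul, zero_smul]
    · rw [cv_indicator_eq hr f (z₀ := 0) (R := R) (by simpa using hz)]
  have e2 : ∀ w, cv (fun u => k (-u)) φ w • (closedBall 0 (r + R)).indicator f w =
      cv (fun u => k (-u)) φ w • f w := by
    intro w
    by_cases hw : w ∈ closedBall (0 : C2) (r + R)
    · rw [indicator_of_mem hw]
    · rw [indicator_of_notMem hw, smul_zero]
      have : cv (fun u => k (-u)) φ w = 0 := by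
        unfold cv
        rw [← integral_zero C2 ℂ]
        congr 1
        funext u
        show k (-u) • φ (w - u) = 0
        by_cases hu : r < ‖u‖
        · rw [hr (-u) (by rwa [norm_neg]), zero_smul]
        · rw [hR, smul_zero]
          rw [mem_closedBall_zero_iff, not_le] at hw
          have := norm_sub_norm_le w u
          linarith
      rw [this, zero_smul]
  simp only [e1]
  rw [h1]
  simp only [e2]

/-! ### Weak derivatives -/

/-- `a` is the weak derivative `∂u/∂(conj z_j)` on the set `U`. -/
def WeakDb (j : Fin 2) (U : Set C2) (u a : C2 → F) : Prop :=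
  ∀ φ : C2 → ℂ, ContDiff ℝ ∞ φ → HasCompactSupport φ → tsupport φ ⊆ U →
    ∫ z, db j φ z • u z = - ∫ z, φ z • a z

lemma WeakDb.mono {j : Fin 2} {U V : Set C2} {u a : C2 → F} (h : WeakDb j U u a) (hV : V ⊆ U) :
    WeakDb j V u a := fun φ h1 h2 h3 => h φ h1 h2 (h3.trans hV)

/-- Localisation by a smooth cut-off function. -/
lemma WeakDb.cut {j : Fin 2} {U : Set C2} {u a : C2 → F} (h : WeakDb j U u a)
    (hu : LocallyIntegrableOn u U) (ha : LocallyIntegrableOn a U) {χ : C2 → ℂ}
    (hχ : ContDiff ℝ ∞ χ) (hχc : HasCompactSupport χ) (hs : tsupport χ ⊆ U) :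
    WeakDb j univ (fun z => χ z • u z) (fun z => χ z • a z + db j χ z • u z) := by
  intro φ hφ hφc _
  have hint : ∀ (g : C2 → ℂ) (v : C2 → F), LocallyIntegrableOn v U → Continuous g →
      tsupport g ⊆ tsupport χ → Integrable fun z => g z • v z := by
    intro g v hv hg hgs
    have hK : IsCompact (tsupport χ) := hχc
    have h1 : IntegrableOn v (tsupport χ) := hv.integrableOn_compact_subset hs hK
    have h2 : IntegrableOn (fun z => g z • v z) (tsupport χ) := by
      have := h1.continuousOn_smul hg.continuousOn hK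
      exact this
    refine (integrableOn_iff_integrable_of_support_subset ?_).1 h2
    intro z hz
    by_contra hz2
    apply hz
    have : g z = 0 := image_eq_zero_of_notMem_tsupport fun h => hz2 (hgs h)
    simp [this]
  have hp : ContDiff ℝ ∞ fun z => χ z * φ z := hχ.mul hφ
  have hpc : HasCompactSupport fun z => χ z * φ z := hχc.mul_right
  have hps : tsupport (fun z => χ z * φ z) ⊆ tsupport χ := tsupport_mul_subset_left
  have h1 := h _ hp hpc (hps.trans hs)
  have hd : ∀ z, db j (fun z => χ z * φ z) z = χ z * db j φ z + db j χ z * φ z := fun z => by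
    have := db_smul (j := j) (F := ℂ) ((hχ.differentiable (by simp)) z) ((hφ.differentiable (by simp)) z)
    simpa [smul_eq_mul] using this
  have hdχ : Continuous (db j χ) := continuous_db (hχ.of_le (by exact_mod_cast le_top))
  have hdφ : Continuous (db j φ) := continuous_db (hφ.of_le (by exact_mod_cast le_top))
  have i1 : Integrable fun z => (χ z * db j φ z) • u z :=
    hint _ _ hu (hχ.continuous.mul hdφ) tsupport_mul_subset_left
  have i2 : Integrable fun z => (db j χ z * φ z) • u z :=
    hint _ _ hu (hdχ.mul hφ.continuous) (tsupport_mul_subset_left.trans (tsupport_db_subset j χ))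
  have i3 : Integrable fun z => (χ z * φ z) • a z :=
    hint _ _ ha (hχ.continuous.mul hφ.continuous) tsupport_mul_subset_left
  simp only [hd, add_smul] at h1
  rw [integral_add i1 i2] at h1
  have e1 : ∀ z, db j φ z • (χ z • u z) = (χ z * db j φ z) • u z := fun z => by
    rw [smul_smul, mul_comm]
  have e2 : ∀ z, φ z • (χ z • a z + db j χ z • u z) = (χ z * φ z) • a z + (db j χ z * φ z) • u z :=
    fun z => by rw [smul_add, smul_smul, smul_smul, mul_comm (φ z), mul_comm (φ z)]
  simp only [e1, e2]
  rw [integral_add i3 i2, neg_add, ← h1]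
  abel

/-- Classical derivatives are weak derivatives. -/
lemma weakDb_of_contDiff {j : Fin 2} {u : C2 → F} (hu : ContDiff ℝ 1 u) :
    WeakDb j univ u (db j u) := by
  intro φ hφ hφc _
  obtain ⟨R, hR0, hR⟩ := exists_radius hφc
  obtain ⟨χ, h1, h2, h3, -, -, -⟩ := exists_cutoff (0 : C2) (R := R + 1) (by positivity)
  have hc : ContDiff ℝ 1 (cut χ u) := contDiff_cut (n := 1) h1 hu
  have h4 := integral_smul_db (j := j) (hφ.of_le (by exact_mod_cast le_top) : ContDiff ℝ 1 φ) hc
    (hasCompactSupport_cut h2)
  have hsm : ∀ z, R < ‖z‖ → db j φ z = 0 := by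
    intro z hz
    have : φ =ᶠ[𝓝 z] fun _ => 0 := by
      have : {u : C2 | R < ‖u‖} ∈ 𝓝 z := (isOpen_lt continuous_const continuous_norm).mem_nhds hz
      filter_upwards [this] with w hw using hR w hw
    rw [db_congr_nhds this]
    simp [db, dbL_zero]
  have e1 : ∀ z, φ z • db j (cut χ u) z = φ z • db j u z := by
    intro z
    by_cases hz : R < ‖z‖
    · rw [hR z hz, zero_smul, zero_smul]
    · have : ∀ᶠ w in 𝓝 z, χ w = 1 := by
        have : ball (0 : C2) (R + 1) ∈ 𝓝 z := isOpen_ball.mem_nhds (by
          rw [mem_ball_zero_iff]; linarith [not_lt.1 hz])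
        filter_upwards [this] with w hw using h3 w (ball_subset_closedBall hw)
      rw [db_congr_nhds (cut_eventuallyEq this)]
  have e2 : ∀ z, db j φ z • cut χ u z = db j φ z • u z := by
    intro z
    by_cases hz : R < ‖z‖
    · rw [hsm z hz, zero_smul, zero_smul]
    · rw [cut, h3 z (by rw [mem_closedBall_zero_iff]; linarith [not_lt.1 hz]), one_smul]
  simp only [e1, e2] at h4
  rw [h4, neg_neg]

variable [CompleteSpace F]

/-- Reflected cut-off formula for test functions. -/
lemma rep_cut_neg {η : C2 → ℝ} (h : IsCutoff η) {φ : C2 → ℂ} (hφ : ContDiff ℝ 1 φ) (z : C2) :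
    ∑ j, cv (fun u => kc η j (-u)) (db j φ) z = - (φ z - cv (fun u => rho η (-u)) φ z) := by
  have hr : ContDiff ℝ 1 fun w => φ (-w) := hφ.comp contDiff_neg
  have h1 := rep_cut h hr (-z)
  have h2 : ∀ j w, db j (fun w => φ (-w)) w = - db j φ (-w) := by
    intro j w
    have := db_sub_left (j := j) (hφ.differentiable one_ne_zero) 0 w
    simpa using this
  have h3 : ∀ (k g : C2 → ℂ), cv (fun u => k (-u)) g z = ∫ w, k w • g (z + w) := by
    intro k g
    unfold cv
    rw [← integral_neg_eq_self (fun w => k w • g (z + w))]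
    simp only [← sub_eq_add_neg]
  simp only [h3]
  unfold cv at h1
  simp only [h2, neg_neg, neg_sub, smul_neg] at h1
  have h4 : ∀ w : C2, w - -z = z + w := fun w => by abel
  simp only [h4, integral_neg, Finset.sum_neg_distrib] at h1
  rw [← h1, neg_neg]

/-- **Weak representation formula**: if `a j` is the weak derivative of `u` in `conj z_j` on `ℂ²`,
then almost everywhere `∑ k_j ⋆ a_j = u - ρ ⋆ u`. -/
theorem rep_weak {η : C2 → ℝ} (h : IsCutoff η) {u : C2 → F} {a : Fin 2 → C2 → F}
    (hu : LocallyIntegrable u) (ha : ∀ j, LocallyIntegrable (a j))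
    (hw : ∀ j, WeakDb j univ u (a j)) :
    ∀ᵐ z, ∑ j, cv (kc η j) (a j) z = u z - cv (rho η) u z := by
  have hρi : Integrable (rho η) :=
    (contDiff_rho h).continuous.integrable_of_hasCompactSupport (hasCompactSupport_rho h)
  have l1 : ∀ j, LocallyIntegrable (cv (kc η j) (a j)) := fun j =>
    locallyIntegrable_cv (integrable_kc h j) (hasCompactSupport_kc h j) (ha j)
  have l2 : LocallyIntegrable (cv (rho η) u) :=
    locallyIntegrable_cv hρi (hasCompactSupport_rho h) hu
  have l1' : LocallyIntegrable fun z => ∑ j, cv (kc η j) (a j) z := by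
    simp only [Fin.sum_univ_two]
    exact (l1 0).add (l1 1)
  refine ae_eq_of_integral_contDiff_smul_eq l1' (hu.sub l2) fun g hg hgc => ?_
  -- pass to a complex valued test function
  let φ : C2 → ℂ := fun z => (g z : ℂ)
  have hφ : ContDiff ℝ ∞ φ := Complex.ofRealCLM.contDiff.comp hg
  have hφ1 : ContDiff ℝ 1 φ := hφ.of_le (by exact_mod_cast le_top)
  have hφc : HasCompactSupport φ := hgc.comp_left (g := ((↑) : ℝ → ℂ)) Complex.ofReal_zero
  have hint : ∀ {v : C2 → F}, LocallyIntegrable v → Integrable fun z => φ z • v z := fun hv =>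
    hv.integrable_smul_left_of_hasCompactSupport hφ.continuous hφc
  have e1 : ∫ z, g z • ∑ j, cv (kc η j) (a j) z = ∑ j, ∫ z, φ z • cv (kc η j) (a j) z := by
    rw [← integral_finsetSum _ fun j _ => hint (l1 j)]
    refine integral_congr_ae (Eventually.of_forall fun z => ?_)
    simp only [φ, Finset.smul_sum, Complex.coe_smul]
  have hkn : ∀ j, LocallyIntegrable fun u => kc η j (-u) := fun j =>
    ((integrable_kc h j).comp_neg).locallyIntegrable
  have hknc : ∀ j, HasCompactSupport fun u => kc η j (-u) := fun j =>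
    (hasCompactSupport_kc h j).comp_homeomorph (Homeomorph.neg C2)
  have hψ : ∀ j, ContDiff ℝ ∞ (cv (fun u => kc η j (-u)) φ) := fun j =>
    contDiff_cv (n := ⊤) (hkn j) hφ hφc
  have hψc : ∀ j, HasCompactSupport (cv (fun u => kc η j (-u)) φ) := fun j => by
    rw [cv_eq]; exact (hknc j).convolution _ hφc
  have e2 : ∀ j, ∫ z, φ z • cv (kc η j) (a j) z =
      - ∫ z, cv (fun u => kc η j (-u)) (db j φ) z • u z := by
    intro j
    rw [integral_smul_cv (integrable_kc h j) (hasCompactSupport_kc h j) hφ.continuous hφc (ha j)]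
    have := hw j _ (hψ j) (hψc j) (subset_univ _)
    rw [← neg_eq_iff_eq_neg] at this
    rw [← this]
    congr 1
    refine integral_congr_ae (Eventually.of_forall fun z => ?_)
    simp only
    rw [db_cv (hkn j) hφ1 hφc]
  have hdc : ∀ j, Continuous (cv (fun u => kc η j (-u)) (db j φ)) := fun j =>
    continuous_cv (hkn j) (continuous_db hφ1) (hasCompactSupport_db hφc)
  have hdcc : ∀ j, HasCompactSupport (cv (fun u => kc η j (-u)) (db j φ)) := fun j => by
    rw [cv_eq]; exact (hknc j).convolution _ (hasCompactSupport_db hφc)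
  have hi4 : ∀ j, Integrable fun z => cv (fun u => kc η j (-u)) (db j φ) z • u z := fun j =>
    hu.integrable_smul_left_of_hasCompactSupport (hdc j) (hdcc j)
  rw [e1, Finset.sum_congr rfl fun j _ => e2 j, Finset.sum_neg_distrib,
    ← integral_finsetSum _ fun j _ => hi4 j, ← integral_neg]
  have e3 : ∀ z, -∑ j, cv (fun u => kc η j (-u)) (db j φ) z • u z =
      φ z • u z - cv (fun u => rho η (-u)) φ z • u z := by
    intro z
    rw [← Finset.sum_smul, rep_cut_neg h hφ1, neg_smul, neg_neg, sub_smul]
  simp only [e3]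
  have hρn : Integrable fun u => rho η (-u) := hρi.comp_neg
  have hρnc : HasCompactSupport fun u => rho η (-u) :=
    (hasCompactSupport_rho h).comp_homeomorph (Homeomorph.neg C2)
  have hi5 : Integrable fun z => cv (fun u => rho η (-u)) φ z • u z :=
    hu.integrable_smul_left_of_hasCompactSupport
      (continuous_cv hρn.locallyIntegrable hφ.continuous hφc)
      (by rw [cv_eq]; exact hρnc.convolution _ hφc)
  rw [integral_sub (hint hu) hi5,
    ← integral_smul_cv hρi (hasCompactSupport_rho h) hφ.continuous hφc hu,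
    ← integral_sub (hint hu) (hint l2)]
  refine integral_congr_ae (Eventually.of_forall fun z => ?_)
  simp only [φ, ← smul_sub, Complex.coe_smul]

/-! ### Regularity -/

/-- A smooth complex cut-off function in an open set. -/
lemma exists_cutoff_complex {U : Set C2} (hU : IsOpen U) {z₀ : C2} (hz₀ : z₀ ∈ U) :
    ∃ (χ : C2 → ℂ) (r : ℝ), 0 < r ∧ ContDiff ℝ ∞ χ ∧ HasCompactSupport χ ∧ tsupport χ ⊆ U ∧
      ball z₀ r ⊆ U ∧ ∀ z ∈ ball z₀ r, χ z = 1 := by
  obtain ⟨d, hd, hdU⟩ := Metric.isOpen_iff.1 hU z₀ hz₀
  have hd3 : 0 < d / 3 := by positivity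
  obtain ⟨χ, h1, h2, h3, h4, h5, h6⟩ := exists_cutoff z₀ hd3
  have hc : tsupport (fun z => (χ z : ℂ)) ⊆ tsupport χ := closure_mono fun z hz => by
    intro h0; apply hz; simp only [h0, Complex.ofReal_zero]
  refine ⟨fun z => (χ z : ℂ), d / 3, hd3, Complex.ofRealCLM.contDiff.comp h1,
    h2.comp_left (g := ((↑) : ℝ → ℂ)) Complex.ofReal_zero,
    hc.trans (h6.trans ((closedBall_subset_ball (by linarith)).trans hdU)),
    (ball_subset_ball (by linarith)).trans hdU, fun z hz => ?_⟩
  simp [h3 z (ball_subset_closedBall hz)]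

/-- **Local regularity**: if the weak derivatives `a j` of the locally integrable function `u` are
`C^n` on `U`, then near each point of `U` the function `u` agrees almost everywhere with a `C^n`
function. -/
theorem regularity_local {U : Set C2} (hU : IsOpen U) {n : ℕ∞} {u : C2 → F} {a : Fin 2 → C2 → F}
    (hu : LocallyIntegrableOn u U) (ha : ∀ j, ContDiffOn ℝ n (a j) U)
    (hw : ∀ j, WeakDb j U u (a j)) {z₀ : C2} (hz₀ : z₀ ∈ U) :
    ∃ r > 0, ∃ v : C2 → F, ball z₀ r ⊆ U ∧ ContDiffOn ℝ n v (ball z₀ r) ∧
      ∀ᵐ z, z ∈ ball z₀ r → u z = v z := by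
  obtain ⟨χ, r, hr, h1, h2, h3, h4, h5⟩ := exists_cutoff_complex hU hz₀
  obtain ⟨η, hη, -⟩ := exists_isCutoff (r := 1) one_pos
  have hloc : ∀ (g : C2 → ℂ) (v : C2 → F), LocallyIntegrableOn v U → Continuous g →
      tsupport g ⊆ tsupport χ → LocallyIntegrable fun z => g z • v z := by
    intro g v hv hg hgs
    have h1 : IntegrableOn v (tsupport χ) := hv.integrableOn_compact_subset h3 h2
    have h6 : IntegrableOn (fun z => g z • v z) (tsupport χ) :=
      h1.continuousOn_smul hg.continuousOn h2
    refine Integrable.locallyIntegrable ((integrableOn_iff_integrable_of_support_subset ?_).1 h6)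
    intro z hz
    by_contra hz2
    apply hz
    have : g z = 0 := image_eq_zero_of_notMem_tsupport fun h => hz2 (hgs h)
    simp [this]
  have hai : ∀ j, LocallyIntegrableOn (a j) U := fun j =>
    (ha j).continuousOn.locallyIntegrableOn hU.measurableSet
  have hdχ : ∀ j, Continuous (db j χ) := fun j => continuous_db (h1.of_le (by exact_mod_cast le_top))
  have hw' := fun j => (hw j).cut hu (hai j) h1 h2 h3
  have l1 := hloc χ u hu h1.continuous subset_rfl
  have l2 : ∀ j, LocallyIntegrable fun z => χ z • a j z + db j χ z • u z := fun j =>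
    (hloc χ (a j) (hai j) h1.continuous subset_rfl).add
      (hloc (db j χ) u hu (hdχ j) (tsupport_db_subset j χ))
  have hrep := rep_weak hη l1 l2 hw'
  have hρi : Integrable (rho η) :=
    (contDiff_rho hη).continuous.integrable_of_hasCompactSupport (hasCompactSupport_rho hη)
  refine ⟨r, hr, fun z => (∑ j, cv (kc η j) (fun z => χ z • a j z + db j χ z • u z) z) +
    cv (rho η) (fun z => χ z • u z) z, h4, ?_, ?_⟩
  · refine ContDiffOn.add (ContDiffOn.sum fun j _ => ?_) ?_
    · refine contDiffOn_cv (locallyIntegrable_kc hη j) (hasCompactSupport_kc hη j)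
        (fun z hz => contDiffAt_kc hη hz) (l2 j) isOpen_ball ?_
      refine ((ha j).mono h4).congr fun z hz => ?_
      have e1 : χ z = 1 := h5 z hz
      have e2 : db j χ z = 0 := by
        have : χ =ᶠ[𝓝 z] fun _ => 1 := by
          filter_upwards [isOpen_ball.mem_nhds hz] with w hw using h5 w hw
        rw [db_congr_nhds this]
        simp [db, dbL_zero]
      rw [e1, e2, one_smul, zero_smul, add_zero]
    · exact (contDiff_cv_left ((contDiff_rho hη).of_le (by exact_mod_cast le_top))
        (hasCompactSupport_rho hη) l1).contDiffOn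
  · filter_upwards [hrep] with z hz hzr
    rw [hz, h5 z hzr, one_smul]
    abel

/-- **Regularity of continuous weak solutions**: a continuous function with `C^n` weak derivatives
`a j` is of class `C^n` (for `n ≥ 1` its classical derivatives are the `a j`, see
`db_eq_of_weakDb`). -/
theorem contDiffOn_of_weakDb {U : Set C2} (hU : IsOpen U) {n : ℕ∞} {u : C2 → F}
    {a : Fin 2 → C2 → F} (hu : ContinuousOn u U) (ha : ∀ j, ContDiffOn ℝ n (a j) U)
    (hw : ∀ j, WeakDb j U u (a j)) : ContDiffOn ℝ n u U := by
  intro z₀ hz₀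
  obtain ⟨r, hr, v, h1, h2, h3⟩ := regularity_local hU (hu.locallyIntegrableOn hU.measurableSet)
    ha hw hz₀
  have h4 : EqOn u v (ball z₀ r) := by
    have h5 : u =ᵐ[volume.restrict (ball z₀ r)] v := by
      rw [EventuallyEq, ae_restrict_iff' measurableSet_ball]
      exact h3
    exact Measure.eqOn_open_of_ae_eq h5 isOpen_ball (hu.mono h1) h2.continuousOn
  have h6 : ContDiffAt ℝ n v z₀ := h2.contDiffAt (ball_mem_nhds z₀ hr)
  refine (h6.congr_of_eventuallyEq ?_).contDiffWithinAt
  filter_upwards [ball_mem_nhds z₀ hr] with z hz using h4 hz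

/-- Weak derivatives of a `C¹` function are its classical derivatives. -/
theorem db_eq_of_weakDb {j : Fin 2} {U : Set C2} (hU : IsOpen U) {u a : C2 → F}
    (hu : ContDiffOn ℝ 1 u U) (ha : ContinuousOn a U) (hw : WeakDb j U u a) {z : C2} (hz : z ∈ U) :
    db j u z = a z := by
  obtain ⟨χ, r, hr, h1, h2, h3, h4, h5⟩ := exists_cutoff_complex hU hz
  have hc1 : ContDiff ℝ 1 (fun z => χ z • u z) := by
    rw [contDiff_iff_contDiffAt]
    intro w
    by_cases hw : w ∈ tsupport χ
    · exact (h1.of_le (by exact_mod_cast le_top)).contDiffAt.smul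
        (hu.contDiffAt (hU.mem_nhds (h3 hw)))
    · have h1 : (fun z => χ z • u z) =ᶠ[𝓝 w] fun _ => 0 := by
        filter_upwards [(isClosed_tsupport χ).isOpen_compl.mem_nhds hw] with x hx
        have : χ x = 0 := image_eq_zero_of_notMem_tsupport hx
        simp [this]
      exact contDiffAt_const.congr_of_eventuallyEq h1
  have hw1 := weakDb_of_contDiff (j := j) hc1
  have hw2 := hw.cut (hu.continuousOn.locallyIntegrableOn hU.measurableSet)
    (ha.locallyIntegrableOn hU.measurableSet) h1 h2 h3
  have hcont : Continuous fun z => χ z • a z + db j χ z • u z := by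
    have hdχ : Continuous (db j χ) := continuous_db (h1.of_le (by exact_mod_cast le_top))
    rw [continuous_iff_continuousAt]
    intro w
    by_cases hw : w ∈ tsupport χ
    · exact (h1.continuous.continuousAt.smul (ha.continuousAt (hU.mem_nhds (h3 hw)))).add
        (hdχ.continuousAt.smul (hu.continuousOn.continuousAt (hU.mem_nhds (h3 hw))))
    · have h6 : (fun z => χ z • a z + db j χ z • u z) =ᶠ[𝓝 w] fun _ => 0 := by
        filter_upwards [(isClosed_tsupport χ).isOpen_compl.mem_nhds hw] with x hx
        have e1 : χ x = 0 := image_eq_zero_of_notMem_tsupport hx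
        have e2 : db j χ x = 0 :=
          image_eq_zero_of_notMem_tsupport fun h => hx (tsupport_db_subset j χ h)
        simp [e1, e2]
      exact continuousAt_const.congr h6.symm
  have hEq : ∀ᵐ z, db j (fun z => χ z • u z) z = χ z • a z + db j χ z • u z := by
    refine ae_eq_of_integral_contDiff_smul_eq (continuous_db hc1).locallyIntegrable
      hcont.locallyIntegrable fun g hg hgc => ?_
    have hφ : ContDiff ℝ ∞ fun z => (g z : ℂ) := Complex.ofRealCLM.contDiff.comp hg
    have hφc : HasCompactSupport fun z => (g z : ℂ) :=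
      hgc.comp_left (g := ((↑) : ℝ → ℂ)) Complex.ofReal_zero
    have e1 := hw1 _ hφ hφc (subset_univ _)
    have e2 := hw2 _ hφ hφc (subset_univ _)
    rw [e1, neg_inj] at e2
    simpa only [Complex.coe_smul] using e2
  have hEq2 : db j (fun z => χ z • u z) = fun z => χ z • a z + db j χ z • u z :=
    (continuous_db hc1).ae_eq_iff_eq volume hcont |>.1 hEq
  have hz1 : χ =ᶠ[𝓝 z] fun _ => 1 := by
    filter_upwards [ball_mem_nhds z hr] with w hw using h5 w hw
  have e3 : db j χ z = 0 := by
    rw [db_congr_nhds hz1]; simp [db, dbL_zero]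
  have e4 : (fun z => χ z • u z) =ᶠ[𝓝 z] u := by
    filter_upwards [hz1] with w hw
    rw [hw, one_smul]
  have := congrFun hEq2 z
  rw [db_congr_nhds e4, e3, hz1.self_of_nhds, one_smul, zero_smul, add_zero] at this
  exact this

end

end Vale.Agent.P267.H667
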